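import Mathlib

/-!
# P207, line N3, package P14: the limit object of the first time argument is impossible

`contra`: `V + b(F) w B(dF,dF) = 0` with `V, F, w` smooth and `F` not constant makes `b` smooth
at some point.
-/

open Set Filter Topology

noncomputable section

namespace Vale.Agent.P207.N3.H476

variable {E T : Type*} [NormedAddCommGroup E] [NormedSpace ℝ E]
  [NormedAddCommGroup T] [NormedSpace ℝ T]

/-- a function of one variable is smooth if its composition with a submersion is -/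
theorem smooth_of_comp {k : ℕ} {b : ℝ → ℝ} {F : E → ℝ} {u₀ : E}
    (hF : ContDiffAt ℝ (k + 1 : ℕ) F u₀) (hd : fderiv ℝ F u₀ ≠ 0)
    (h : ContDiffAt ℝ k (fun u => b (F u)) u₀) : ContDiffAt ℝ k b (F u₀) := by
  obtain ⟨v, hv⟩ : ∃ v, fderiv ℝ F u₀ v ≠ 0 := by
    by_contra hcon
    push Not at hcon
    exact hd (ContinuousLinearMap.ext hcon)
  set φ : ℝ → ℝ := fun t => F (u₀ + t • v) with hφ
  have hline : ContDiffAt ℝ (k + 1 : ℕ) (fun t : ℝ => u₀ + t • v) 0 := by fun_prop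
  have e0 : u₀ + (0 : ℝ) • v = u₀ := by simp
  have hF0 : ContDiffAt ℝ (k + 1 : ℕ) F (u₀ + (0 : ℝ) • v) := by rw [e0]; exact hF
  have h1 : ContDiffAt ℝ (k + 1 : ℕ) φ 0 := ContDiffAt.comp (0 : ℝ) hF0 hline
  have hne : ((k + 1 : ℕ) : WithTop ℕ∞) ≠ 0 := by exact_mod_cast Nat.succ_ne_zero k
  have h2 : HasDerivAt φ (fderiv ℝ F u₀ v) 0 := by
    have h3 : HasFDerivAt F (fderiv ℝ F u₀) (u₀ + (0 : ℝ) • v) := by
      rw [e0]
      exact (hF.differentiableAt hne).hasFDerivAt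
    have h4 : HasDerivAt (fun t : ℝ => u₀ + t • v) v 0 := by
      simpa using ((hasDerivAt_id (0 : ℝ)).smul_const v).const_add u₀
    exact h3.comp_hasDerivAt (0 : ℝ) h4
  have h2' : HasFDerivAt φ ((ContinuousLinearEquiv.unitsEquivAut ℝ (Units.mk0 _ hv) : ℝ ≃L[ℝ] ℝ) :
      ℝ →L[ℝ] ℝ) 0 := by
    have := h2.hasFDerivAt
    refine this.congr_fderiv ?_
    ext
    simp [ContinuousLinearEquiv.unitsEquivAut_apply]
  set ψ := h1.localInverse h2' hne with hψ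
  have hψs : ContDiffAt ℝ (k + 1 : ℕ) ψ (φ 0) := h1.to_localInverse h2' hne
  have hψ0 : ψ (φ 0) = 0 := h1.localInverse_apply_image h2' hne
  have hφψ : ∀ᶠ s in 𝓝 (φ 0), φ (ψ s) = s :=
    (h1.hasStrictFDerivAt' h2' hne).eventually_right_inverse
  have eφ0 : φ 0 = F u₀ := by simp [hφ]
  rw [← eφ0]
  have h5 : ContDiffAt ℝ k (fun s => b (F (u₀ + ψ s • v))) (φ 0) := by
    have h6 : ContDiffAt ℝ k (fun s => u₀ + ψ s • v) (φ 0) :=
      contDiffAt_const.add ((hψs.of_le (by exact_mod_cast Nat.le_succ k)).smul contDiffAt_const)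
    have h7 : ContDiffAt ℝ k (fun u => b (F u)) ((fun s => u₀ + ψ s • v) (φ 0)) := by
      simp only [hψ0, zero_smul, add_zero]
      exact h
    exact ContDiffAt.comp (g := fun u => b (F u)) (φ 0) h7 h6
  refine h5.congr_of_eventuallyEq ?_
  filter_upwards [hφψ] with s hs
  change F (u₀ + ψ s • v) = s at hs
  rw [hs]

/-- **the limit equation is impossible** -/
theorem contra {S : Set E} (hS : IsOpen S) {k : ℕ} {V : E → T} {F w : E → ℝ} {b : ℝ → ℝ}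
    {B : (E →L[ℝ] ℝ) →L[ℝ] (E →L[ℝ] ℝ) →L[ℝ] T} (hB : ∀ l, l ≠ 0 → B l l ≠ 0)
    (hV : ContDiffOn ℝ k V S) (hF : ContDiffOn ℝ (k + 1 : ℕ) F S) (hw : ContDiffOn ℝ k w S)
    (hw0 : ∀ u ∈ S, w u ≠ 0)
    (hrel : ∀ u ∈ S, V u + b (F u) • w u • B (fderiv ℝ F u) (fderiv ℝ F u) = 0)
    (h1 : ∀ u ∈ S, |F u| ≤ 1) (hne : ∃ u ∈ S, fderiv ℝ F u ≠ 0) :
    ∃ s ∈ Ioo (-1 : ℝ) 1, ContDiffAt ℝ k b s := by
  obtain ⟨u₀, hu₀, hd⟩ := hne
  have hn := hS.mem_nhds hu₀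
  have hFat : ContDiffAt ℝ (k + 1 : ℕ) F u₀ := hF.contDiffAt hn
  refine ⟨F u₀, ⟨?_, ?_⟩, smooth_of_comp hFat hd ?_⟩
  · refine lt_of_le_of_ne (abs_le.1 (h1 u₀ hu₀)).1 fun h => hd ?_
    refine IsLocalMin.fderiv_eq_zero ?_
    filter_upwards [hn] with u hu
    rw [← h]
    exact (abs_le.1 (h1 u hu)).1
  · refine lt_of_le_of_ne (abs_le.1 (h1 u₀ hu₀)).2 fun h => hd ?_
    refine IsLocalMax.fderiv_eq_zero ?_
    filter_upwards [hn] with u hu
    rw [h]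
    exact (abs_le.1 (h1 u hu)).2
  -- a functional
  obtain ⟨Ψ, hΨ⟩ : ∃ Ψ : T →L[ℝ] ℝ, Ψ (B (fderiv ℝ F u₀) (fderiv ℝ F u₀)) ≠ 0 :=
    SeparatingDual.exists_ne_zero (hB _ hd)
  set g : E → ℝ := fun u => w u * Ψ (B (fderiv ℝ F u) (fderiv ℝ F u)) with hg
  have hdF : ContDiffAt ℝ k (fderiv ℝ F) u₀ := hFat.fderiv_right (by exact_mod_cast le_refl _)
  have hB1 : ContDiff ℝ k (fun l : E →L[ℝ] ℝ => B l) := by fun_prop
  have hBd0 : ContDiffAt ℝ k (fun u => B (fderiv ℝ F u)) u₀ :=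
    hB1.contDiffAt.comp u₀ hdF
  have hBd : ContDiffAt ℝ k (fun u => B (fderiv ℝ F u) (fderiv ℝ F u)) u₀ :=
    hBd0.clm_apply hdF
  have hgs : ContDiffAt ℝ k g u₀ := (hw.contDiffAt hn).mul (Ψ.contDiff.contDiffAt.comp u₀ hBd)
  have hg0 : g u₀ ≠ 0 := mul_ne_zero (hw0 u₀ hu₀) hΨ
  have hVΨ : ContDiffAt ℝ k (fun u => Ψ (V u)) u₀ := Ψ.contDiff.contDiffAt.comp u₀ (hV.contDiffAt hn)
  have hq : ContDiffAt ℝ k (fun u => -(Ψ (V u)) / g u) u₀ := hVΨ.neg.div hgs hg0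
  refine hq.congr_of_eventuallyEq ?_
  filter_upwards [hn, hgs.continuousAt.eventually_ne hg0] with u hu hgu
  have h2 := congrArg Ψ (hrel u hu)
  rw [map_add, map_smul, map_smul, map_zero, smul_eq_mul, smul_eq_mul] at h2
  rw [eq_div_iff hgu, hg]
  linarith

end Vale.Agent.P207.N3.H476
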