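import Vale.Agent.P207.N3.H476.OneVar

/-!
# P207, line N3, package P14 (4.3): the main estimate on a sequence of discs

Discs `m = 0, 1, 2, …` along an orbit, `τ m : disc (m+1) → disc m`.  `N m` the tensor `E^s`,
`f m` the function, `N m = V m + H^m ∑ b_i (f m) G_i m`, `V m` smooth.  `main_est`: if the scale `ρ`
is admissible at time `n`, then
`κ⁻¹ N n - ∑ ρ^(-e_i) (raw b_i ρ (F) - P_i ρ (F)) G_i n`, `F = (f n - s₀)/ρ`, is `C^k` bounded.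
-/

open Set Filter Topology Finset

noncomputable section

namespace Vale.Agent.P207.N3.H476

section basics

variable {E T : Type*} [NormedAddCommGroup E] [NormedSpace ℝ E]
  [NormedAddCommGroup T] [NormedSpace ℝ T]

/-- Lemma R (1.1) for the maps `τ` and the cocycle `A`, growth `B`, from `S` to `S'`. -/
def LemR (S S' : Set E) (k : ℕ) (τ : ℕ → E → E) (A : ℕ → E → T →L[ℝ] T) (B : ℝ) : Prop :=
  ∀ M : ℝ, ∃ C : ℝ, ∀ (n : ℕ) (Z Err : ℕ → E → T),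
    (∀ m ≤ n, ContDiffOn ℝ k (Z m) S) → (∀ m < n, ContDiffOn ℝ k (Err m) S) →
    (∀ m < n, ∀ u ∈ S, Z (m + 1) u = A m u (Z m (τ m u)) + Err m u) →
    (∀ m ≤ n, ∀ u ∈ S, ‖Z m u‖ ≤ M * B ^ (n - m)) →
    (∀ m < n, ∀ j ≤ k, ∀ u ∈ S, ‖iteratedFDeriv ℝ j (Err m) u‖ ≤ M * B ^ (n - m)) →
    (∀ j ≤ k, ∀ u ∈ S, ‖iteratedFDeriv ℝ j (Z 0) u‖ ≤ M * B ^ n) →
    ∀ j ≤ k, ∀ u ∈ S', ‖iteratedFDeriv ℝ j (Z n) u‖ ≤ C

variable {S : Set E}

theorem iter_add_le {f g : E → T} {j : ℕ} {u : E} (hf : ContDiffAt ℝ j f u)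
    (hg : ContDiffAt ℝ j g u) {a b : ℝ} (ha : ‖iteratedFDeriv ℝ j f u‖ ≤ a)
    (hb : ‖iteratedFDeriv ℝ j g u‖ ≤ b) : ‖iteratedFDeriv ℝ j (f + g) u‖ ≤ a + b := by
  rw [iteratedFDeriv_add_apply hf hg]
  exact (norm_add_le _ _).trans (add_le_add ha hb)

theorem iter_smul_le {f : E → T} {j : ℕ} {u : E} (hf : ContDiffAt ℝ j f u) (c : ℝ) {a : ℝ}
    (ha : ‖iteratedFDeriv ℝ j f u‖ ≤ a) : ‖iteratedFDeriv ℝ j (c • f) u‖ ≤ |c| * a := by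
  rw [iteratedFDeriv_const_smul_apply hf, norm_smul, Real.norm_eq_abs]
  exact mul_le_mul_of_nonneg_left ha (abs_nonneg _)

theorem iter_sum_le {ι : Type*} (s : Finset ι) {g : ι → E → T} {j : ℕ} {u : E}
    (hg : ∀ i ∈ s, ContDiffAt ℝ j (g i) u) {a : ι → ℝ}
    (ha : ∀ i ∈ s, ‖iteratedFDeriv ℝ j (g i) u‖ ≤ a i) :
    ‖iteratedFDeriv ℝ j (∑ i ∈ s, g i) u‖ ≤ ∑ i ∈ s, a i := by
  classical
  induction s using Finset.induction_on with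
  | empty =>
    simp only [sum_empty]
    have : iteratedFDeriv ℝ j (0 : E → T) u = 0 := by
      have := iteratedFDeriv_fun_zero (𝕜 := ℝ) (E := E) (F := T) (n := j)
      exact congrFun this u
    rw [this, norm_zero]
  | insert i s hi ih =>
    rw [sum_insert hi, sum_insert hi]
    refine iter_add_le (hg i (mem_insert_self i s)) ?_ (ha i (mem_insert_self i s))
      (ih (fun j hj => hg j (mem_insert_of_mem hj)) fun j hj => ha j (mem_insert_of_mem hj))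
    have h1 : (∑ i ∈ s, g i) = fun x => ∑ i ∈ s, g i x := by
      funext x; simp
    rw [h1]
    exact ContDiffAt.sum fun j hj => hg j (mem_insert_of_mem hj)

end basics

/-- the corrected rescaled function -/
def cor {N : ℕ} (b : ℝ → ℝ) (s₀ q : ℝ) (P : ℝ → Fin N → ℝ) (ρ s : ℝ) : ℝ :=
  raw b s₀ q ρ s - ev (P ρ) s

/-- A sequence of discs with the data of the first time argument. -/
structure Core (ι E T : Type) [Fintype ι] [NormedAddCommGroup E] [NormedSpace ℝ E]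
    [NormedAddCommGroup T] [NormedSpace ℝ T] where
  S : Set E
  S' : Set E
  openS : IsOpen S
  sub : S' ⊆ S
  τ : ℕ → E → E
  maps : ∀ m, ∀ u ∈ S, τ m u ∈ S'
  A : ℕ → E → T →L[ℝ] T
  N : ℕ → E → T
  R : ℕ → E → T
  rel : ∀ m, ∀ u ∈ S, N (m + 1) u = A m u (N m (τ m u)) + R m u
  R_smooth : ∀ (m k : ℕ), ContDiffOn ℝ k (R m) S
  R_bd : ∀ k : ℕ, ∃ C, ∀ m, ∀ j ≤ k, ∀ u ∈ S, ‖iteratedFDeriv ℝ j (R m) u‖ ≤ C
  N_bd : ∃ C, ∀ m, ∀ u ∈ S, ‖N m u‖ ≤ C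
  p : ℝ
  p_pos : 0 < p
  a : ℝ
  a_lt : 1 < a
  f : ℕ → E → ℝ
  s₀ : ℝ
  f_comp : ∀ m, ∀ u ∈ S, f (m + 1) u = f m (τ m u)
  f_smooth : ∀ (m k : ℕ), ContDiffOn ℝ k (f m) S
  C₀ : ℝ
  C₀_ge : 1 ≤ C₀
  f_bd : ∀ u ∈ S, |f 0 u - s₀| ≤ C₀
  b : ι → ℝ → ℝ
  b_bd : ∀ i, ∃ B, ∀ s, |s - s₀| ≤ C₀ → |b i s| ≤ B
  q : ι → ℝ
  q_nonneg : ∀ i, 0 ≤ q i
  G : ι → ℕ → E → T
  G_smooth : ∀ (i : ι) (m k : ℕ), ContDiffOn ℝ k (G i m) S
  G_rel : ∀ i m, ∀ u ∈ S, A m u (G i m (τ m u)) = a ^ p • G i (m + 1) u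
  V_smooth : ∀ m k : ℕ,
    ContDiffOn ℝ k (fun u => N m u - (a ^ p) ^ m • ∑ i, b i (f m u) • G i m u) S
  V_bd : ∀ k : ℕ, ∃ C, ∀ j ≤ k, ∀ u ∈ S,
    ‖iteratedFDeriv ℝ j (fun u => N 0 u - ∑ i, b i (f 0 u) • G i 0 u) u‖ ≤ C
  G_bd : ∀ (i : ι) (l k : ℕ), ∃ C, ∀ j ≤ k, ∀ u ∈ S,
    ‖iteratedFDeriv ℝ j (fun u => (f 0 u - s₀) ^ l • G i 0 u) u‖ ≤ C

namespace Core

variable {ι E T : Type} [Fintype ι] [NormedAddCommGroup E] [NormedSpace ℝ E]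
  [NormedAddCommGroup T] [NormedSpace ℝ T] (D : Core ι E T)

/-- the scale `ρ` is admissible at time `n` -/
structure Adm (K : ℝ) (n : ℕ) (ρ : ℝ) : Prop where
  pos : 0 < ρ
  le_one : ρ ≤ 1
  ge : 1 ≤ D.a ^ n * ρ
  bd : ∀ m ≤ n, ∀ u ∈ D.S, |D.f m u - D.s₀| ≤ K * ρ * D.a ^ (n - m)

theorem a_pos : 0 < D.a := one_pos.trans D.a_lt

theorem f_bd' (m : ℕ) : ∀ u ∈ D.S, |D.f m u - D.s₀| ≤ D.C₀ := by
  induction m with
  | zero => exact D.f_bd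
  | succ m ih =>
    intro u hu
    rw [D.f_comp m u hu]
    exact ih _ (D.sub (D.maps m u hu))

/-- the corrected tensor, at time `m`, for the scale `ρ` at time `n` -/
def Z {N : ℕ} (P : ι → ℝ → Fin N → ℝ) (n : ℕ) (ρ : ℝ) (m : ℕ) (u : E) : T :=
  ((D.a ^ n * ρ) ^ D.p)⁻¹ • D.N m u - ((D.a ^ D.p) ^ m / (D.a ^ D.p) ^ n) •
    ∑ i, (ρ ^ (-(D.p - D.q i)) * cor (D.b i) D.s₀ (D.q i) (P i) ρ ((D.f m u - D.s₀) / ρ)) •
      D.G i m u

variable {D}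

theorem kappa_eq {n : ℕ} {ρ : ℝ} (hρ : 0 < ρ) (m : ℕ) (i : ι) :
    ((D.a ^ D.p) ^ m / (D.a ^ D.p) ^ n) * ρ ^ (-(D.p - D.q i)) * ρ ^ (-(D.q i)) =
      ((D.a ^ n * ρ) ^ D.p)⁻¹ * (D.a ^ D.p) ^ m := by
  have ha := D.a_pos
  have e1 : ρ ^ (-(D.p - D.q i)) * ρ ^ (-(D.q i)) = (ρ ^ D.p)⁻¹ := by
    rw [← Real.rpow_add hρ, ← Real.rpow_neg hρ.le]
    congr 1
    ring
  have e2 : (D.a ^ n * ρ) ^ D.p = (D.a ^ D.p) ^ n * ρ ^ D.p := by
    rw [Real.mul_rpow (by positivity) hρ.le, ← Real.rpow_natCast, ← Real.rpow_natCast,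
      ← Real.rpow_mul ha.le, ← Real.rpow_mul ha.le, mul_comm (n : ℝ)]
  rw [mul_assoc, e1, e2]
  have h1 : (D.a ^ D.p) ^ n ≠ 0 := by positivity
  have h2 : ρ ^ D.p ≠ 0 := (Real.rpow_pos_of_pos hρ _).ne'
  field_simp

/-- `Z` is smooth: the polynomial form -/
theorem Z_eq {N : ℕ} (P : ι → ℝ → Fin N → ℝ) {n : ℕ} {ρ : ℝ} (hρ : 0 < ρ) (m : ℕ) (u : E) :
    D.Z P n ρ m u = ((D.a ^ n * ρ) ^ D.p)⁻¹ •
      (D.N m u - (D.a ^ D.p) ^ m • ∑ i, D.b i (D.f m u) • D.G i m u) +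
      ∑ i, ∑ l : Fin N, (((D.a ^ D.p) ^ m / (D.a ^ D.p) ^ n) * ρ ^ (-(D.p - D.q i)) *
        (P i ρ l * (ρ ^ (l : ℕ))⁻¹)) • ((D.f m u - D.s₀) ^ (l : ℕ) • D.G i m u) := by
  have e0 : ∀ i, (ρ ^ (-(D.p - D.q i)) *
      cor (D.b i) D.s₀ (D.q i) (P i) ρ ((D.f m u - D.s₀) / ρ)) =
      ρ ^ (-(D.p - D.q i)) * ρ ^ (-(D.q i)) * D.b i (D.f m u) -
        ρ ^ (-(D.p - D.q i)) * ∑ l : Fin N, P i ρ l * (ρ ^ (l : ℕ))⁻¹ *
          (D.f m u - D.s₀) ^ (l : ℕ) := by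
    intro i
    unfold cor raw ev
    have e1 : D.s₀ + ρ * ((D.f m u - D.s₀) / ρ) = D.f m u := by field_simp; ring
    rw [e1, mul_sub, mul_assoc]
    congr 2
    refine sum_congr rfl fun l _ => ?_
    rw [div_pow]
    field_simp
  unfold Z
  simp only [e0, sub_smul, sum_sub_distrib, smul_sub]
  have e2 : ((D.a ^ D.p) ^ m / (D.a ^ D.p) ^ n) • ∑ i, (ρ ^ (-(D.p - D.q i)) *
      ρ ^ (-(D.q i)) * D.b i (D.f m u)) • D.G i m u =
      ((D.a ^ n * ρ) ^ D.p)⁻¹ • (D.a ^ D.p) ^ m • ∑ i, D.b i (D.f m u) • D.G i m u := by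
    rw [smul_smul, smul_sum, smul_sum]
    refine sum_congr rfl fun i _ => ?_
    rw [smul_smul, smul_smul, ← kappa_eq hρ m i]
    congr 1
    ring
  have e3 : ((D.a ^ D.p) ^ m / (D.a ^ D.p) ^ n) • ∑ i, (ρ ^ (-(D.p - D.q i)) *
      ∑ l : Fin N, P i ρ l * (ρ ^ (l : ℕ))⁻¹ * (D.f m u - D.s₀) ^ (l : ℕ)) • D.G i m u =
      ∑ i, ∑ l : Fin N, (((D.a ^ D.p) ^ m / (D.a ^ D.p) ^ n) * ρ ^ (-(D.p - D.q i)) *
        (P i ρ l * (ρ ^ (l : ℕ))⁻¹)) • ((D.f m u - D.s₀) ^ (l : ℕ) • D.G i m u) := by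
    rw [smul_sum]
    refine sum_congr rfl fun i _ => ?_
    rw [smul_smul, mul_sum, mul_sum, sum_smul]
    refine sum_congr rfl fun l _ => ?_
    rw [smul_smul]
    congr 1
    ring
  rw [e2, e3]
  abel

theorem Z_smooth {N : ℕ} (P : ι → ℝ → Fin N → ℝ) {n : ℕ} {ρ : ℝ} (hρ : 0 < ρ) (m k : ℕ) :
    ContDiffOn ℝ k (D.Z P n ρ m) D.S := by
  have h1 : D.Z P n ρ m = fun u => ((D.a ^ n * ρ) ^ D.p)⁻¹ •
      (D.N m u - (D.a ^ D.p) ^ m • ∑ i, D.b i (D.f m u) • D.G i m u) +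
      ∑ i, ∑ l : Fin N, (((D.a ^ D.p) ^ m / (D.a ^ D.p) ^ n) * ρ ^ (-(D.p - D.q i)) *
        (P i ρ l * (ρ ^ (l : ℕ))⁻¹)) • ((D.f m u - D.s₀) ^ (l : ℕ) • D.G i m u) :=
    funext fun u => Z_eq P hρ m u
  rw [h1]
  refine (contDiffOn_const.smul (D.V_smooth m k)).add ?_
  refine ContDiffOn.sum fun i _ => ContDiffOn.sum fun l _ => contDiffOn_const.smul ?_
  exact (((D.f_smooth m k).sub contDiffOn_const).pow _).smul (D.G_smooth i m k)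

theorem Z_rel {N : ℕ} (P : ι → ℝ → Fin N → ℝ) (n : ℕ) (ρ : ℝ) (m : ℕ) {u : E} (hu : u ∈ D.S) :
    D.Z P n ρ (m + 1) u = D.A m u (D.Z P n ρ m (D.τ m u)) +
      ((D.a ^ n * ρ) ^ D.p)⁻¹ • D.R m u := by
  unfold Z
  rw [map_sub, map_smul, map_smul, map_sum, D.rel m u hu, D.f_comp m u hu]
  simp only [map_smul, D.G_rel _ m u hu]
  have e1 : ((D.a ^ D.p) ^ m / (D.a ^ D.p) ^ n) • ∑ i, (ρ ^ (-(D.p - D.q i)) *
      cor (D.b i) D.s₀ (D.q i) (P i) ρ ((D.f m (D.τ m u) - D.s₀) / ρ)) •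
        D.a ^ D.p • D.G i (m + 1) u =
      ((D.a ^ D.p) ^ (m + 1) / (D.a ^ D.p) ^ n) • ∑ i, (ρ ^ (-(D.p - D.q i)) *
      cor (D.b i) D.s₀ (D.q i) (P i) ρ ((D.f m (D.τ m u) - D.s₀) / ρ)) •
        D.G i (m + 1) u := by
    rw [smul_sum, smul_sum]
    refine sum_congr rfl fun i _ => ?_
    rw [smul_smul, smul_smul, smul_smul]
    congr 1
    rw [pow_succ]
    ring
  rw [e1, smul_add]
  abel

/-- **the main estimate** -/
theorem main_est {N : ℕ} {P : ι → ℝ → Fin N → ℝ} {K : ℝ} (hK : 1 ≤ K)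
    (hP : ∀ i, BddP (D.b i) D.s₀ (D.q i) N (P i)) (L₁ : ℕ)
    (hG : ∀ i, ∃ C, ∀ n ρ, D.Adm K n ρ → ∀ m ≤ n, ∀ u ∈ D.S,
      ‖D.G i m u‖ ≤ C * ρ ^ (D.p - D.q i) * (D.a ^ L₁) ^ (n - m))
    {L : ℕ} (hL : ∀ i, D.p + D.q i + N + L₁ + 1 ≤ L) (k : ℕ)
    (hR : LemR D.S D.S' k D.τ D.A (D.a ^ L)) :
    ∃ C, ∀ n ρ, D.Adm K n ρ → ∀ j ≤ k, ∀ u ∈ D.S', ‖iteratedFDeriv ℝ j (D.Z P n ρ n) u‖ ≤ C := by
  classical
  have ha := D.a_pos
  have ha1 := D.a_lt.le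
  have hp := D.p_pos
  obtain ⟨CN, hCN⟩ := D.N_bd
  obtain ⟨CR, hCR⟩ := D.R_bd k
  obtain ⟨CV, hCV⟩ := D.V_bd k
  choose CG hCG using hG
  have hgrow : ∀ i, ∃ C : ℝ, 0 ≤ C ∧ (∀ ρ ∈ Ioc (0 : ℝ) 1, ∀ l, |P i ρ l| ≤ C * ρ ^ (-(D.q i))) ∧
      ∀ ρ ∈ Ioc (0 : ℝ) 1, ∀ v, |v| ≤ D.C₀ / ρ →
        |raw (D.b i) D.s₀ (D.q i) ρ v - ev (P i ρ) v| ≤ C * (1 + |v|) ^ (D.q i + N + 1) := by
    intro i
    obtain ⟨B, hB⟩ := D.b_bd i
    exact growth (hP i) (D.q_nonneg i) hB D.C₀_ge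
  choose Cg hCg0 hCg1 hCg2 using hgrow
  choose Cl hCl using fun (i : ι) (l : ℕ) => D.G_bd i l k
  -- the constant
  set M : ℝ := |CN| + |CR| + |CV| + ∑ i, Cg i * (1 + K) ^ (D.q i + N + 1) * |CG i| +
    ∑ i, ∑ l : Fin N, Cg i * |Cl i l| with hM
  obtain ⟨C, hC⟩ := hR M
  refine ⟨C, fun n ρ hA => ?_⟩
  have hρ := hA.pos
  have hρ' : ρ ∈ Ioc (0 : ℝ) 1 := ⟨hA.pos, hA.le_one⟩
  have hκ1 : 1 ≤ (D.a ^ n * ρ) ^ D.p := Real.one_le_rpow hA.ge hp.le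
  have hκ : ((D.a ^ n * ρ) ^ D.p)⁻¹ ≤ 1 := inv_le_one_of_one_le₀ hκ1
  have hκ0 : 0 < ((D.a ^ n * ρ) ^ D.p)⁻¹ := inv_pos.2 (by linarith)
  have hB1 : ∀ s : ℕ, 1 ≤ (D.a ^ L) ^ s := fun s => one_le_pow₀ (one_le_pow₀ ha1)
  have hsum1 : 0 ≤ ∑ i, Cg i * (1 + K) ^ (D.q i + N + 1) * |CG i| :=
    sum_nonneg fun i _ => by have := hCg0 i; positivity
  have hsum2 : 0 ≤ ∑ i, ∑ l : Fin N, Cg i * |Cl i l| :=
    sum_nonneg fun i _ => sum_nonneg fun l _ => by have := hCg0 i; positivity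
  have hM0 : 0 ≤ M := by rw [hM]; positivity
  refine hC n (D.Z P n ρ) (fun m => ((D.a ^ n * ρ) ^ D.p)⁻¹ • D.R m)
    (fun m _ => Z_smooth P hρ m k) (fun m _ => contDiffOn_const.smul (D.R_smooth m k))
    (fun m _ u hu => Z_rel P n ρ m hu) (fun m hm u hu => ?_) (fun m _ j hj u hu => ?_)
    (fun j hj u hu => ?_)
  · -- the values
    have hratio : (D.a ^ D.p) ^ m / (D.a ^ D.p) ^ n ≤ 1 := by
      rw [div_le_one (by positivity)]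
      exact pow_le_pow_right₀ (Real.one_le_rpow ha1 hp.le) hm
    have hratio0 : 0 ≤ (D.a ^ D.p) ^ m / (D.a ^ D.p) ^ n := by positivity
    have hF : |(D.f m u - D.s₀) / ρ| ≤ K * D.a ^ (n - m) := by
      rw [abs_div, abs_of_pos hρ, div_le_iff₀ hρ]
      refine (hA.bd m hm u hu).trans (le_of_eq ?_)
      ring
    have hF0 : |(D.f m u - D.s₀) / ρ| ≤ D.C₀ / ρ := by
      rw [abs_div, abs_of_pos hρ]
      exact div_le_div_of_nonneg_right (D.f_bd' m u hu) hρ.le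
    have hpn : 1 ≤ D.a ^ (n - m) := one_le_pow₀ ha1
    have hterm : ∀ i, ‖(ρ ^ (-(D.p - D.q i)) * cor (D.b i) D.s₀ (D.q i) (P i) ρ
        ((D.f m u - D.s₀) / ρ)) • D.G i m u‖ ≤
        Cg i * (1 + K) ^ (D.q i + N + 1) * |CG i| * (D.a ^ L) ^ (n - m) := by
      intro i
      rw [norm_smul, Real.norm_eq_abs, abs_mul, abs_of_pos (Real.rpow_pos_of_pos hρ _)]
      have h1 := hCg2 i ρ hρ' _ hF0
      have h2 := hCG i n ρ hA m hm u hu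
      have hq := D.q_nonneg i
      have h3 : (1 + |(D.f m u - D.s₀) / ρ|) ^ (D.q i + N + 1) ≤
          (1 + K) ^ (D.q i + N + 1) * (D.a ^ (n - m)) ^ (D.q i + N + 1) := by
        rw [← Real.mul_rpow (by linarith) (by positivity)]
        refine Real.rpow_le_rpow (by positivity) ?_ (by positivity)
        nlinarith
      have h4 : (D.a ^ (n - m)) ^ (D.q i + N + 1) * (D.a ^ L₁) ^ (n - m) ≤
          (D.a ^ L) ^ (n - m) := by
        have e1 : ((D.a : ℝ) ^ (n - m)) ^ (D.q i + N + 1) * (D.a ^ L₁) ^ (n - m) =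
            (D.a ^ (D.q i + N + 1 + L₁)) ^ ((n - m : ℕ) : ℝ) := by
          rw [← Real.rpow_natCast D.a (n - m), ← pow_mul, ← Real.rpow_natCast D.a (L₁ * (n - m)),
            ← Real.rpow_mul ha.le, ← Real.rpow_add ha, ← Real.rpow_mul ha.le]
          congr 1
          push_cast
          ring
        have e2 : ((D.a : ℝ) ^ L) ^ (n - m) = (D.a ^ (L : ℝ)) ^ ((n - m : ℕ) : ℝ) := by
          rw [Real.rpow_natCast, Real.rpow_natCast]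
        rw [e1, e2]
        refine Real.rpow_le_rpow (by positivity) ?_ (by positivity)
        exact Real.rpow_le_rpow_of_exponent_le ha1 (by have := hL i; linarith)
      have h5 : 0 ≤ (1 + K) ^ (D.q i + N + 1) := by positivity
      have hc0 := hCg0 i
      calc ρ ^ (-(D.p - D.q i)) * |cor (D.b i) D.s₀ (D.q i) (P i) ρ
            ((D.f m u - D.s₀) / ρ)| * ‖D.G i m u‖
          ≤ ρ ^ (-(D.p - D.q i)) * (Cg i * ((1 + K) ^ (D.q i + N + 1) *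
            (D.a ^ (n - m)) ^ (D.q i + N + 1))) *
            (|CG i| * ρ ^ (D.p - D.q i) * (D.a ^ L₁) ^ (n - m)) := by
            have h6 : |cor (D.b i) D.s₀ (D.q i) (P i) ρ ((D.f m u - D.s₀) / ρ)| ≤
              Cg i * ((1 + K) ^ (D.q i + N + 1) * (D.a ^ (n - m)) ^ (D.q i + N + 1)) :=
              h1.trans (mul_le_mul_of_nonneg_left h3 hc0)
            have h7 : ‖D.G i m u‖ ≤ |CG i| * ρ ^ (D.p - D.q i) * (D.a ^ L₁) ^ (n - m) := by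
              refine h2.trans ?_
              gcongr
              exact le_abs_self _
            gcongr
        _ = (ρ ^ (-(D.p - D.q i)) * ρ ^ (D.p - D.q i)) *
            (Cg i * (1 + K) ^ (D.q i + N + 1) * |CG i| *
            ((D.a ^ (n - m)) ^ (D.q i + N + 1) * (D.a ^ L₁) ^ (n - m))) := by ring
        _ ≤ 1 * (Cg i * (1 + K) ^ (D.q i + N + 1) * |CG i| * (D.a ^ L) ^ (n - m)) := by
            rw [← Real.rpow_add hρ, neg_add_cancel, Real.rpow_zero]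
            gcongr
        _ = _ := by ring
    unfold Z
    refine (norm_sub_le _ _).trans ?_
    rw [norm_smul, norm_smul, Real.norm_eq_abs, Real.norm_eq_abs, abs_of_pos hκ0,
      abs_of_nonneg hratio0]
    have h1 : ((D.a ^ n * ρ) ^ D.p)⁻¹ * ‖D.N m u‖ ≤ |CN| * (D.a ^ L) ^ (n - m) := by
      calc ((D.a ^ n * ρ) ^ D.p)⁻¹ * ‖D.N m u‖ ≤ 1 * |CN| := by
            gcongr
            exact (hCN m u hu).trans (le_abs_self _)
        _ ≤ |CN| * (D.a ^ L) ^ (n - m) := by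
            rw [one_mul]
            exact le_mul_of_one_le_right (abs_nonneg _) (hB1 _)
    have h2 : ((D.a ^ D.p) ^ m / (D.a ^ D.p) ^ n) * ‖∑ i, (ρ ^ (-(D.p - D.q i)) *
        cor (D.b i) D.s₀ (D.q i) (P i) ρ ((D.f m u - D.s₀) / ρ)) • D.G i m u‖ ≤
        (∑ i, Cg i * (1 + K) ^ (D.q i + N + 1) * |CG i|) * (D.a ^ L) ^ (n - m) := by
      calc _ ≤ 1 * ‖∑ i, (ρ ^ (-(D.p - D.q i)) *
        cor (D.b i) D.s₀ (D.q i) (P i) ρ ((D.f m u - D.s₀) / ρ)) • D.G i m u‖ := by gcongr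
        _ ≤ ∑ i, Cg i * (1 + K) ^ (D.q i + N + 1) * |CG i| * (D.a ^ L) ^ (n - m) := by
            rw [one_mul]
            exact (norm_sum_le _ _).trans (sum_le_sum fun i _ => hterm i)
        _ = _ := by rw [sum_mul]
    refine (add_le_add h1 h2).trans ?_
    rw [← add_mul]
    refine mul_le_mul_of_nonneg_right ?_ (by positivity)
    rw [hM]
    linarith [abs_nonneg CR, abs_nonneg CV]
  · -- the errors
    have h1 := iter_smul_le (((D.R_smooth m k).contDiffAt (D.openS.mem_nhds hu)).of_le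
      (by exact_mod_cast hj)) (((D.a ^ n * ρ) ^ D.p)⁻¹) (hCR m j hj u hu)
    refine h1.trans ?_
    rw [abs_of_pos hκ0]
    calc ((D.a ^ n * ρ) ^ D.p)⁻¹ * CR ≤ ((D.a ^ n * ρ) ^ D.p)⁻¹ * |CR| := by
          gcongr
          exact le_abs_self _
      _ ≤ 1 * |CR| := by gcongr
      _ ≤ M := by
          rw [hM, one_mul]
          linarith [abs_nonneg CN, abs_nonneg CV]
      _ ≤ M * (D.a ^ L) ^ (n - m) := le_mul_of_one_le_right hM0 (hB1 _)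
  · -- the initial tensor
    have hfun : D.Z P n ρ 0 = (((D.a ^ n * ρ) ^ D.p)⁻¹ •
        (fun u => D.N 0 u - ∑ i, D.b i (D.f 0 u) • D.G i 0 u)) +
        ∑ i, ∑ l : Fin N, ((1 / (D.a ^ D.p) ^ n) * ρ ^ (-(D.p - D.q i)) *
        (P i ρ l * (ρ ^ (l : ℕ))⁻¹)) • (fun u => (D.f 0 u - D.s₀) ^ (l : ℕ) • D.G i 0 u) := by
      funext u
      rw [Z_eq P hρ 0 u]
      simp only [pow_zero, one_smul, Pi.add_apply, Pi.smul_apply, Finset.sum_apply]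
    rw [hfun]
    have hnhds := D.openS.mem_nhds hu
    have s1 : ContDiffAt ℝ j (fun u => D.N 0 u - ∑ i, D.b i (D.f 0 u) • D.G i 0 u) u := by
      have := (D.V_smooth 0 j).contDiffAt hnhds
      simpa only [pow_zero, one_smul] using this
    have s2 : ∀ (i : ι) (l : Fin N),
        ContDiffAt ℝ j (fun u => (D.f 0 u - D.s₀) ^ (l : ℕ) • D.G i 0 u) u := fun i l =>
      ((((D.f_smooth 0 j).sub contDiffOn_const).pow _).smul (D.G_smooth i 0 j)).contDiffAt hnhds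
    have s3 : ∀ (i : ι) (l : Fin N), ContDiffAt ℝ j (((1 / (D.a ^ D.p) ^ n) *
        ρ ^ (-(D.p - D.q i)) * (P i ρ l * (ρ ^ (l : ℕ))⁻¹)) •
        (fun u => (D.f 0 u - D.s₀) ^ (l : ℕ) • D.G i 0 u)) u := fun i l =>
      contDiffAt_const.smul (s2 i l)
    have hcoef : ∀ (i : ι) (l : Fin N), |(1 / (D.a ^ D.p) ^ n) * ρ ^ (-(D.p - D.q i)) *
        (P i ρ l * (ρ ^ (l : ℕ))⁻¹)| ≤ Cg i * (D.a ^ L) ^ n := by
      intro i l
      have hq := D.q_nonneg i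
      have h1 := hCg1 i ρ hρ' l
      have hap : 1 ≤ (D.a ^ D.p) ^ n := one_le_pow₀ (Real.one_le_rpow ha1 hp.le)
      have h2 : 1 / (D.a ^ D.p) ^ n ≤ 1 := by
        rw [div_le_one (by linarith)]; exact hap
      have h3 : 0 < 1 / (D.a ^ D.p) ^ n := by positivity
      have h4 : ρ⁻¹ ≤ D.a ^ n := by
        rw [inv_le_iff_one_le_mul₀ hρ]
        exact hA.ge
      have e1 : ρ ^ (-(D.p - D.q i)) * (ρ ^ (-(D.q i)) * (ρ ^ (l : ℕ))⁻¹) =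
          (ρ⁻¹) ^ (D.p + (l : ℕ)) := by
        rw [Real.inv_rpow hρ.le, ← Real.rpow_neg hρ.le, ← Real.rpow_natCast ρ l,
          ← Real.rpow_neg hρ.le, ← Real.rpow_add hρ, ← Real.rpow_add hρ]
        congr 1
        ring
      have h5 : (ρ⁻¹) ^ (D.p + (l : ℕ)) ≤ (D.a ^ L) ^ n := by
        calc (ρ⁻¹) ^ (D.p + (l : ℕ)) ≤ (D.a ^ n) ^ (D.p + (l : ℕ)) :=
              Real.rpow_le_rpow (inv_pos.2 hρ).le h4 (by positivity)
          _ ≤ (D.a ^ n) ^ (L : ℝ) := by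
              refine Real.rpow_le_rpow_of_exponent_le (one_le_pow₀ ha1) ?_
              have h6 : ((l : ℕ) : ℝ) ≤ N := by exact_mod_cast l.2.le
              have := hL i
              have h7 : (0 : ℝ) ≤ L₁ := Nat.cast_nonneg _
              linarith
          _ = (D.a ^ L) ^ n := by
              rw [Real.rpow_natCast, ← pow_mul, ← pow_mul, mul_comm]
      have hc0 := hCg0 i
      rw [abs_mul, abs_mul, abs_mul, abs_of_pos h3, abs_of_pos (Real.rpow_pos_of_pos hρ _),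
        abs_of_pos (inv_pos.2 (pow_pos hρ _))]
      calc 1 / (D.a ^ D.p) ^ n * ρ ^ (-(D.p - D.q i)) * (|P i ρ l| * (ρ ^ (l : ℕ))⁻¹)
          ≤ 1 * ρ ^ (-(D.p - D.q i)) * (Cg i * ρ ^ (-(D.q i)) * (ρ ^ (l : ℕ))⁻¹) := by
            have h8 : 0 < ρ ^ (-(D.p - D.q i)) := Real.rpow_pos_of_pos hρ _
            gcongr
        _ = Cg i * (ρ ^ (-(D.p - D.q i)) * (ρ ^ (-(D.q i)) * (ρ ^ (l : ℕ))⁻¹)) := by ring
        _ ≤ _ := by rw [e1]; gcongr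
    have h1 := iter_smul_le s1 (((D.a ^ n * ρ) ^ D.p)⁻¹) (hCV j hj u hu)
    have h2 : ‖iteratedFDeriv ℝ j (∑ i, ∑ l : Fin N, ((1 / (D.a ^ D.p) ^ n) *
        ρ ^ (-(D.p - D.q i)) * (P i ρ l * (ρ ^ (l : ℕ))⁻¹)) •
        (fun u => (D.f 0 u - D.s₀) ^ (l : ℕ) • D.G i 0 u)) u‖ ≤
        ∑ i, ∑ l : Fin N, Cg i * (D.a ^ L) ^ n * |Cl i l| := by
      refine iter_sum_le _ (fun i _ => ?_) fun i _ => ?_
      · have : (∑ l : Fin N, ((1 / (D.a ^ D.p) ^ n) *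
        ρ ^ (-(D.p - D.q i)) * (P i ρ l * (ρ ^ (l : ℕ))⁻¹)) •
        (fun u => (D.f 0 u - D.s₀) ^ (l : ℕ) • D.G i 0 u)) = fun x => ∑ l : Fin N,
        (((1 / (D.a ^ D.p) ^ n) *
        ρ ^ (-(D.p - D.q i)) * (P i ρ l * (ρ ^ (l : ℕ))⁻¹)) •
        (fun u => (D.f 0 u - D.s₀) ^ (l : ℕ) • D.G i 0 u)) x := by
          funext x; simp
        rw [this]
        exact ContDiffAt.sum fun l _ => s3 i l
      · refine iter_sum_le _ (fun l _ => s3 i l) fun l _ => ?_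
        have h3 := iter_smul_le (s2 i l) ((1 / (D.a ^ D.p) ^ n) *
          ρ ^ (-(D.p - D.q i)) * (P i ρ l * (ρ ^ (l : ℕ))⁻¹))
          ((hCl i l j hj u hu).trans (le_abs_self _))
        refine h3.trans ?_
        exact mul_le_mul_of_nonneg_right (hcoef i l) (abs_nonneg _)
    have s4 : ContDiffAt ℝ j (∑ i, ∑ l : Fin N, ((1 / (D.a ^ D.p) ^ n) *
        ρ ^ (-(D.p - D.q i)) * (P i ρ l * (ρ ^ (l : ℕ))⁻¹)) •
        (fun u => (D.f 0 u - D.s₀) ^ (l : ℕ) • D.G i 0 u)) u := by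
      have : (∑ i, ∑ l : Fin N, ((1 / (D.a ^ D.p) ^ n) *
        ρ ^ (-(D.p - D.q i)) * (P i ρ l * (ρ ^ (l : ℕ))⁻¹)) •
        (fun u => (D.f 0 u - D.s₀) ^ (l : ℕ) • D.G i 0 u)) = fun x => ∑ i, ∑ l : Fin N,
        (((1 / (D.a ^ D.p) ^ n) *
        ρ ^ (-(D.p - D.q i)) * (P i ρ l * (ρ ^ (l : ℕ))⁻¹)) •
        (fun u => (D.f 0 u - D.s₀) ^ (l : ℕ) • D.G i 0 u)) x := by
          funext x; simp
      rw [this]
      exact ContDiffAt.sum fun i _ => ContDiffAt.sum fun l _ => s3 i l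
    have h4 := iter_add_le (contDiffAt_const.smul s1) s4 h1 h2
    refine h4.trans ?_
    have h5 : |((D.a ^ n * ρ) ^ D.p)⁻¹| * CV ≤ |CV| * (D.a ^ L) ^ n := by
      rw [abs_of_pos hκ0]
      calc ((D.a ^ n * ρ) ^ D.p)⁻¹ * CV ≤ ((D.a ^ n * ρ) ^ D.p)⁻¹ * |CV| := by
            gcongr
            exact le_abs_self _
        _ ≤ 1 * |CV| := by gcongr
        _ ≤ |CV| * (D.a ^ L) ^ n := by
            rw [one_mul]
            exact le_mul_of_one_le_right (abs_nonneg _) (hB1 _)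
    have h6 : ∑ i, ∑ l : Fin N, Cg i * (D.a ^ L) ^ n * |Cl i l| =
        (∑ i, ∑ l : Fin N, Cg i * |Cl i l|) * (D.a ^ L) ^ n := by
      rw [sum_mul]
      refine sum_congr rfl fun i _ => ?_
      rw [sum_mul]
      exact sum_congr rfl fun l _ => by ring
    rw [h6]
    refine (add_le_add_left h5 _).trans ?_
    rw [← add_mul]
    refine mul_le_mul_of_nonneg_right ?_ (by positivity)
    rw [hM]
    linarith [abs_nonneg CR, abs_nonneg CN]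

end Core

end Vale.Agent.P207.N3.H476
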