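import Mathlib

/-!
# P207, line N3, package P14 (4.3): good levels, one variable

`Good b s₀ q N k₀` : the level `s₀` of the function `b` is good.  For the rate `χ` the exponent is
`q = (2h - 2χ)/χ`, the scale is `ρ = exp (-χ τ)`:
`exp ((2h-2χ)τ) b (s₀ + exp (-χτ) s) = ρ^(-q) b (s₀ + ρ s)`.
-/

open Set Filter Topology Finset

noncomputable section

namespace Vale.Agent.P207.N3.H476

/-- the polynomial with coefficients `c` -/
def ev {N : ℕ} (c : Fin N → ℝ) (s : ℝ) : ℝ := ∑ i, c i * s ^ (i : ℕ)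

/-- the rescaled function -/
def raw (b : ℝ → ℝ) (s₀ q ρ s : ℝ) : ℝ := ρ ^ (-q) * b (s₀ + ρ * s)

/-- the rescaled functions are bounded up to the polynomials `P` -/
def BddP (b : ℝ → ℝ) (s₀ q : ℝ) (N : ℕ) (P : ℝ → Fin N → ℝ) : Prop :=
  ∃ B, ∀ ρ ∈ Ioc (0 : ℝ) 1, ∀ s ∈ Icc (-1 : ℝ) 1, |raw b s₀ q ρ s - ev (P ρ) s| ≤ B

/-- `s₀` is a good level of `b` (with the polynomials `P`) -/
structure GoodP (b : ℝ → ℝ) (s₀ q : ℝ) (N k₀ : ℕ) (P : ℝ → Fin N → ℝ) : Prop where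
  bdd : BddP b s₀ q N P
  lim : ∀ ρ : ℕ → ℝ, (∀ n, ρ n ∈ Ioc (0 : ℝ) 1) → Tendsto ρ atTop (𝓝 0) →
    ∃ φ : ℕ → ℕ, StrictMono φ ∧ ∃ b' : ℝ → ℝ,
      TendstoUniformlyOn (fun n s => raw b s₀ q (ρ (φ n)) s - ev (P (ρ (φ n))) s) b' atTop
        (Icc (-1) 1) ∧ ∀ s ∈ Ioo (-1 : ℝ) 1, ¬ ContDiffAt ℝ k₀ b' s

/-- `s₀` is a good level of `b` -/
def Good (b : ℝ → ℝ) (s₀ q : ℝ) (N k₀ : ℕ) : Prop := ∃ P, GoodP b s₀ q N k₀ P

theorem ev_add {N : ℕ} (c d : Fin N → ℝ) (s : ℝ) : ev (c + d) s = ev c s + ev d s := by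
  simp [ev, add_mul, sum_add_distrib]

theorem ev_sub {N : ℕ} (c d : Fin N → ℝ) (s : ℝ) : ev (c - d) s = ev c s - ev d s := by
  simp [ev, sub_mul, sum_sub_distrib]

theorem ev_smul {N : ℕ} (r : ℝ) (c : Fin N → ℝ) (s : ℝ) : ev (r • c) s = r * ev c s := by
  simp [ev, mul_sum, mul_assoc]

/-- dilation of a polynomial -/
def dil {N : ℕ} (r : ℝ) (c : Fin N → ℝ) : Fin N → ℝ := fun i => c i * r ^ (i : ℕ)

theorem ev_dil {N : ℕ} (r : ℝ) (c : Fin N → ℝ) (s : ℝ) : ev (dil r c) s = ev c (r * s) := by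
  simp only [ev, dil, mul_pow]
  exact sum_congr rfl fun i _ => by ring

theorem continuous_ev {N : ℕ} (c : Fin N → ℝ) : Continuous (ev c) := by
  unfold ev
  fun_prop

theorem contDiff_ev {N : ℕ} (c : Fin N → ℝ) {k : ℕ∞} : ContDiff ℝ k (ev c) := by
  unfold ev
  fun_prop

theorem ev_eq_zero {N : ℕ} {c : Fin N → ℝ} (h : ∀ s ∈ Icc (-1/2 : ℝ) (1/2), ev c s = 0) :
    c = 0 := by
  classical
  set p : Polynomial ℝ := ∑ i : Fin N, Polynomial.C (c i) * Polynomial.X ^ (i : ℕ) with hp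
  have h1 : ∀ s, p.eval s = ev c s := by
    intro s
    simp [hp, ev, Polynomial.eval_finsetSum]
  have h2 : p = 0 := by
    refine Polynomial.eq_zero_of_infinite_isRoot p ?_
    refine Set.Infinite.mono (s := Icc (-1/2 : ℝ) (1/2)) ?_ (Icc_infinite (by norm_num))
    intro s hs
    change p.eval s = 0
    rw [h1, h s hs]
  funext i
  have h3 : p.coeff (i : ℕ) = c i := by
    rw [hp, Polynomial.finsetSum_coeff]
    simp only [Polynomial.coeff_C_mul_X_pow]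
    rw [sum_eq_single i]
    · simp
    · intro j _ hj
      rw [if_neg]
      intro hij
      exact hj (Fin.ext hij.symm)
    · simp
  rw [← h3, h2]
  simp

/-- the coefficients of a polynomial are bounded by its values on `[-1/2, 1/2]` -/
theorem coef_bd (N : ℕ) : ∃ C : ℝ, 0 < C ∧ ∀ (c : Fin N → ℝ) (B : ℝ),
    (∀ s ∈ Icc (-1/2 : ℝ) (1/2), |ev c s| ≤ B) → ∀ i, |c i| ≤ C * B := by
  let T : (Fin N → ℝ) →ₗ[ℝ] C(Icc (-1/2 : ℝ) (1/2), ℝ) :=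
    { toFun := fun c => ⟨fun s => ev c s, by
        exact (continuous_ev c).comp continuous_subtype_val⟩
      map_add' := fun c d => by ext s; exact ev_add c d s
      map_smul' := fun r c => by ext s; exact ev_smul r c s }
  have hker : LinearMap.ker T = ⊥ := by
    rw [LinearMap.ker_eq_bot']
    intro c hc
    refine ev_eq_zero fun s hs => ?_
    have := congrArg (fun g : C(Icc (-1/2 : ℝ) (1/2), ℝ) => g ⟨s, hs⟩) hc
    exact this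
  obtain ⟨K, hK, hT⟩ := T.exists_antilipschitzWith hker
  refine ⟨K, by exact_mod_cast hK, fun c B h i => ?_⟩
  have hne : Nonempty (Icc (-1/2 : ℝ) (1/2)) := ⟨⟨0, by norm_num⟩⟩
  have h1 : ‖T c‖ ≤ B := (ContinuousMap.norm_le_of_nonempty _).2 fun s => h s s.2
  have h2 := hT.le_mul_dist c 0
  rw [map_zero, dist_zero_right, dist_zero_right] at h2
  have h3 : ‖c i‖ ≤ ‖c‖ := norm_le_pi_norm c i
  rw [Real.norm_eq_abs] at h3
  calc |c i| ≤ ‖c‖ := h3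
    _ ≤ K * ‖T c‖ := h2
    _ ≤ K * B := by gcongr

theorem ev_bd {N : ℕ} {c : Fin N → ℝ} {B : ℝ} (hB : ∀ i, |c i| ≤ B) (s : ℝ) :
    |ev c s| ≤ N * B * (1 + |s|) ^ N := by
  have h1 : ∀ i : Fin N, |c i * s ^ (i : ℕ)| ≤ B * (1 + |s|) ^ N := by
    intro i
    have hB0 : 0 ≤ B := (abs_nonneg _).trans (hB i)
    rw [abs_mul, abs_pow]
    have h2 : |s| ^ (i : ℕ) ≤ (1 + |s|) ^ N := by
      calc |s| ^ (i : ℕ) ≤ (1 + |s|) ^ (i : ℕ) :=
            pow_le_pow_left₀ (abs_nonneg s) (by linarith) _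
        _ ≤ (1 + |s|) ^ N := pow_le_pow_right₀ (by linarith [abs_nonneg s]) i.2.le
    exact mul_le_mul (hB i) h2 (by positivity) hB0
  calc |ev c s| ≤ ∑ i, |c i * s ^ (i : ℕ)| := abs_sum_le_sum_abs _ _
    _ ≤ ∑ _i : Fin N, B * (1 + |s|) ^ N := sum_le_sum fun i _ => h1 i
    _ = N * B * (1 + |s|) ^ N := by
      rw [sum_const, card_univ, Fintype.card_fin, nsmul_eq_mul]
      ring

theorem raw_mul (b : ℝ → ℝ) (s₀ q : ℝ) {ρ r : ℝ} (hρ : 0 < ρ) (hr : 0 < r) (s : ℝ) :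
    raw b s₀ q ρ (r * s) = r ^ q * raw b s₀ q (r * ρ) s := by
  unfold raw
  rw [Real.mul_rpow hr.le hρ.le, Real.rpow_neg hr.le]
  have h1 : r ^ q ≠ 0 := (Real.rpow_pos_of_pos hr q).ne'
  have h2 : s₀ + ρ * (r * s) = s₀ + r * ρ * s := by ring
  rw [h2]
  field_simp

section growth

variable {b : ℝ → ℝ} {s₀ q : ℝ} {N : ℕ} {P : ℝ → Fin N → ℝ}

/-- the defect of homogeneity of the polynomials is bounded -/
theorem defect (hP : BddP b s₀ q N P) : ∃ C : ℝ, 0 ≤ C ∧ ∀ ρ, 0 < ρ → 2 * ρ ≤ 1 →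
    ∀ s, |ev (P ρ) (2 * s) - 2 ^ q * ev (P (2 * ρ)) s| ≤ C * (1 + |s|) ^ N := by
  obtain ⟨B, hB⟩ := id hP
  obtain ⟨K, hK, hc⟩ := coef_bd N
  have hB0 : 0 ≤ B := (abs_nonneg _).trans (hB 1 ⟨by norm_num, le_refl _⟩ 0 (by norm_num))
  have h2q : (0 : ℝ) < 2 ^ q := Real.rpow_pos_of_pos (by norm_num) q
  refine ⟨N * (K * (B + 2 ^ q * B)), by positivity, fun ρ hρ hρ2 s => ?_⟩
  have e1 : ∀ s, ev (P ρ) (2 * s) - 2 ^ q * ev (P (2 * ρ)) s =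
      ev (dil 2 (P ρ) - (2 : ℝ) ^ q • P (2 * ρ)) s := by
    intro s
    rw [ev_sub, ev_dil, ev_smul]
  rw [e1]
  refine ev_bd (hc _ _ fun t ht => ?_) s
  rw [← e1]
  have h1 := hB ρ ⟨hρ, by linarith⟩ (2 * t) ⟨by linarith [ht.1], by linarith [ht.2]⟩
  have h2 := hB (2 * ρ) ⟨by linarith, hρ2⟩ t ⟨by linarith [ht.1], by linarith [ht.2]⟩
  rw [raw_mul b s₀ q hρ two_pos] at h1
  have e2 : ev (P ρ) (2 * t) - 2 ^ q * ev (P (2 * ρ)) t =
      -(2 ^ q * raw b s₀ q (2 * ρ) t - ev (P ρ) (2 * t)) +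
        2 ^ q * (raw b s₀ q (2 * ρ) t - ev (P (2 * ρ)) t) := by ring
  rw [e2]
  refine (abs_add_le _ _).trans ?_
  rw [abs_neg, abs_mul, abs_of_pos h2q]
  gcongr

theorem telescope (hP : BddP b s₀ q N P) (hq : 0 ≤ q) : ∃ C : ℝ, 0 ≤ C ∧
    ∀ (j : ℕ) (ρ : ℝ), 0 < ρ → 2 ^ j * ρ ≤ 1 → ∀ s, |s| ≤ 1 →
      |ev (P ρ) (2 ^ j * s) - (2 ^ j : ℝ) ^ q * ev (P (2 ^ j * ρ)) s| ≤
        C * (2 ^ j : ℝ) ^ (q + N + 1) := by
  obtain ⟨C, hC, h⟩ := defect hP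
  refine ⟨C * 2 ^ N, by positivity, fun j => ?_⟩
  induction j with
  | zero =>
    intro ρ _ _ s _
    simp only [pow_zero, one_mul, Real.one_rpow, mul_one, sub_self, abs_zero]
    positivity
  | succ j ih =>
    intro ρ hρ hj s hs
    have hj' : 2 ^ j * (2 * ρ) ≤ 1 := by rw [pow_succ] at hj; linarith
    have h1 := ih (2 * ρ) (by linarith) hj' s hs
    have h2 : |ev (P ρ) (2 * (2 ^ j * s)) - 2 ^ q * ev (P (2 * ρ)) (2 ^ j * s)| ≤
        C * (1 + |2 ^ j * s|) ^ N := h ρ hρ (by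
        have : (1 : ℝ) ≤ 2 ^ j := one_le_pow₀ (by norm_num)
        nlinarith) (2 ^ j * s)
    have e1 : ev (P ρ) (2 ^ (j + 1) * s) = ev (P ρ) (2 * (2 ^ j * s)) := by
      congr 1; rw [pow_succ]; ring
    have e2 : (2 ^ (j + 1) : ℝ) ^ q = 2 ^ q * (2 ^ j : ℝ) ^ q := by
      rw [pow_succ, Real.mul_rpow (by positivity) (by norm_num)]; ring
    have e3 : (2 : ℝ) ^ (j + 1) * ρ = 2 ^ j * (2 * ρ) := by rw [pow_succ]; ring
    rw [e1, e2, e3]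
    have e4 : ev (P ρ) (2 * (2 ^ j * s)) - 2 ^ q * (2 ^ j : ℝ) ^ q * ev (P (2 ^ j * (2 * ρ))) s =
        (ev (P ρ) (2 * (2 ^ j * s)) - 2 ^ q * ev (P (2 * ρ)) (2 ^ j * s)) +
          2 ^ q * (ev (P (2 * ρ)) (2 ^ j * s) - (2 ^ j : ℝ) ^ q * ev (P (2 ^ j * (2 * ρ))) s) := by
      ring
    rw [e4]
    refine (abs_add_le _ _).trans ?_
    rw [abs_mul, abs_of_pos (Real.rpow_pos_of_pos (by norm_num : (0:ℝ) < 2) q)]
    have h3 : C * (1 + |2 ^ j * s|) ^ N ≤ C * 2 ^ N * (2 ^ j : ℝ) ^ (q + N + 1) := by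
      have h4 : |2 ^ j * s| ≤ 2 ^ j := by
        rw [abs_mul, abs_of_pos (by positivity : (0:ℝ) < 2 ^ j)]
        exact mul_le_of_le_one_right (by positivity) hs
      have h5 : (1 : ℝ) ≤ 2 ^ j := one_le_pow₀ (by norm_num)
      have h6 : (1 + |2 ^ j * s|) ^ N ≤ (2 * 2 ^ j) ^ N :=
        pow_le_pow_left₀ (by positivity) (by linarith) _
      have h7 : ((2 : ℝ) ^ j) ^ N ≤ (2 ^ j : ℝ) ^ (q + N + 1) := by
        rw [← Real.rpow_natCast (2 ^ j : ℝ) N]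
        exact Real.rpow_le_rpow_of_exponent_le h5 (by linarith)
      calc C * (1 + |2 ^ j * s|) ^ N ≤ C * (2 * 2 ^ j) ^ N := by gcongr
        _ = C * 2 ^ N * (2 ^ j) ^ N := by rw [mul_pow]; ring
        _ ≤ _ := by gcongr
    have h8 : (2 : ℝ) ^ q * |ev (P (2 * ρ)) (2 ^ j * s) -
        (2 ^ j : ℝ) ^ q * ev (P (2 ^ j * (2 * ρ))) s| ≤
        2 ^ q * (C * 2 ^ N * (2 ^ j : ℝ) ^ (q + N + 1)) := by gcongr
    have h9 : (2 ^ (j + 1) : ℝ) ^ (q + N + 1) =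
        2 ^ (q + N + 1) * (2 ^ j : ℝ) ^ (q + N + 1) := by
      rw [pow_succ, Real.mul_rpow (by positivity) (by norm_num)]; ring
    have h10 : (1 : ℝ) + 2 ^ q ≤ 2 ^ (q + N + 1) := by
      have h11 : (1 : ℝ) ≤ 2 ^ q := Real.one_le_rpow (by norm_num) hq
      have h12 : (2 : ℝ) ^ (q + 1) ≤ 2 ^ (q + N + 1) :=
        Real.rpow_le_rpow_of_exponent_le (by norm_num) (by linarith [Nat.cast_nonneg (α := ℝ) N])
      rw [Real.rpow_add (by norm_num), Real.rpow_one] at h12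
      linarith
    have h13 : (0 : ℝ) ≤ C * 2 ^ N * (2 ^ j : ℝ) ^ (q + N + 1) := by positivity
    rw [h9]
    nlinarith

/-- **growth** of the rescaled functions -/
theorem growth (hP : BddP b s₀ q N P) (hq : 0 ≤ q) {C₀ B₀ : ℝ}
    (hb : ∀ s, |s - s₀| ≤ C₀ → |b s| ≤ B₀) (hC₀ : 1 ≤ C₀) :
    ∃ C : ℝ, 0 ≤ C ∧ (∀ ρ ∈ Ioc (0 : ℝ) 1, ∀ i, |P ρ i| ≤ C * ρ ^ (-q)) ∧
      ∀ ρ ∈ Ioc (0 : ℝ) 1, ∀ v, |v| ≤ C₀ / ρ →
        |raw b s₀ q ρ v - ev (P ρ) v| ≤ C * (1 + |v|) ^ (q + N + 1) := by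
  obtain ⟨B, hB⟩ := id hP
  obtain ⟨C, hC, hT⟩ := telescope hP hq
  obtain ⟨K, hK, hc⟩ := coef_bd N
  have hB0 : 0 ≤ B := (abs_nonneg _).trans (hB 1 ⟨by norm_num, le_refl _⟩ 0 (by norm_num))
  have hB₀ : 0 ≤ B₀ := (abs_nonneg _).trans (hb s₀ (by simp; linarith))
  -- the raw function
  have hraw : ∀ ρ ∈ Ioc (0 : ℝ) 1, ∀ v, |v| ≤ C₀ / ρ → |raw b s₀ q ρ v| ≤ ρ ^ (-q) * B₀ := by
    intro ρ hρ v hv
    unfold raw
    rw [abs_mul, abs_of_pos (Real.rpow_pos_of_pos hρ.1 _)]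
    refine mul_le_mul_of_nonneg_left (hb _ ?_) (Real.rpow_pos_of_pos hρ.1 _).le
    rw [add_sub_cancel_left, abs_mul, abs_of_pos hρ.1]
    rwa [le_div_iff₀ hρ.1, mul_comm] at hv
  have hone : ∀ ρ ∈ Ioc (0 : ℝ) 1, (1 : ℝ) ≤ ρ ^ (-q) := fun ρ hρ =>
    Real.one_le_rpow_of_pos_of_le_one_of_nonpos hρ.1 hρ.2 (by linarith)
  have hcoef : ∀ ρ ∈ Ioc (0 : ℝ) 1, ∀ i, |P ρ i| ≤ K * (B₀ + B) * ρ ^ (-q) := by
    intro ρ hρ i
    have := hc (P ρ) (ρ ^ (-q) * B₀ + B) (fun s hs => ?_) i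
    · refine this.trans ?_
      have h1 := hone ρ hρ
      have h2 : K * B ≤ K * B * ρ ^ (-q) := le_mul_of_one_le_right (by positivity) h1
      nlinarith
    · have h1 : s ∈ Icc (-1 : ℝ) 1 := ⟨by linarith [hs.1], by linarith [hs.2]⟩
      have h2 := hB ρ hρ s h1
      have h3 := hraw ρ hρ s (by
        rw [le_div_iff₀ hρ.1]
        have : |s| ≤ 1 := abs_le.2 h1
        nlinarith [abs_nonneg s, hρ.1, hρ.2])
      have e : ev (P ρ) s = raw b s₀ q ρ s - (raw b s₀ q ρ s - ev (P ρ) s) := by ring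
      rw [e]
      exact (abs_sub _ _).trans (add_le_add h3 h2)
  -- the three ranges
  refine ⟨K * (B₀ + B) + B + (B + C) * 2 ^ (q + N + 1) +
    (B₀ + N * (K * (B₀ + B))) * 2 ^ q, by positivity, fun ρ hρ i => ?_, fun ρ hρ v hv => ?_⟩
  · refine (hcoef ρ hρ i).trans ?_
    have h1 := hone ρ hρ
    refine mul_le_mul_of_nonneg_right ?_ (by linarith)
    have : (0 : ℝ) ≤ B + (B + C) * 2 ^ (q + N + 1) + (B₀ + N * (K * (B₀ + B))) * 2 ^ q := by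
      positivity
    linarith
  · have hv1 : (1 : ℝ) ≤ 1 + |v| := by linarith [abs_nonneg v]
    have hpos : (1 : ℝ) ≤ (1 + |v|) ^ (q + N + 1) :=
      Real.one_le_rpow hv1 (by positivity)
    have hKK : 0 ≤ K * (B₀ + B) := by positivity
    have h2q : (0 : ℝ) < 2 ^ q := Real.rpow_pos_of_pos (by norm_num) q
    have h2q1 : (0 : ℝ) < 2 ^ (q + N + 1) := Real.rpow_pos_of_pos (by norm_num) _
    rcases le_or_gt |v| 1 with h1 | h1
    · refine (hB ρ hρ v (abs_le.1 h1)).trans ?_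
      have : (0 : ℝ) ≤ K * (B₀ + B) + (B + C) * 2 ^ (q + N + 1) +
        (B₀ + N * (K * (B₀ + B))) * 2 ^ q := by positivity
      nlinarith
    -- `2^(j-1) < |v| ≤ 2^j`
    obtain ⟨j, hj1, hj2⟩ : ∃ j : ℕ, |v| ≤ 2 ^ j ∧ (2 : ℝ) ^ j ≤ 2 * |v| := by
      obtain ⟨m, hm1, hm2⟩ := exists_nat_pow_near h1.le one_lt_two
      exact ⟨m + 1, hm2.le, by rw [pow_succ]; linarith⟩
    have hvpos : 0 < |v| := by linarith
    rcases le_or_gt (2 ^ j * ρ) 1 with h2 | h2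
    · -- middle range
      set w := v / 2 ^ j with hw
      have hj0 : (0 : ℝ) < 2 ^ j := by positivity
      have hvw : v = 2 ^ j * w := by rw [hw]; field_simp
      have hw1 : |w| ≤ 1 := by
        rw [hw, abs_div, abs_of_pos hj0, div_le_one hj0]; exact hj1
      have h3 := hT j ρ hρ.1 h2 w hw1
      have h4 := hB (2 ^ j * ρ) ⟨by have := hρ.1; positivity, h2⟩ w (abs_le.1 hw1)
      have e1 : raw b s₀ q ρ v = (2 ^ j : ℝ) ^ q * raw b s₀ q (2 ^ j * ρ) w := by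
        rw [hvw, raw_mul b s₀ q hρ.1 hj0]
      have e2 : raw b s₀ q ρ v - ev (P ρ) v =
          (2 ^ j : ℝ) ^ q * (raw b s₀ q (2 ^ j * ρ) w - ev (P (2 ^ j * ρ)) w) -
          (ev (P ρ) (2 ^ j * w) - (2 ^ j : ℝ) ^ q * ev (P (2 ^ j * ρ)) w) := by
        rw [e1, ← hvw]; ring
      rw [e2]
      refine (abs_sub _ _).trans ?_
      have hjq : (0 : ℝ) < (2 ^ j : ℝ) ^ q := Real.rpow_pos_of_pos hj0 q
      rw [abs_mul, abs_of_pos hjq]
      have h5 : (2 ^ j : ℝ) ^ q ≤ (2 ^ j : ℝ) ^ (q + N + 1) :=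
        Real.rpow_le_rpow_of_exponent_le (one_le_pow₀ (by norm_num))
          (by linarith [Nat.cast_nonneg (α := ℝ) N])
      have h6 : (2 ^ j : ℝ) ^ (q + N + 1) ≤ 2 ^ (q + N + 1) * (1 + |v|) ^ (q + N + 1) := by
        rw [← Real.mul_rpow (by norm_num) (by linarith)]
        exact Real.rpow_le_rpow hj0.le (by linarith) (by positivity)
      calc (2 ^ j : ℝ) ^ q * |raw b s₀ q (2 ^ j * ρ) w - ev (P (2 ^ j * ρ)) w| +
            |ev (P ρ) (2 ^ j * w) - (2 ^ j : ℝ) ^ q * ev (P (2 ^ j * ρ)) w|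
          ≤ (2 ^ j : ℝ) ^ (q + N + 1) * B + C * (2 ^ j : ℝ) ^ (q + N + 1) := by gcongr
        _ = (B + C) * (2 ^ j : ℝ) ^ (q + N + 1) := by ring
        _ ≤ (B + C) * (2 ^ (q + N + 1) * (1 + |v|) ^ (q + N + 1)) := by gcongr
        _ ≤ _ := by
          have : (0 : ℝ) ≤ K * (B₀ + B) + B + (B₀ + N * (K * (B₀ + B))) * 2 ^ q := by positivity
          nlinarith
    · -- `|v| ≥ 1/(2ρ)`
      have h3 : ρ⁻¹ ≤ 2 * (1 + |v|) := by
        rw [inv_le_iff_one_le_mul₀ hρ.1]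
        have : 2 ^ j * ρ ≤ 2 * |v| * ρ := mul_le_mul_of_nonneg_right hj2 hρ.1.le
        nlinarith [hρ.1]
      have h4 : ρ ^ (-q) ≤ 2 ^ q * (1 + |v|) ^ q := by
        have e0 : (2 : ℝ) ^ q * (1 + |v|) ^ q = (2 * (1 + |v|)) ^ q :=
          (Real.mul_rpow (by norm_num) (by linarith)).symm
        rw [Real.rpow_neg hρ.1.le, ← Real.inv_rpow hρ.1.le, e0]
        exact Real.rpow_le_rpow (inv_pos.2 hρ.1).le h3 hq
      have h5 := hraw ρ hρ v hv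
      have h6 := ev_bd (hcoef ρ hρ) v
      refine (abs_sub _ _).trans ?_
      have h7 : (1 + |v|) ^ q * (1 + |v|) ^ N ≤ (1 + |v|) ^ (q + N + 1) := by
        rw [← Real.rpow_natCast (1 + |v|) N, ← Real.rpow_add (by linarith)]
        exact Real.rpow_le_rpow_of_exponent_le hv1 (by linarith)
      have h8 : (1 + |v|) ^ q ≤ (1 + |v|) ^ (q + N + 1) :=
        Real.rpow_le_rpow_of_exponent_le hv1 (by linarith [Nat.cast_nonneg (α := ℝ) N])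
      calc |raw b s₀ q ρ v| + |ev (P ρ) v|
          ≤ ρ ^ (-q) * B₀ + N * (K * (B₀ + B) * ρ ^ (-q)) * (1 + |v|) ^ N := add_le_add h5 h6
        _ ≤ (2 ^ q * (1 + |v|) ^ q) * B₀ +
            N * (K * (B₀ + B) * (2 ^ q * (1 + |v|) ^ q)) * (1 + |v|) ^ N := by gcongr
        _ = 2 ^ q * B₀ * (1 + |v|) ^ q +
            N * (K * (B₀ + B)) * 2 ^ q * ((1 + |v|) ^ q * (1 + |v|) ^ N) := by ring
        _ ≤ 2 ^ q * B₀ * (1 + |v|) ^ (q + N + 1) +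
            N * (K * (B₀ + B)) * 2 ^ q * (1 + |v|) ^ (q + N + 1) := by gcongr
        _ = ((B₀ + N * (K * (B₀ + B))) * 2 ^ q) * (1 + |v|) ^ (q + N + 1) := by ring
        _ ≤ _ := by
          refine mul_le_mul_of_nonneg_right ?_ (by linarith)
          have : (0 : ℝ) ≤ K * (B₀ + B) + B + (B + C) * 2 ^ (q + N + 1) := by positivity
          linarith

end growth

end Vale.Agent.P207.N3.H476
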