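import Vale.Agent.P207.N3.H476.LevelLeaf
import Vale.Agent.P207.N3.H738.Conv

/-!
# P207, line N3, package P14 (4.3): `Good1`, and the level lemma for level forms
-/

open Set Filter Topology Metric
open scoped ContDiff

set_option linter.unusedSectionVars false

noncomputable section

namespace Vale.Agent.P207.N3.H476

open Vale.Agent.P207.N3

variable {Γ X B : Type} [Group Γ] [MetricSpace X] [ProperSpace X] [MulAction Γ X]
  [IsIsometricSMul Γ X] [TopologicalSpace B] [CompactSpace B] [T2Space B] [MulAction Γ B]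
  [ContinuousConstSMul Γ B] [MeasurableSpace B] [BorelSpace B]

variable {L : Leaf Γ X B} {A : Area L} {T : Tens L} {k₀ : ℕ} {o : Orb L}

/-- a level form satisfies the hypotheses of the level lemma -/
theorem hyp_of_levForm (t : LevForm A T k₀ o) (h0 : 0 < t.χ) (hh : t.χ ≤ A.h) :
    Hyp A T o.neg t.f t.χ t.b t.V where
  f_smooth := fun x hx => ((EuclideanSpace.proj t.i : E2 →L[ℝ] ℝ)
    ).contDiff.comp_contDiffOn (t.n.smooth x hx)
  χ_pos := h0
  χ_le := hh
  b_cont := t.b_cont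
  V_smooth := t.V_smooth
  form := t.form

/-- the level lemma for a level form, at a good level of `b` -/
theorem level_of_levForm (t : LevForm A T k₀ o) (h0 : 0 < t.χ) (hh : t.χ ≤ A.h)
    (hR : Rough T k₀) {s₀ : ℝ} {N : ℕ} (hg : Good t.b s₀ ((2 * A.h - 2 * t.χ) / t.χ) N k₀) :
    GoodLev L o.neg t.f t.χ s₀ :=
  level (hyp_of_levForm t h0 hh) hR hg

/-- the value `0` is good -/
theorem goodLev_zero (t : LevForm A T k₀ o) (h0 : 0 < t.χ) (hh : t.χ ≤ A.h) (hR : Rough T k₀) :
    GoodLev L o.neg t.f t.χ 0 := by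
  obtain ⟨P, hP⟩ := t.b_equiv
  have h1 : H738.Good (2 * A.h - 2 * t.χ) t.χ k₀ t.b 0 := by
    refine H738.good_zero (lam := t.ε * Real.exp (t.χ * o.l)) h0 o.ax.pos t.b_cont
      (fun I hI _ hne => t.b_rough I hI hne) ?_ P hP
    rw [abs_mul, t.ε_abs, one_mul, abs_of_pos (Real.exp_pos _)]
  obtain ⟨N, hN⟩ := h1.conv h0
  exact level_of_levForm t h0 hh hR hN

/-- (P14, 4.3) first part -/
theorem good1 (hR : Rough T k₀) (hχ : ∀ p : Typed A T k₀, 0 < p.t.χ ∧ p.t.χ ≤ A.h) :
    Good1 A T k₀ :=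
  fun p => goodLev_zero p.t (hχ p).1 (hχ p).2 hR

end Vale.Agent.P207.N3.H476
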