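import Vale.Agent.P207.N3.H476.Level
import Vale.Agent.P207.N3.H545.TensR
import Vale.Agent.P207.N3.Top.Defs

/-!
# P207, line N3, package P14 (4.3): the area density and the rank one tensors
-/

open Set Filter Topology Metric
open scoped ContDiff

set_option maxSynthPendingDepth 3
set_option linter.unusedSectionVars false

noncomputable section

namespace Vale.Agent.P207.N3.H476

open Vale.Agent.P207.N3
open Vale.Agent.P207.N3.H545 (ts t1_le_ts ts_pos riesz conjT conjT_apply)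

/-! ### rank one tensors -/

/-- the rotation by a right angle, as a linear map -/
def Jl : E2 →L[ℝ] E2 :=
  LinearMap.toContinuousLinearMap
    { toFun := J
      map_add' := fun v w => by
        ext i; fin_cases i <;> simp [J]; ring
      map_smul' := fun c v => by
        ext i; fin_cases i <;> simp [J] }

theorem Jl_apply (v : E2) : Jl v = J v := rfl

theorem J_ne {v : E2} (hv : v ≠ 0) : J v ≠ 0 := by
  intro h
  apply hv
  have h0 := congrArg (fun w : E2 => w 0) h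
  have h1 := congrArg (fun w : E2 => w 1) h
  simp [J] at h0 h1
  ext i; fin_cases i <;> simp [h0, h1]

theorem J_smul (c : ℝ) (v : E2) : J (c • v) = c • J v := by
  rw [← Jl_apply, ← Jl_apply, map_smul]

/-- `D J Dᵀ = det D • J` -/
theorem J_adj (D : E2 →L[ℝ] E2) (g : E2) : D (J (star D g)) = D.det • J g := by
  have hdet : D.det = (D (EuclideanSpace.single 0 1)) 0 * (D (EuclideanSpace.single 1 1)) 1 -
      (D (EuclideanSpace.single 1 1)) 0 * (D (EuclideanSpace.single 0 1)) 1 := by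
    have h1 : D.det = LinearMap.det (D : E2 →ₗ[ℝ] E2) := rfl
    rw [h1, ← LinearMap.det_toMatrix (EuclideanSpace.basisFun (Fin 2) ℝ).toBasis,
      Matrix.det_fin_two]
    simp [LinearMap.toMatrix_apply]
  have hc : ∀ v : E2, v = v 0 • EuclideanSpace.single (0 : Fin 2) (1 : ℝ) +
      v 1 • EuclideanSpace.single (1 : Fin 2) (1 : ℝ) := by
    intro v; ext i; fin_cases i <;> simp
  have hs : ∀ j : Fin 2, (star D g) j = inner ℝ (D (EuclideanSpace.single j 1)) g := by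
    intro j
    have h1 : inner ℝ (EuclideanSpace.single j (1 : ℝ)) (star D g) =
        inner ℝ (D (EuclideanSpace.single j 1)) g := by
      rw [ContinuousLinearMap.star_eq_adjoint, ContinuousLinearMap.adjoint_inner_right]
    rw [← h1]
    simp [EuclideanSpace.inner_single_left]
  have hin : ∀ v w : E2, inner ℝ v w = v 0 * w 0 + v 1 * w 1 := by
    intro v w
    rw [PiLp.inner_apply, Fin.sum_univ_two]
    simp [mul_comm]
  have h2 : J (star D g) = (-(star D g) 1) • EuclideanSpace.single (0 : Fin 2) (1 : ℝ) +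
      (star D g) 0 • EuclideanSpace.single (1 : Fin 2) (1 : ℝ) := by
    rw [hc (J (star D g))]
    simp [J]
  rw [h2, map_add, map_smul, map_smul, hs 0, hs 1, hin, hin, hdet]
  ext i
  fin_cases i <;> simp [J] <;> ring

/-- the rank one tensors `v ↦ ⟪J l, v⟫ J l'` -/
def Bop : (E2 →L[ℝ] ℝ) →L[ℝ] (E2 →L[ℝ] ℝ) →L[ℝ] (E2 →L[ℝ] E2) :=
  (ContinuousLinearMap.smulRightL ℝ E2 E2).bilinearComp
    ((riesz.symm : E2 →L[ℝ] (E2 →L[ℝ] ℝ)) ∘L Jl ∘L (riesz : (E2 →L[ℝ] ℝ) →L[ℝ] E2))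
    (Jl ∘L (riesz : (E2 →L[ℝ] ℝ) →L[ℝ] E2))

theorem Bop_apply (l l' : E2 →L[ℝ] ℝ) (v : E2) :
    Bop l l' v = (inner ℝ (J (riesz l)) v : ℝ) • J (riesz l') := rfl

theorem Bop_ne {l : E2 →L[ℝ] ℝ} (hl : l ≠ 0) : Bop l l ≠ 0 := by
  intro h
  have h1 : J (riesz l) ≠ 0 := J_ne (by simpa using hl)
  have h2 := congrArg (fun T : E2 →L[ℝ] E2 => T (J (riesz l))) h
  simp only [Bop_apply, zero_apply, smul_eq_zero, inner_self_eq_zero] at h2
  rcases h2 with h2 | h2 <;> exact h1 h2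

theorem inner_riesz (l : E2 →L[ℝ] ℝ) (v : E2) : inner ℝ (riesz l) v = l v :=
  InnerProductSpace.toDual_symm_apply

theorem riesz_comp (l : E2 →L[ℝ] ℝ) (D : E2 →L[ℝ] E2) : riesz (l ∘L D) = star D (riesz l) := by
  refine ext_inner_right ℝ fun v => ?_
  rw [ContinuousLinearMap.star_eq_adjoint, ContinuousLinearMap.adjoint_inner_left, inner_riesz,
    inner_riesz]
  rfl

/-- the transformation of the rank one tensors -/
theorem conj_Bop {S D : E2 →L[ℝ] E2} (h : S * D = 1) (h' : D * S = 1) (l : E2 →L[ℝ] ℝ) :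
    conjT S (Bop l l) = ((D.det)⁻¹ * (D.det)⁻¹) • Bop (l ∘L D) (l ∘L D) := by
  have hd : D.det ≠ 0 := by
    have h1 : LinearMap.det ((D * S : E2 →L[ℝ] E2) : E2 →ₗ[ℝ] E2) = 1 := by
      rw [h']; exact LinearMap.det_id
    have h2 : ((D * S : E2 →L[ℝ] E2) : E2 →ₗ[ℝ] E2) = (D : E2 →ₗ[ℝ] E2) * (S : E2 →ₗ[ℝ] E2) := rfl
    rw [h2, map_mul] at h1
    exact left_ne_zero_of_mul_eq_one h1
  have h1 : S (J (riesz l)) = (D.det)⁻¹ • J (riesz (l ∘L D)) := by
    have h2 : S (D (J (star D (riesz l)))) = J (star D (riesz l)) := by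
      have := congrArg (fun T : E2 →L[ℝ] E2 => T (J (star D (riesz l)))) h
      exact this
    rw [J_adj, map_smul, ← riesz_comp] at h2
    rw [← h2, smul_smul, inv_mul_cancel₀ hd, one_smul]
  refine ContinuousLinearMap.ext fun v => ?_
  have h3 : conjT S (Bop l l) v = S (Bop l l (star S v)) := rfl
  have h4 : inner ℝ (J (riesz l)) (star S v) = (inner ℝ (S (J (riesz l))) v : ℝ) := by
    rw [ContinuousLinearMap.star_eq_adjoint, ContinuousLinearMap.adjoint_inner_right]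
  rw [h3, Bop_apply, map_smul, h4, h1, smul_apply, Bop_apply, inner_smul_left, smul_smul,
    smul_smul]
  congr 1
  simp
  ring

/-! ### the area density -/

variable {Γ X B : Type} [Group Γ] [MetricSpace X] [ProperSpace X] [MulAction Γ X]
  [IsIsometricSMul Γ X] [TopologicalSpace B] [CompactSpace B] [T2Space B] [MulAction Γ B]
  [ContinuousConstSMul Γ B] [MeasurableSpace B] [BorelSpace B]

variable {L : Leaf Γ X B} (A : Area L)

theorem iter_s_smul (k : ℕ) (g : Γ) (x : X) {u : E2} (hu : u ∈ ball (0 : E2) 3) :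
    iteratedFDeriv ℝ k (A.s (g • x)) u = iteratedFDeriv ℝ k (A.s x) u := by
  have h : A.s (g • x) =ᶠ[𝓝 u] A.s x := by
    filter_upwards [isOpen_ball.mem_nhds hu] with v hv using A.s_smul g x v hv
  exact (h.iteratedFDeriv ℝ k).self_of_nhds

theorem s_bd (k : ℕ) : ∃ C, 0 ≤ C ∧ ∀ x, ∀ u ∈ closedBall (0 : E2) 2,
    ‖iteratedFDeriv ℝ k (A.s x) u‖ ≤ C := by
  obtain ⟨K, hK, hKΓ⟩ := L.cocompact
  have h23 : closedBall (0 : E2) 2 ⊆ ball 0 3 := closedBall_subset_ball (by norm_num)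
  obtain ⟨b, hb⟩ := (hK.prod (isCompact_closedBall (0 : E2) 2)).exists_bound_of_continuousOn
    ((A.s_cont k).mono (fun p hp => ⟨mem_univ _, h23 hp.2⟩))
  refine ⟨max b 0, le_max_right _ _, fun x u hu => ?_⟩
  obtain ⟨g, hg⟩ := hKΓ x
  have := hb (g • x, u) ⟨hg, hu⟩
  simp only at this
  rw [iter_s_smul A k g x (h23 hu)] at this
  exact this.trans (le_max_left _ _)

theorem s_continuousOn : ContinuousOn (fun p : X × E2 => A.s p.1 p.2) (univ ×ˢ ball 0 3) := by
  have h := A.s_cont 0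
  have h2 : ContinuousOn (fun p : X × E2 => (continuousMultilinearCurryFin0 ℝ E2 ℝ)
      (iteratedFDeriv ℝ 0 (A.s p.1) p.2)) (univ ×ˢ ball 0 3) :=
    (continuousMultilinearCurryFin0 ℝ E2 ℝ).continuous.comp_continuousOn h
  refine h2.congr fun p _ => ?_
  simp

theorem s_low : ∃ c > 0, ∀ x, ∀ u ∈ closedBall (0 : E2) 2, c ≤ A.s x u := by
  obtain ⟨K, hK, hKΓ⟩ := L.cocompact
  have h23 : closedBall (0 : E2) 2 ⊆ ball 0 3 := closedBall_subset_ball (by norm_num)
  have hne : (K ×ˢ closedBall (0 : E2) 2).Nonempty := by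
    obtain ⟨x⟩ := L.nonempty
    obtain ⟨g, hg⟩ := hKΓ x
    exact ⟨(g • x, 0), hg, by simp⟩
  obtain ⟨p, hp, hmin⟩ := (hK.prod (isCompact_closedBall (0 : E2) 2)).exists_isMinOn hne
    ((s_continuousOn A).mono (fun p hp => ⟨mem_univ _, h23 hp.2⟩))
  refine ⟨A.s p.1 p.2, A.s_pos _ _ (h23 hp.2), fun x u hu => ?_⟩
  obtain ⟨g, hg⟩ := hKΓ x
  have h1 : A.s p.1 p.2 ≤ A.s (g • x) u := hmin (show (g • x, u) ∈ _ from ⟨hg, hu⟩)
  rwa [A.s_smul g x u (h23 hu)] at h1

theorem s_up : ∃ C > 0, ∀ x, ∀ u ∈ closedBall (0 : E2) 2, A.s x u ≤ C := by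
  obtain ⟨C, hC0, hC⟩ := s_bd A 0
  refine ⟨C + 1, by linarith, fun x u hu => ?_⟩
  have := hC x u hu
  rw [norm_iteratedFDeriv_zero, Real.norm_eq_abs] at this
  linarith [le_abs_self (A.s x u)]

/-- uniform `C^k` bounds of `1 / s²` -/
theorem s_inv_CkB (k : ℕ) : ∃ C, 0 ≤ C ∧ ∀ x,
    H545.CkB k 2 C (fun u => (A.s x u)⁻¹ * (A.s x u)⁻¹) := by
  choose c hc0 hc using s_bd A
  obtain ⟨c₀, hc₀, hlow⟩ := s_low A
  have h23 : ball (0 : E2) 2 ⊆ ball 0 3 := ball_subset_ball (by norm_num)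
  set cs : ℝ := ∑ i ∈ Finset.range (k + 1), c i with hcs
  have hcs0 : 0 ≤ cs := Finset.sum_nonneg fun i _ => hc0 i
  obtain ⟨K, hK0, hK⟩ := H545.exists_inverse_bound.{0} k c₀⁻¹ cs (by positivity) hcs0
  have hinv : ∀ x, H545.CkB k 2 K (fun u => (A.s x u)⁻¹) := by
    intro x
    have hne : ∀ u ∈ ball (0 : E2) 2, A.s x u ≠ 0 := fun u hu =>
      (A.s_pos x u (h23 hu)).ne'
    have hsm : ∀ u ∈ ball (0 : E2) 2, ContDiffAt ℝ k (A.s x) u := fun u hu =>
      (((A.s_smooth x) u (h23 hu)).contDiffAt (isOpen_ball.mem_nhds (h23 hu))).of_le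
        (by exact_mod_cast le_top)
    refine ⟨fun u hu => ((hsm u hu).inv (hne u hu)).contDiffWithinAt, fun i hi u hu => ?_⟩
    have h1 := hK ℝ E2 (A.s x) u (hsm u hu) (isUnit_iff_ne_zero.mpr (hne u hu)) (by
      rw [Ring.inverse_eq_inv', Real.norm_eq_abs, abs_inv, abs_of_pos (A.s_pos x u (h23 hu))]
      exact inv_anti₀ hc₀ (hlow x u (ball_subset_closedBall hu))) (by
      intro j _ hj
      exact (hc j x u (ball_subset_closedBall hu)).trans
        (Finset.single_le_sum (f := c) (fun i _ => hc0 i)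
          (Finset.mem_range.mpr (Nat.lt_succ_of_le hj)))) i hi
    have h2 : (fun y => Ring.inverse (A.s x y)) = fun y => (A.s x y)⁻¹ := by
      funext y; rw [Ring.inverse_eq_inv']
    rwa [h2] at h1
  refine ⟨‖ContinuousLinearMap.mul ℝ ℝ‖ * (2 ^ k * (K * K)), by positivity, fun x => ?_⟩
  exact H545.CkB_bilin (ContinuousLinearMap.mul ℝ ℝ) (hinv x) (hinv x) hK0 hK0

end Vale.Agent.P207.N3.H476
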