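import Vale.Agent.P207.N3.H476.LevelLeaf

/-!
# P207, line N3: the sequence of discs over `Leaf`, common pieces of P13 (4.1) and P14 (4.3)

For a frame `x₀`: frames `fr m = φ_{m ts} x₀`, `S = ball 0 2`, `S' = ball 0 1`, `τ m = tauS`,
`A m u = AA`, `R m u = RR`, weight `ww m u = s⁻²`, rank one tensors `BB f g m = ww • Bop(df, dg)`.
-/

open Set Filter Topology Metric
open scoped ContDiff

set_option maxSynthPendingDepth 3
set_option linter.unusedSectionVars false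

noncomputable section

namespace Vale.Agent.P207.N3.H476

open Vale.Agent.P207.N3
open Vale.Agent.P207.N3.H545 (ts t1_le_ts ts_pos riesz conjT conjT_apply Sx Sx_CkB conjT_CkB R_CkB
  N_bound N_step Sx_mul tau_step_mem e_tau_step dm_step tau_step_smooth gradient_eq_riesz
  norm_fderiv_tau_step_le)

/-- the transformation of the mixed tensors -/
theorem conj_Bop2 {S D : E2 →L[ℝ] E2} (h : S * D = 1) (h' : D * S = 1) (l l' : E2 →L[ℝ] ℝ) :
    conjT S (Bop l l') = ((D.det)⁻¹ * (D.det)⁻¹) • Bop (l ∘L D) (l' ∘L D) := by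
  have hd : D.det ≠ 0 := by
    have h1 : LinearMap.det ((D * S : E2 →L[ℝ] E2) : E2 →ₗ[ℝ] E2) = 1 := by
      rw [h']; exact LinearMap.det_id
    have h2 : ((D * S : E2 →L[ℝ] E2) : E2 →ₗ[ℝ] E2) = (D : E2 →ₗ[ℝ] E2) * (S : E2 →ₗ[ℝ] E2) := rfl
    rw [h2, map_mul] at h1
    exact left_ne_zero_of_mul_eq_one h1
  have h1 : ∀ l : E2 →L[ℝ] ℝ, S (J (riesz l)) = (D.det)⁻¹ • J (riesz (l ∘L D)) := by
    intro l
    have h2 : S (D (J (star D (riesz l)))) = J (star D (riesz l)) := by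
      have := congrArg (fun T : E2 →L[ℝ] E2 => T (J (star D (riesz l)))) h
      exact this
    rw [J_adj, map_smul, ← riesz_comp] at h2
    rw [← h2, smul_smul, inv_mul_cancel₀ hd, one_smul]
  refine ContinuousLinearMap.ext fun v => ?_
  have h3 : conjT S (Bop l l') v = S (Bop l l' (star S v)) := rfl
  have h4 : inner ℝ (J (riesz l)) (star S v) = (inner ℝ (S (J (riesz l))) v : ℝ) := by
    rw [ContinuousLinearMap.star_eq_adjoint, ContinuousLinearMap.adjoint_inner_right]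
  rw [h3, Bop_apply, map_smul, h4, h1, h1, smul_apply, Bop_apply, inner_smul_left, smul_smul,
    smul_smul]
  congr 1
  simp
  ring

variable {Γ X B : Type} [Group Γ] [MetricSpace X] [ProperSpace X] [MulAction Γ X]
  [IsIsometricSMul Γ X] [TopologicalSpace B] [CompactSpace B] [T2Space B] [MulAction Γ B]
  [ContinuousConstSMul Γ B]

section base

variable (L : Leaf Γ X B)

theorem base_maps (x₀ : X) (m : ℕ) {u : E2} (hu : u ∈ closedBall (0 : E2) 3) :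
    tauS L x₀ m u ∈ ball (0 : E2) 1 := by
  rw [tauS_eq]
  exact tau_step_mem L (t1_le_ts L) _ hu

theorem base_smooth (x₀ : X) (m : ℕ) : ContDiffOn ℝ ∞ (tauS L x₀ m) (ball (0 : E2) 3) := by
  rw [tauS_eq]
  exact tau_step_smooth L (t1_le_ts L) _

theorem base_bd (x₀ : X) : ∃ K, ∀ m, ∀ u ∈ ball (0 : E2) 2,
    DifferentiableAt ℝ (tauS L x₀ m) u ∧ ‖fderiv ℝ (tauS L x₀ m) u‖ ≤ K := by
  refine ⟨1 / 2, fun m u hu => ?_⟩
  have hu3 : u ∈ ball (0 : E2) 3 := ball_subset_ball (by norm_num) hu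
  refine ⟨((base_smooth L x₀ m).contDiffAt (isOpen_ball.mem_nhds hu3)).differentiableAt
    (by simp), ?_⟩
  rw [tauS_eq]
  exact norm_fderiv_tau_step_le L le_rfl _ hu3

/-- the cocycle of the symmetric tensors -/
def AA (x₀ : X) (m : ℕ) (u : E2) : (E2 →L[ℝ] E2) →L[ℝ] (E2 →L[ℝ] E2) :=
  conjT (Sx L (fr L x₀ m) (ts L) u)

theorem AA_CkB (k : ℕ) : ∃ c, 0 ≤ c ∧ ∀ x₀ m, H545.CkB k 2 c (AA L x₀ m) := by
  have hts : ts L ∈ Icc L.t1 (ts L) := ⟨t1_le_ts L, le_rfl⟩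
  obtain ⟨c, hc, h1⟩ := conjT_CkB L k (ts L)
  exact ⟨c, hc, fun x₀ m => h1 _ _ hts⟩

/-- Lemma R for the symmetric tensors, for every growth -/
theorem lemR_AA (Λ : ℝ) : ∃ k₁ : ℕ, ∀ k ≥ k₁, ∀ x₀ : X,
    LemR (ball (0 : E2) 2) (ball (0 : E2) 1) k (tauS L x₀) (AA L x₀) (Real.exp Λ) := by
  obtain ⟨c1, hc1, hS⟩ := AA_CkB L 0
  obtain ⟨k1, hk1⟩ := lemR_leaf L c1 Λ
  refine ⟨k1, fun k hk x₀ => ?_⟩
  obtain ⟨c2, hc2, hT⟩ := AA_CkB L k
  exact hk1 k hk c2 (E2 →L[ℝ] E2) x₀ (AA L x₀) (fun m u hu => (hS x₀ m).norm_le hu)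
    (fun m => hT x₀ m)

/-- Lemma R for functions, for every growth -/
theorem lemR_id (Λ : ℝ) : ∃ k₁ : ℕ, ∀ k ≥ k₁, ∀ (F : Type) [NormedAddCommGroup F]
    [NormedSpace ℝ F] (x₀ : X), LemR (ball (0 : E2) 2) (ball (0 : E2) 1) k (tauS L x₀)
      (fun _ _ => ContinuousLinearMap.id ℝ F) (Real.exp Λ) := by
  obtain ⟨k1, hk1⟩ := lemR_leaf L 1 Λ
  refine ⟨k1, fun k hk F _ _ x₀ => ?_⟩
  refine hk1 k hk ‖ContinuousLinearMap.id ℝ F‖ F x₀
    (fun _ _ => ContinuousLinearMap.id ℝ F) (fun _ _ _ => ContinuousLinearMap.norm_id_le)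
    (fun m => ⟨contDiffOn_const, fun i _ u _ => ?_⟩)
  rcases Nat.eq_zero_or_pos i with h | h
  · subst h
    rw [norm_iteratedFDeriv_zero]
  · rw [iteratedFDeriv_const_of_ne (by omega)]
    simp

variable {L}

/-- the error term of the recursion of `E^s` -/
def RR (T : Tens L) (x₀ : X) (m : ℕ) (u : E2) : E2 →L[ℝ] E2 :=
  -AA L x₀ m u (T.R (L.φ (ts L) (fr L x₀ m)) (fr L x₀ m) u)

theorem base_rel (T : Tens L) (x₀ : X) (m : ℕ) {u : E2} (hu : u ∈ ball (0 : E2) 3) :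
    T.N (fr L x₀ (m + 1)) u = AA L x₀ m u (T.N (fr L x₀ m) (tauS L x₀ m u)) + RR T x₀ m u := by
  rw [fr_succ, tauS_eq]
  exact N_step T (t1_le_ts L) _ hu

theorem RR_CkB (T : Tens L) (k : ℕ) : ∃ c, ∀ x₀ m, H545.CkB k 2 c (RR T x₀ m) := by
  have hts : ts L ∈ Icc L.t1 (ts L) := ⟨t1_le_ts L, le_rfl⟩
  obtain ⟨c, hc, h1⟩ := conjT_CkB L k (ts L)
  obtain ⟨c', hc', h2⟩ := R_CkB T k (ts L)
  exact ⟨_, fun x₀ m => H545.CkB_neg (H545.CkB_bilin (ContinuousLinearMap.id ℝ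
      ((E2 →L[ℝ] E2) →L[ℝ] (E2 →L[ℝ] E2))) (h1 (fr L x₀ m) _ hts) (h2 (fr L x₀ m) _ hts) hc hc')⟩

theorem base_N_bd (T : Tens L) : ∃ C, ∀ (x₀ : X) (m : ℕ), ∀ u ∈ ball (0 : E2) 2,
    ‖T.N (fr L x₀ m) u‖ ≤ C := by
  obtain ⟨c, -, h⟩ := N_bound T
  exact ⟨c, fun x₀ m u hu => h _ u (ball_subset_closedBall hu)⟩

theorem base_f_step {V : Type} (f : B → V) (x₀ : X) (m : ℕ) {u : E2}
    (hu : u ∈ closedBall (0 : E2) 3) :
    f (L.e (fr L x₀ (m + 1)) u) = f (L.e (fr L x₀ m) (tauS L x₀ m u)) := by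
  have h1 := e_tau_step L (t1_le_ts L) (fr L x₀ m) hu
  rw [tauS_eq, h1, fr_succ]

theorem base_f_smooth {V : Type} [NormedAddCommGroup V] [NormedSpace ℝ V] {ξ : B} {f : B → V}
    (hf : L.SmoothOn ξ f) {x₀ : X} (h₀ : L.em x₀ = ξ) (m : ℕ) :
    ContDiffOn ℝ ∞ (fun u => f (L.e (fr L x₀ m) u)) (ball 0 3) :=
  hf _ ((em_fr L x₀ m).trans h₀)

theorem base_fd_step {V : Type} [NormedAddCommGroup V] [NormedSpace ℝ V] {ξ : B} {f : B → V}
    (hf : L.SmoothOn ξ f) {x₀ : X} (h₀ : L.em x₀ = ξ) (m : ℕ) {u : E2}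
    (hu : u ∈ ball (0 : E2) 3) :
    fderiv ℝ (fun u => f (L.e (fr L x₀ (m + 1)) u)) u =
      (fderiv ℝ (fun u => f (L.e (fr L x₀ m) u)) (tauS L x₀ m u)) ∘L
        fderiv ℝ (tauS L x₀ m) u := by
  have h1 : (fun u => f (L.e (fr L x₀ (m + 1)) u)) =ᶠ[𝓝 u]
      (fun u => f (L.e (fr L x₀ m) u)) ∘ (tauS L x₀ m) := by
    filter_upwards [isOpen_ball.mem_nhds hu] with v hv
    exact base_f_step f x₀ m (ball_subset_closedBall hv)
  rw [h1.fderiv_eq]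
  have h13 : ball (0 : E2) 1 ⊆ ball 0 3 := ball_subset_ball (by norm_num)
  refine fderiv_comp u ?_ ?_
  · exact (((base_f_smooth hf h₀ m).contDiffAt (isOpen_ball.mem_nhds
      (h13 (base_maps L x₀ m (ball_subset_closedBall hu)))))).differentiableAt (by simp)
  · exact (((base_smooth L x₀ m).contDiffAt (isOpen_ball.mem_nhds hu))).differentiableAt (by simp)

end base

variable [MeasurableSpace B] [BorelSpace B] {L : Leaf Γ X B}

/-- the weight `s⁻²` -/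
def ww (A : Area L) (x₀ : X) (m : ℕ) (u : E2) : ℝ :=
  (A.s (fr L x₀ m) u)⁻¹ * (A.s (fr L x₀ m) u)⁻¹

theorem ww_smooth (A : Area L) (x₀ : X) (m : ℕ) : ContDiffOn ℝ ∞ (ww A x₀ m) (ball 0 3) := by
  have h1 : ContDiffOn ℝ ∞ (fun u => (A.s (fr L x₀ m) u)⁻¹) (ball 0 3) :=
    (A.s_smooth _).inv fun u hu => (A.s_pos _ u hu).ne'
  exact h1.mul h1

theorem ww_CkB (A : Area L) (k : ℕ) : ∃ C, 0 ≤ C ∧ ∀ x₀ m, H545.CkB k 2 C (ww A x₀ m) := by
  obtain ⟨C, hC0, hC⟩ := s_inv_CkB A k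
  exact ⟨C, hC0, fun x₀ m => hC _⟩

theorem ww_low (A : Area L) : ∃ c > 0, ∀ (x₀ : X) (m : ℕ), ∀ u ∈ ball (0 : E2) 2,
    c ≤ ww A x₀ m u := by
  obtain ⟨C, hC0, hC⟩ := s_up A
  refine ⟨C⁻¹ * C⁻¹, by positivity, fun x₀ m u hu => ?_⟩
  have h1 := hC (fr L x₀ m) u (ball_subset_closedBall hu)
  have h2 := A.s_pos (fr L x₀ m) u (ball_subset_ball (by norm_num) hu)
  unfold ww
  have h3 : C⁻¹ ≤ (A.s (fr L x₀ m) u)⁻¹ := inv_anti₀ h2 h1
  gcongr

/-- the mixed rank one tensors `s⁻² J∇f ⊗ J∇g` -/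
def BB (A : Area L) (f g : B → ℝ) (x₀ : X) (m : ℕ) (u : E2) : E2 →L[ℝ] E2 :=
  ww A x₀ m u • Bop (fderiv ℝ (fun u => f (L.e (fr L x₀ m) u)) u)
    (fderiv ℝ (fun u => g (L.e (fr L x₀ m) u)) u)

theorem BB_smooth (A : Area L) {ξ : B} {f g : B → ℝ} (hf : L.SmoothOn ξ f)
    (hg : L.SmoothOn ξ g) {x₀ : X} (h₀ : L.em x₀ = ξ) (m : ℕ) :
    ContDiffOn ℝ ∞ (BB A f g x₀ m) (ball 0 3) := by
  have h1 : ContDiffOn ℝ ∞ (fderiv ℝ (fun u => f (L.e (fr L x₀ m) u))) (ball (0 : E2) 3) :=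
    (base_f_smooth hf h₀ m).fderiv_of_isOpen isOpen_ball (by simp)
  have h2 : ContDiffOn ℝ ∞ (fderiv ℝ (fun u => g (L.e (fr L x₀ m) u))) (ball (0 : E2) 3) :=
    (base_f_smooth hg h₀ m).fderiv_of_isOpen isOpen_ball (by simp)
  have h3 : ContDiffOn ℝ ∞ (fun u => Bop (fderiv ℝ (fun u => f (L.e (fr L x₀ m) u)) u))
      (ball (0 : E2) 3) := Bop.contDiff.comp_contDiffOn h1
  have h4 := h3.clm_apply h2
  exact (ww_smooth A x₀ m).smul h4

/-- the transformation of the mixed tensors along the steps -/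
theorem BB_step (A : Area L) {ξ : B} {f g : B → ℝ} (hf : L.SmoothOn ξ f)
    (hg : L.SmoothOn ξ g) {x₀ : X} (h₀ : L.em x₀ = ξ) (m : ℕ) {u : E2}
    (hu : u ∈ ball (0 : E2) 3) :
    AA L x₀ m u (BB A f g x₀ m (tauS L x₀ m u)) =
      Real.exp (2 * A.h * ts L) • BB A f g x₀ (m + 1) u := by
  have hem : L.em (fr L x₀ (m + 1)) = L.em (fr L x₀ m) := by rw [em_fr, em_fr]
  have hdm : u ∈ L.dm (fr L x₀ (m + 1)) (fr L x₀ m) := by
    rw [fr_succ, dm_step L (t1_le_ts L)]; exact hu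
  set D := fderiv ℝ (tauS L x₀ m) u with hD
  have hS1 : Sx L (fr L x₀ m) (ts L) u * D = 1 := by
    have := Sx_mul (L := L) (t1_le_ts L) (fr L x₀ m) hu
    rw [hD, tauS_eq]; exact this
  have hunit : IsUnit D := by
    rw [hD]; exact H545.isUnit_fderiv_tau L hem hdm
  have hS2 : D * Sx L (fr L x₀ m) (ts L) u = 1 := by
    have h1 : Sx L (fr L x₀ m) (ts L) u = Ring.inverse D := by
      rw [hD, tauS_eq]; rfl
    rw [h1]; exact Ring.mul_inverse_cancel _ hunit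
  have hd : D.det ≠ 0 := by
    have h1 : LinearMap.det ((D * Sx L (fr L x₀ m) (ts L) u : E2 →L[ℝ] E2) : E2 →ₗ[ℝ] E2) = 1 := by
      rw [hS2]; exact LinearMap.det_id
    have h2 : ((D * Sx L (fr L x₀ m) (ts L) u : E2 →L[ℝ] E2) : E2 →ₗ[ℝ] E2) =
      (D : E2 →ₗ[ℝ] E2) * (Sx L (fr L x₀ m) (ts L) u : E2 →ₗ[ℝ] E2) := rfl
    rw [h2, map_mul] at h1
    exact left_ne_zero_of_mul_eq_one h1
  have hs := A.s_trans (fr L x₀ (m + 1)) (fr L x₀ m) hem u hdm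
  have hτu : L.τ (fr L x₀ (m + 1)) (fr L x₀ m) = tauS L x₀ m := rfl
  rw [hτu, ← hD] at hs
  have hlv : L.lv (fr L x₀ (m + 1)) - L.lv (fr L x₀ m) = ts L := by
    rw [lv_fr, lv_fr]; push_cast; ring
  rw [hlv] at hs
  have h13 : ball (0 : E2) 1 ⊆ ball 0 3 := ball_subset_ball (by norm_num)
  have hs0 : A.s (fr L x₀ m) (tauS L x₀ m u) ≠ 0 :=
    (A.s_pos _ _ (h13 (base_maps L x₀ m (ball_subset_closedBall hu)))).ne'
  unfold BB AA
  rw [map_smul, conj_Bop2 hS1 hS2, ← base_fd_step hf h₀ m hu, ← base_fd_step hg h₀ m hu,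
    smul_smul, smul_smul]
  congr 1
  unfold ww
  rw [hs]
  have h6 : Real.exp (2 * A.h * ts L) = Real.exp (A.h * ts L) * Real.exp (A.h * ts L) := by
    rw [← Real.exp_add]; congr 1; ring
  rw [h6]
  have h7 : |D.det| ≠ 0 := abs_ne_zero.mpr hd
  have h8 := (Real.exp_pos (A.h * ts L)).ne'
  field_simp
  rw [sq_abs]

/-- functions on the leaf tend to the value at the end point -/
theorem base_dec {ξ : B} {f : B → ℝ} (hf : L.SmoothOn ξ f) {x₀ : X} (h₀ : L.em x₀ = ξ) :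
    ∀ ε > 0, ∃ n₀ : ℕ, ∀ n ≥ n₀,
    ∀ u ∈ ball (0 : E2) 1, |f (L.e (fr L x₀ n) u) - f (L.ep x₀)| ≤ ε := by
  intro ε hε
  have hcont : ContinuousAt (fun u => f (L.e x₀ u)) 0 :=
    ((hf x₀ h₀).contDiffAt (isOpen_ball.mem_nhds (by simp))).continuousAt
  rw [Metric.continuousAt_iff] at hcont
  obtain ⟨δ, hδ, hδ'⟩ := hcont ε hε
  have hχ := L.χ_pos
  have hlim : Tendsto (fun n : ℕ => H545.cc L 1 * Real.exp (-L.χ * (n * ts L))) atTop (𝓝 0) := by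
    have h1 : Tendsto (fun n : ℕ => L.χ * ((n : ℝ) * ts L)) atTop atTop :=
      (tendsto_natCast_atTop_atTop.atTop_mul_const (ts_pos L)).const_mul_atTop hχ
    have h2 := (Real.tendsto_exp_neg_atTop_nhds_zero.comp h1).const_mul (H545.cc L 1)
    rw [mul_zero] at h2
    refine h2.congr fun n => ?_
    simp only [Function.comp]
    congr 2
    ring
  obtain ⟨n₀, hn₀⟩ := eventually_atTop.mp (hlim.eventually (gt_mem_nhds hδ))
  refine ⟨max n₀ 1, fun n hn u hu => ?_⟩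
  have hn1 : 1 ≤ n := (le_max_right _ _).trans hn
  have ht : L.t1 ≤ n * ts L := by
    have h1 : (1 : ℝ) ≤ n := by exact_mod_cast hn1
    have := ts_pos L
    nlinarith [t1_le_ts L]
  have hu3 : u ∈ closedBall (0 : E2) 3 :=
    ball_subset_closedBall (ball_subset_ball (by norm_num) hu)
  have h1 := e_tau_step L ht x₀ hu3
  have h2 : L.τ (L.φ (n * ts L) x₀) x₀ 0 = 0 := by
    refine H545.tau_eq_of L (by simp) ?_
    rw [L.e_zero, L.e_zero, ep_φ]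
  have h3 : ‖L.τ (L.φ (n * ts L) x₀) x₀ u - L.τ (L.φ (n * ts L) x₀) x₀ 0‖ ≤
      (H545.cc L 1 * Real.exp (-L.χ * (n * ts L))) * ‖u - 0‖ := by
    refine (convex_ball (0 : E2) 3).norm_image_sub_le_of_norm_fderiv_le (𝕜 := ℝ) (fun v hv => ?_)
      (fun v hv => ?_) (by simp) (ball_subset_ball (by norm_num) hu)
    · exact ((tau_step_smooth L ht x₀).contDiffAt (isOpen_ball.mem_nhds hv)).differentiableAt
        (by simp)
    · have := H545.contract_cc L le_rfl ht x₀ hv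
      rwa [norm_iteratedFDeriv_one] at this
  rw [h2, sub_zero, sub_zero] at h3
  have hu1 : ‖u‖ < 1 := by simpa using hu
  have h4 : ‖L.τ (L.φ (n * ts L) x₀) x₀ u‖ < δ := by
    have h5 := hn₀ n ((le_max_left _ _).trans hn)
    have h6 : 0 ≤ H545.cc L 1 * Real.exp (-L.χ * (n * ts L)) := by
      have := H545.one_le_cc L 1
      positivity
    calc _ ≤ _ := h3
      _ ≤ H545.cc L 1 * Real.exp (-L.χ * (n * ts L)) * 1 := by gcongr
      _ < δ := by rw [mul_one]; exact h5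
  have h5 := hδ' (x := L.τ (L.φ (n * ts L) x₀) x₀ u) (by rwa [dist_zero_right])
  rw [h1, L.e_zero, Real.dist_eq] at h5
  exact h5.le

omit [MeasurableSpace B] [BorelSpace B] in
/-- the limits of `E^s` are rough -/
theorem base_rough {T : Tens L} {k₀ : ℕ} (hr : Rough T k₀) (x₀ : X) (φ : ℕ → ℕ)
    (Nh : E2 → (E2 →L[ℝ] E2))
    (hN : ∀ u ∈ ball (0 : E2) 1, Tendsto (fun n => T.N (fr L x₀ (φ n)) u) atTop (𝓝 (Nh u))) :
    ¬ ContDiffOn ℝ k₀ Nh (ball 0 1) := by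
  intro hc
  obtain ⟨K, hK, hKΓ⟩ := L.cocompact
  choose g hg using fun n => hKΓ (fr L x₀ (φ n))
  obtain ⟨w, hw, ψ, hψ, hlim⟩ := hK.tendsto_subseq hg
  refine hr w (ball 0 1) isOpen_ball (ball_subset_ball (by norm_num)) ⟨0, by simp⟩ ?_
  refine hc.congr fun u hu => ?_
  have hu3 : u ∈ ball (0 : E2) 3 := ball_subset_ball (by norm_num) hu
  have h1 : Tendsto (fun n => T.N (g (ψ n) • fr L x₀ (φ (ψ n))) u) atTop (𝓝 (T.N w u)) := by
    have h2 : ContinuousWithinAt (fun p : X × E2 => T.N p.1 p.2) (univ ×ˢ ball 0 3) (w, u) :=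
      T.N_cont (w, u) ⟨mem_univ _, hu3⟩
    have h3 : Tendsto (fun n => ((g (ψ n) • fr L x₀ (φ (ψ n)), u) : X × E2)) atTop
        (𝓝[univ ×ˢ ball 0 3] (w, u)) := by
      refine tendsto_nhdsWithin_iff.mpr ⟨?_, Eventually.of_forall fun n => ⟨mem_univ _, hu3⟩⟩
      exact hlim.prodMk_nhds tendsto_const_nhds
    exact h2.tendsto.comp h3
  have h4 : Tendsto (fun n => T.N (fr L x₀ (φ (ψ n))) u) atTop (𝓝 (T.N w u)) := by
    refine h1.congr fun n => ?_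
    exact T.N_smul _ _ _ hu3
  exact tendsto_nhds_unique h4 ((hN u hu).comp hψ.tendsto_atTop)

end Vale.Agent.P207.N3.H476
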