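import Vale.Agent.P207.N3.H476.LeafR
import Vale.Agent.P207.N3.H476.LeafA

/-!
# P207, line N3, package P14 (4.3): the sequence of discs over `Leaf`
-/

open Set Filter Topology Metric
open scoped ContDiff

set_option maxSynthPendingDepth 3
set_option linter.unusedSectionVars false

noncomputable section

namespace Vale.Agent.P207.N3.H476

open Vale.Agent.P207.N3
open Vale.Agent.P207.N3.H545 (ts t1_le_ts ts_pos riesz conjT conjT_apply Sx Sx_CkB conjT_CkB R_CkB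
  N_bound N_step Sx_mul tau_step_mem e_tau_step dm_step tau_step_smooth gradient_eq_riesz)

theorem smooth_bd {F : Type} [NormedAddCommGroup F] [NormedSpace ℝ F] {g : E2 → F}
    (hg : ContDiffOn ℝ ∞ g (ball 0 3)) (k : ℕ) :
    ∃ C, 0 ≤ C ∧ ∀ j ≤ k, ∀ u ∈ closedBall (0 : E2) 2, ‖iteratedFDeriv ℝ j g u‖ ≤ C := by
  have h23 : closedBall (0 : E2) 2 ⊆ ball 0 3 := closedBall_subset_ball (by norm_num)
  have h1 : ∀ j : ℕ, ∃ C, 0 ≤ C ∧ ∀ u ∈ closedBall (0 : E2) 2, ‖iteratedFDeriv ℝ j g u‖ ≤ C := by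
    intro j
    have hc : ContinuousOn (iteratedFDeriv ℝ j g) (closedBall (0 : E2) 2) := by
      intro u hu
      have h2 : ContDiffAt ℝ ∞ g u := hg.contDiffAt (isOpen_ball.mem_nhds (h23 hu))
      have h3 : ContDiffAt ℝ 0 (iteratedFDeriv ℝ j g) u :=
        h2.iteratedFDeriv_right (m := 0) (by rw [zero_add]; exact_mod_cast le_top)
      exact h3.continuousAt.continuousWithinAt
    obtain ⟨C, hC⟩ := (isCompact_closedBall (0 : E2) 2).exists_bound_of_continuousOn hc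
    exact ⟨max C 0, le_max_right _ _, fun u hu => (hC u hu).trans (le_max_left _ _)⟩
  choose C hC0 hC using h1
  refine ⟨∑ j ∈ Finset.range (k + 1), C j, Finset.sum_nonneg fun j _ => hC0 j,
    fun j hj u hu => (hC j u hu).trans ?_⟩
  exact Finset.single_le_sum (f := C) (fun i _ => hC0 i)
    (Finset.mem_range.mpr (Nat.lt_succ_of_le hj))

variable {Γ X B : Type} [Group Γ] [MetricSpace X] [ProperSpace X] [MulAction Γ X]
  [IsIsometricSMul Γ X] [TopologicalSpace B] [CompactSpace B] [T2Space B] [MulAction Γ B]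
  [ContinuousConstSMul Γ B] [MeasurableSpace B] [BorelSpace B]

/-- `E^s = V + b(f) (∇^⊥ f)²` on the leaf `U_ξ` -/
structure Hyp {L : Leaf Γ X B} (A : Area L) (T : Tens L) (ξ : B) (f : B → ℝ) (χ : ℝ) (b : ℝ → ℝ)
    (V : X → E2 → E2 →L[ℝ] E2) : Prop where
  f_smooth : L.SmoothOn ξ f
  χ_pos : 0 < χ
  χ_le : χ ≤ A.h
  b_cont : Continuous b
  V_smooth : ∀ y, L.em y = ξ → ContDiffOn ℝ ∞ (V y) (ball 0 3)
  form : ∀ y, L.em y = ξ → ∀ u ∈ ball (0 : E2) 3, ∀ v,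
    T.N y u v = V y u v + (b (f (L.e y u)) * inner ℝ (perp A y f u) v) • perp A y f u

namespace Hyp

variable {L : Leaf Γ X B} {A : Area L} {T : Tens L} {ξ : B} {f : B → ℝ} {χ : ℝ} {b : ℝ → ℝ}
  {V : X → E2 → E2 →L[ℝ] E2} (H : Hyp A T ξ f χ b V)

/-- the weight -/
def wt (A : Area L) (x₀ : X) (m : ℕ) (u : E2) : ℝ :=
  Real.exp (2 * A.h * L.lv x₀) * ((A.s (fr L x₀ m) u)⁻¹ * (A.s (fr L x₀ m) u)⁻¹)

/-- the rank one tensor -/
def GG (A : Area L) (f : B → ℝ) (x₀ : X) (m : ℕ) (u : E2) : E2 →L[ℝ] E2 :=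
  wt A x₀ m u • Bop (fderiv ℝ (fun u => f (L.e (fr L x₀ m) u)) u)
    (fderiv ℝ (fun u => f (L.e (fr L x₀ m) u)) u)

include H

theorem fsm {x₀ : X} (h₀ : L.em x₀ = ξ) (m : ℕ) :
    ContDiffOn ℝ ∞ (fun u => f (L.e (fr L x₀ m) u)) (ball 0 3) :=
  H.f_smooth _ ((em_fr L x₀ m).trans h₀)

theorem exp_pow (m : ℕ) : (Real.exp (χ * ts L) ^ (2 * A.h / χ)) ^ m =
    Real.exp (2 * A.h * (m * ts L)) := by
  rw [← Real.exp_mul, ← Real.exp_nat_mul]
  congr 1
  have := H.χ_pos.ne'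
  field_simp

/-- the form of `E^s` on the disc `m` -/
theorem form_fr {x₀ : X} (h₀ : L.em x₀ = ξ) (m : ℕ) {u : E2} (hu : u ∈ ball (0 : E2) 3) :
    T.N (fr L x₀ m) u = V (fr L x₀ m) u +
      (Real.exp (χ * ts L) ^ (2 * A.h / χ)) ^ m • (b (f (L.e (fr L x₀ m) u)) •
        GG A f x₀ m u) := by
  refine ContinuousLinearMap.ext fun v => ?_
  rw [H.form _ ((em_fr L x₀ m).trans h₀) u hu v, add_apply]
  congr 1
  rw [H.exp_pow m]
  simp only [GG, wt, smul_apply, Bop_apply, perp]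
  rw [gradient_eq_riesz, inner_smul_left, smul_smul, smul_smul, smul_smul, smul_smul]
  congr 1
  have e1 : Real.exp (A.h * L.lv (fr L x₀ m)) * Real.exp (A.h * L.lv (fr L x₀ m)) =
      Real.exp (2 * A.h * (m * ts L)) * Real.exp (2 * A.h * L.lv x₀) := by
    rw [← Real.exp_add, ← Real.exp_add, lv_fr]
    congr 1; ring
  simp only [Function.comp, conj_trivial]
  rw [div_eq_mul_inv]
  linear_combination (b (f (L.e (fr L x₀ m) u)) * (A.s (fr L x₀ m) u)⁻¹ * (A.s (fr L x₀ m) u)⁻¹ *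
    (inner ℝ (J (riesz (fderiv ℝ (fun u => f (L.e (fr L x₀ m) u)) u))) v)) * e1

theorem f_step {x₀ : X} (m : ℕ) {u : E2} (hu : u ∈ closedBall (0 : E2) 3) :
    f (L.e (fr L x₀ (m + 1)) u) = f (L.e (fr L x₀ m) (tauS L x₀ m u)) := by
  have h1 := e_tau_step L (t1_le_ts L) (fr L x₀ m) hu
  rw [tauS_eq, h1, fr_succ]

theorem tauS_mem {x₀ : X} (m : ℕ) {u : E2} (hu : u ∈ closedBall (0 : E2) 3) :
    tauS L x₀ m u ∈ ball (0 : E2) 1 := by
  rw [tauS_eq]
  exact tau_step_mem L (t1_le_ts L) _ hu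

theorem tauS_smooth (x₀ : X) (m : ℕ) : ContDiffOn ℝ ∞ (tauS L x₀ m) (ball (0 : E2) 3) := by
  rw [tauS_eq]
  exact tau_step_smooth L (t1_le_ts L) _

theorem tauS_dm (x₀ : X) (m : ℕ) : L.dm (fr L x₀ (m + 1)) (fr L x₀ m) = ball (0 : E2) 3 := by
  rw [fr_succ]; exact dm_step L (t1_le_ts L) _

theorem fd_step {x₀ : X} (h₀ : L.em x₀ = ξ) (m : ℕ) {u : E2} (hu : u ∈ ball (0 : E2) 3) :
    fderiv ℝ (fun u => f (L.e (fr L x₀ (m + 1)) u)) u =
      (fderiv ℝ (fun u => f (L.e (fr L x₀ m) u)) (tauS L x₀ m u)) ∘L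
        fderiv ℝ (tauS L x₀ m) u := by
  have h1 : (fun u => f (L.e (fr L x₀ (m + 1)) u)) =ᶠ[𝓝 u]
      (fun u => f (L.e (fr L x₀ m) u)) ∘ (tauS L x₀ m) := by
    filter_upwards [isOpen_ball.mem_nhds hu] with v hv
    exact H.f_step m (ball_subset_closedBall hv)
  rw [h1.fderiv_eq]
  have h13 : ball (0 : E2) 1 ⊆ ball 0 3 := ball_subset_ball (by norm_num)
  refine fderiv_comp u ?_ ?_
  · exact (((H.fsm h₀ m).contDiffAt (isOpen_ball.mem_nhds
      (h13 (H.tauS_mem m (ball_subset_closedBall hu)))))).differentiableAt (by simp)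
  · exact (((H.tauS_smooth x₀ m).contDiffAt (isOpen_ball.mem_nhds hu))).differentiableAt (by simp)

/-- the transformation of the rank one tensors along the steps -/
theorem GG_step {x₀ : X} (h₀ : L.em x₀ = ξ) (m : ℕ) {u : E2} (hu : u ∈ ball (0 : E2) 3) :
    conjT (Sx L (fr L x₀ m) (ts L) u) (GG A f x₀ m (tauS L x₀ m u)) =
      Real.exp (χ * ts L) ^ (2 * A.h / χ) • GG A f x₀ (m + 1) u := by
  have hem : L.em (fr L x₀ (m + 1)) = L.em (fr L x₀ m) := by rw [em_fr, em_fr]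
  have hdm : u ∈ L.dm (fr L x₀ (m + 1)) (fr L x₀ m) := by rw [H.tauS_dm]; exact hu
  set D := fderiv ℝ (tauS L x₀ m) u with hD
  have hS1 : Sx L (fr L x₀ m) (ts L) u * D = 1 := by
    have := Sx_mul (L := L) (t1_le_ts L) (fr L x₀ m) hu
    rw [hD, tauS_eq]; exact this
  have hunit : IsUnit D := by
    rw [hD]; exact H545.isUnit_fderiv_tau L hem hdm
  have hS2 : D * Sx L (fr L x₀ m) (ts L) u = 1 := by
    have h1 : Sx L (fr L x₀ m) (ts L) u = Ring.inverse D := by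
      rw [hD, tauS_eq]; rfl
    rw [h1]; exact Ring.mul_inverse_cancel _ hunit
  have hd : D.det ≠ 0 := by
    have h1 : LinearMap.det ((D * Sx L (fr L x₀ m) (ts L) u : E2 →L[ℝ] E2) : E2 →ₗ[ℝ] E2) = 1 := by
      rw [hS2]; exact LinearMap.det_id
    have h2 : ((D * Sx L (fr L x₀ m) (ts L) u : E2 →L[ℝ] E2) : E2 →ₗ[ℝ] E2) =
      (D : E2 →ₗ[ℝ] E2) * (Sx L (fr L x₀ m) (ts L) u : E2 →ₗ[ℝ] E2) := rfl
    rw [h2, map_mul] at h1
    exact left_ne_zero_of_mul_eq_one h1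
  have hs := A.s_trans (fr L x₀ (m + 1)) (fr L x₀ m) hem u hdm
  have hτu : L.τ (fr L x₀ (m + 1)) (fr L x₀ m) = tauS L x₀ m := rfl
  rw [hτu, ← hD] at hs
  have hlv : L.lv (fr L x₀ (m + 1)) - L.lv (fr L x₀ m) = ts L := by
    rw [lv_fr, lv_fr]; push_cast; ring
  rw [hlv] at hs
  have h13 : ball (0 : E2) 1 ⊆ ball 0 3 := ball_subset_ball (by norm_num)
  have hs0 : A.s (fr L x₀ m) (tauS L x₀ m u) ≠ 0 :=
    (A.s_pos _ _ (h13 (H.tauS_mem m (ball_subset_closedBall hu)))).ne'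
  unfold GG
  rw [map_smul, conj_Bop hS1 hS2, ← H.fd_step h₀ m hu, smul_smul, smul_smul]
  congr 1
  unfold wt
  rw [hs]
  have hexp := H.exp_pow 1
  rw [pow_one] at hexp
  rw [hexp]
  have h5 : |D.det| * |D.det| = D.det * D.det := abs_mul_abs_self _
  have h6 : Real.exp (2 * A.h * ((1 : ℕ) * ts L)) = Real.exp (A.h * ts L) * Real.exp (A.h * ts L) := by
    rw [← Real.exp_add]; congr 1; push_cast; ring
  rw [h6]
  have h7 : |D.det| ≠ 0 := abs_ne_zero.mpr hd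
  have h8 := (Real.exp_pos (A.h * ts L)).ne'
  field_simp
  rw [sq_abs]

theorem wt_smooth (x₀ : X) (m : ℕ) : ContDiffOn ℝ ∞ (wt A x₀ m) (ball 0 3) := by
  have h1 : ContDiffOn ℝ ∞ (fun u => (A.s (fr L x₀ m) u)⁻¹) (ball 0 3) :=
    (A.s_smooth _).inv fun u hu => (A.s_pos _ u hu).ne'
  exact contDiffOn_const.mul (h1.mul h1)

theorem GG_smooth {x₀ : X} (h₀ : L.em x₀ = ξ) (m : ℕ) :
    ContDiffOn ℝ ∞ (GG A f x₀ m) (ball 0 3) := by
  have h1 : ContDiffOn ℝ ∞ (fderiv ℝ (fun u => f (L.e (fr L x₀ m) u))) (ball (0 : E2) 3) :=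
    (H.fsm h₀ m).fderiv_of_isOpen isOpen_ball (by simp)
  have h3 : ContDiffOn ℝ ∞ (fun u => Bop (fderiv ℝ (fun u => f (L.e (fr L x₀ m) u)) u))
      (ball (0 : E2) 3) := Bop.contDiff.comp_contDiffOn h1
  have h2 := h3.clm_apply h1
  exact (H.wt_smooth x₀ m).smul h2

/-- a bound for the values on the first disc -/
theorem exists_C₀ {x₀ : X} (h₀ : L.em x₀ = ξ) : ∃ C, 1 ≤ C ∧
    ∀ u ∈ ball (0 : E2) 2, |f (L.e (fr L x₀ 0) u) - f (L.ep x₀)| ≤ C := by
  obtain ⟨C, hC0, hC⟩ := smooth_bd (H.fsm h₀ 0) 0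
  refine ⟨1 + C + |f (L.ep x₀)|, by linarith [abs_nonneg (f (L.ep x₀))], fun u hu => ?_⟩
  have h1 := hC 0 le_rfl u (ball_subset_closedBall hu)
  rw [norm_iteratedFDeriv_zero, Real.norm_eq_abs] at h1
  have h2 := abs_sub (f (L.e (fr L x₀ 0) u)) (f (L.ep x₀))
  linarith

/-- the sequence of discs -/
def core {x₀ : X} (h₀ : L.em x₀ = ξ) : Core Unit E2 (E2 →L[ℝ] E2) where
  S := ball 0 2
  S' := ball 0 1
  openS := isOpen_ball
  sub := ball_subset_ball (by norm_num)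
  τ := tauS L x₀
  maps := fun m u hu => H.tauS_mem m (ball_subset_closedBall (ball_subset_ball (by norm_num) hu))
  A := fun m u => conjT (Sx L (fr L x₀ m) (ts L) u)
  N := fun m => T.N (fr L x₀ m)
  R := fun m u => -conjT (Sx L (fr L x₀ m) (ts L) u)
    (T.R (L.φ (ts L) (fr L x₀ m)) (fr L x₀ m) u)
  rel := fun m u hu => by
    rw [fr_succ, tauS_eq]
    exact N_step T (t1_le_ts L) _ (ball_subset_ball (by norm_num) hu)
  R_smooth := fun m k => by
    have hts : ts L ∈ Icc L.t1 (ts L) := ⟨t1_le_ts L, le_rfl⟩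
    obtain ⟨c, hc, h1⟩ := conjT_CkB L k (ts L)
    obtain ⟨c', hc', h2⟩ := R_CkB T k (ts L)
    exact (H545.CkB_neg (H545.CkB_bilin (ContinuousLinearMap.id ℝ
      ((E2 →L[ℝ] E2) →L[ℝ] (E2 →L[ℝ] E2))) (h1 _ _ hts) (h2 _ _ hts) hc hc')).1
  R_bd := fun k => by
    have hts : ts L ∈ Icc L.t1 (ts L) := ⟨t1_le_ts L, le_rfl⟩
    obtain ⟨c, hc, h1⟩ := conjT_CkB L k (ts L)
    obtain ⟨c', hc', h2⟩ := R_CkB T k (ts L)
    exact ⟨_, fun m => (H545.CkB_neg (H545.CkB_bilin (ContinuousLinearMap.id ℝ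
      ((E2 →L[ℝ] E2) →L[ℝ] (E2 →L[ℝ] E2))) (h1 (fr L x₀ m) _ hts) (h2 (fr L x₀ m) _ hts)
        hc hc')).2⟩
  N_bd := by
    obtain ⟨c, -, h⟩ := N_bound T
    exact ⟨c, fun m u hu => h _ u (ball_subset_closedBall hu)⟩
  p := 2 * A.h / χ
  p_pos := div_pos (mul_pos two_pos A.h_pos) H.χ_pos
  a := Real.exp (χ * ts L)
  a_lt := by
    rw [Real.one_lt_exp_iff]; exact mul_pos H.χ_pos (ts_pos L)
  f := fun m u => f (L.e (fr L x₀ m) u)
  s₀ := f (L.ep x₀)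
  f_comp := fun m u hu => H.f_step m (ball_subset_closedBall (ball_subset_ball (by norm_num) hu))
  f_smooth := fun m k => ((H.fsm h₀ m).mono (ball_subset_ball (by norm_num))).of_le
    (by exact_mod_cast le_top)
  C₀ := Classical.choose (H.exists_C₀ h₀)
  C₀_ge := (Classical.choose_spec (H.exists_C₀ h₀)).1
  f_bd := (Classical.choose_spec (H.exists_C₀ h₀)).2
  b := fun _ => b
  b_bd := fun _ => by
    obtain ⟨C, hC⟩ := (isCompact_closedBall (f (L.ep x₀))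
      (Classical.choose (H.exists_C₀ h₀))).exists_bound_of_continuousOn H.b_cont.continuousOn
    exact ⟨C, fun s hs => hC s (by rw [mem_closedBall, Real.dist_eq]; exact hs)⟩
  q := fun _ => (2 * A.h - 2 * χ) / χ
  q_nonneg := fun _ => div_nonneg (by linarith [H.χ_le]) H.χ_pos.le
  G := fun _ m => GG A f x₀ m
  G_smooth := fun _ m k => ((H.GG_smooth h₀ m).mono (ball_subset_ball (by norm_num))).of_le
    (by exact_mod_cast le_top)
  G_rel := fun _ m u hu => H.GG_step h₀ m (ball_subset_ball (by norm_num) hu)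
  V_smooth := fun m k => by
    have h1 : ContDiffOn ℝ k (V (fr L x₀ m)) (ball 0 2) :=
      ((H.V_smooth _ ((em_fr L x₀ m).trans h₀)).mono (ball_subset_ball (by norm_num))).of_le
        (by exact_mod_cast le_top)
    refine h1.congr fun u hu => ?_
    rw [H.form_fr h₀ m (ball_subset_ball (by norm_num) hu), Finset.univ_unique,
      Finset.sum_singleton, add_sub_cancel_right]
  V_bd := fun k => by
    obtain ⟨C, -, hC⟩ := smooth_bd (H.V_smooth _ ((em_fr L x₀ 0).trans h₀)) k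
    refine ⟨C, fun j hj u hu => ?_⟩
    have h1 : (fun u => T.N (fr L x₀ 0) u - ∑ i : Unit, b (f (L.e (fr L x₀ 0) u)) •
        GG A f x₀ 0 u) =ᶠ[𝓝 u] V (fr L x₀ 0) := by
      filter_upwards [isOpen_ball.mem_nhds hu] with v hv
      rw [H.form_fr h₀ 0 (ball_subset_ball (by norm_num) hv), Finset.univ_unique,
        Finset.sum_singleton, pow_zero, one_smul, add_sub_cancel_right]
    rw [(h1.iteratedFDeriv ℝ j).self_of_nhds]
    exact hC j hj u (ball_subset_closedBall hu)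
  G_bd := fun _ l k => by
    have h1 : ContDiffOn ℝ ∞ (fun u => (f (L.e (fr L x₀ 0) u) - f (L.ep x₀)) ^ l •
        GG A f x₀ 0 u) (ball 0 3) :=
      (((H.fsm h₀ 0).sub contDiffOn_const).pow l).smul (H.GG_smooth h₀ 0)
    obtain ⟨C, -, hC⟩ := smooth_bd h1 k
    exact ⟨C, fun j hj u hu => hC j hj u (ball_subset_closedBall hu)⟩

end Hyp

end Vale.Agent.P207.N3.H476
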