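import Vale.Agent.P207.N3.H476.Level
import Vale.Agent.P207.N3.H545.TensR
import Vale.Agent.P207.N3.Top.Defs

/-!
# P207, line N3, package P14 (4.3): preparations over `Leaf`

Lemma R in the form `LemR` for the discs `fr n = φ_{n ts} x₀`; bounds of the area density.
-/

open Set Filter Topology Metric
open scoped ContDiff

set_option maxSynthPendingDepth 3
set_option linter.unusedSectionVars false

noncomputable section

namespace Vale.Agent.P207.N3.H476

open Vale.Agent.P207.N3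
open Vale.Agent.P207.N3.H545 (ts t1_le_ts ts_pos stp lemma_R_leaf tau_step_mem dm_step
  tau_step_smooth e_tau_step)

variable {Γ X B : Type} [Group Γ] [MetricSpace X] [ProperSpace X] [MulAction Γ X]
  [IsIsometricSMul Γ X] [TopologicalSpace B] [CompactSpace B] [T2Space B] [MulAction Γ B]
  [ContinuousConstSMul Γ B]

section LemR

variable (L : Leaf Γ X B)

/-- the frames of the discs -/
def fr (x₀ : X) (n : ℕ) : X := L.φ ((n : ℝ) * ts L) x₀

theorem fr_zero (x₀ : X) : fr L x₀ 0 = x₀ := by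
  unfold fr; rw [Nat.cast_zero, zero_mul, L.φ_zero]

theorem fr_succ (x₀ : X) (n : ℕ) : fr L x₀ (n + 1) = L.φ (ts L) (fr L x₀ n) := by
  unfold fr; rw [← L.φ_add]; congr 1; push_cast; ring

theorem stp_eq_fr (x₀ : X) {n s : ℕ} (h : s ≤ n) : stp L x₀ n s = fr L x₀ (n - s) := by
  unfold stp fr; rw [Nat.cast_sub h]

theorem em_fr (x₀ : X) (n : ℕ) : L.em (fr L x₀ n) = L.em x₀ := L.em_φ _ _

theorem ep_φ (t : ℝ) (x : X) : L.ep (L.φ t x) = L.ep x := by
  rw [L.ep_flip, L.flip_φ, L.em_φ, ← L.ep_flip]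

theorem ep_fr (x₀ : X) (n : ℕ) : L.ep (fr L x₀ n) = L.ep x₀ := ep_φ L _ _

theorem lv_fr (x₀ : X) (n : ℕ) : L.lv (fr L x₀ n) = L.lv x₀ + n * ts L := L.lv_φ _ _

/-- the steps -/
def tauS (x₀ : X) (m : ℕ) : E2 → E2 := L.τ (fr L x₀ (m + 1)) (fr L x₀ m)

theorem tauS_eq (x₀ : X) (m : ℕ) : tauS L x₀ m = L.τ (L.φ (ts L) (fr L x₀ m)) (fr L x₀ m) := by
  unfold tauS; rw [fr_succ]

/-- Lemma R in the form `LemR`. -/
theorem lemR_leaf (a Λ : ℝ) : ∃ k₀ : ℕ, ∀ k ≥ k₀, ∀ (c : ℝ) (F : Type) [NormedAddCommGroup F]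
    [NormedSpace ℝ F] (x₀ : X) (A : ℕ → E2 → (F →L[ℝ] F)),
    (∀ m, ∀ u ∈ ball (0 : E2) 2, ‖A m u‖ ≤ a) → (∀ m, H545.CkB k 2 c (A m)) →
    LemR (ball (0 : E2) 2) (ball (0 : E2) 1) k (tauS L x₀) A (Real.exp Λ) := by
  obtain ⟨k₀, hk₀⟩ := lemma_R_leaf L a Λ
  refine ⟨k₀, fun k hk c F _ _ x₀ A hAa hA => ?_⟩
  obtain ⟨C, hC1, hC⟩ := hk₀ k hk c
  intro M
  refine ⟨C * (|M| * (1 + Real.exp Λ)), fun n Z Err hZ hErr hrel hZ0 hE hin j hj u hu => ?_⟩
  have hΛ := Real.exp_pos Λ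
  have hM0 := abs_nonneg M
  have hexp : ∀ s : ℕ, Real.exp Λ ^ s = Real.exp (Λ * s) := by
    intro s; rw [← Real.exp_nat_mul]; congr 1; ring
  have hMM : ∀ s : ℕ, M * Real.exp Λ ^ s ≤ |M| * (1 + Real.exp Λ) * Real.exp (Λ * s) := by
    intro s
    rw [hexp]
    refine mul_le_mul_of_nonneg_right ((le_abs_self M).trans ?_) (Real.exp_pos _).le
    nlinarith
  have key := hC F x₀ n (|M| * (1 + Real.exp Λ)) (fun s => Z (n - s)) (fun s => Err (n - s - 1))
    (fun s => A (n - s - 1)) (by positivity)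
    (fun s _ => hZ (n - s) (Nat.sub_le _ _))
    (fun s _ u hu => hAa _ u hu) (fun s _ => hA _)
    (fun s hs u hu => ?_) (fun s hs u hu => ?_) (fun s hs => ⟨hErr _ (by omega), ?_⟩)
    ⟨?_, ?_⟩ 0 (Nat.zero_le _)
  · have h1 := key.2 j hj u (ball_subset_ball (by norm_num) hu)
    simpa using h1
  · have h1 := hrel (n - s - 1) (by omega) u hu
    have h2 : n - s - 1 + 1 = n - s := by omega
    rw [h2] at h1
    rw [h1]
    have h3 : tauS L x₀ (n - s - 1) = L.τ (stp L x₀ n s) (stp L x₀ n (s + 1)) := by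
      rw [stp_eq_fr L x₀ hs.le, stp_eq_fr L x₀ (show s + 1 ≤ n by omega)]
      unfold tauS
      rw [h2]
      rfl
    rw [h3]
    rfl
  · refine (hZ0 (n - s) (Nat.sub_le _ _) u hu).trans ?_
    have h1 : n - (n - s) = s := by omega
    rw [h1]
    exact hMM s
  · intro i hi u hu
    refine (hE (n - s - 1) (by omega) i hi u hu).trans ?_
    have h1 : n - (n - s - 1) = s + 1 := by omega
    rw [h1, pow_succ, hexp]
    have h4 := Real.exp_pos (Λ * s)
    calc M * (Real.exp (Λ * s) * Real.exp Λ) ≤ |M| * (Real.exp (Λ * s) * Real.exp Λ) :=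
          mul_le_mul_of_nonneg_right (le_abs_self M) (by positivity)
      _ = |M| * Real.exp Λ * Real.exp (Λ * s) := by ring
      _ ≤ _ := by
          refine mul_le_mul_of_nonneg_right ?_ h4.le
          nlinarith
  · simpa using hZ 0 (Nat.zero_le _)
  · intro i hi u hu
    simp only [Nat.sub_self]
    exact (hin i hi u hu).trans (hMM n)

end LemR

end Vale.Agent.P207.N3.H476
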