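import Vale.Agent.P207.N3.H476.Core
import Vale.Agent.P207.N3.H476.Contra
import Vale.Agent.P207.N3.H828.CK

/-!
# P207, line N3, package P14 (4.3): the level lemma on a sequence of discs
-/

open Set Filter Topology Finset

set_option maxSynthPendingDepth 3
set_option linter.unusedSectionVars false

noncomputable section

namespace Vale.Agent.P207.N3.H476

open Vale.Agent.P207.N3.H828 (CkB ck_subseq)

variable {ι E T : Type} [Fintype ι] [NormedAddCommGroup E] [NormedSpace ℝ E]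
  [NormedAddCommGroup T] [NormedSpace ℝ T]

namespace Core

/-- the data for the estimate of the functions -/
structure FHyp (D : Core ι E T) (k : ℕ) : Prop where
  τ_bd : ∃ K, ∀ m, ∀ u ∈ D.S, DifferentiableAt ℝ (D.τ m) u ∧ ‖fderiv ℝ (D.τ m) u‖ ≤ K
  f0_bd : ∃ C, ∀ j ≤ k, ∀ u ∈ D.S, ‖iteratedFDeriv ℝ j (D.f 0) u‖ ≤ C
  lemF : LemR D.S D.S' k D.τ (fun _ _ => ContinuousLinearMap.id ℝ ℝ) D.a
  one_le : 1 ≤ k

variable {D : Core ι E T}

theorem Adm.inv_le {K : ℝ} {n : ℕ} {ρ : ℝ} (h : D.Adm K n ρ) : ρ⁻¹ ≤ D.a ^ n := by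
  rw [inv_le_iff_one_le_mul₀ h.pos]
  exact h.ge

theorem Adm.mono {K : ℝ} {n : ℕ} {ρ : ℝ} (h : D.Adm K n ρ) {m : ℕ} (hm : m ≤ n) (i : ℕ)
    (hi : i ≤ m) : ∀ u ∈ D.S, |(D.f i u - D.s₀) / (ρ * D.a ^ (n - m))| ≤ K * D.a ^ (m - i) := by
  intro u hu
  have ha := D.a_pos
  have h1 : 0 < ρ * D.a ^ (n - m) := mul_pos h.pos (pow_pos ha _)
  rw [abs_div, abs_of_pos h1, div_le_iff₀ h1]
  refine (h.bd i (hi.trans hm) u hu).trans (le_of_eq ?_)
  have : n - i = (m - i) + (n - m) := by omega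
  rw [this, pow_add]
  ring

/-- the derivatives of the functions, at all times -/
theorem F_est {k : ℕ} (hF : D.FHyp k) {K : ℝ} :
    ∃ C, 0 ≤ C ∧ ∀ n ρ, D.Adm K n ρ → ∀ m ≤ n, ∀ j ≤ k, ∀ u ∈ D.S',
      ‖iteratedFDeriv ℝ j (fun u => (D.f m u - D.s₀) / (ρ * D.a ^ (n - m))) u‖ ≤ C := by
  obtain ⟨Cf, hCf⟩ := hF.f0_bd
  have ha := D.a_pos
  obtain ⟨C, hC⟩ := hF.lemF (|K| + |Cf| + D.C₀)
  refine ⟨|C|, abs_nonneg _, fun n ρ hA m hm j hj u hu => ?_⟩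
  have hc : 0 < ρ * D.a ^ (n - m) := mul_pos hA.pos (pow_pos ha _)
  have hC0 := D.C₀_ge
  refine (hC m (fun i u => (D.f i u - D.s₀) / (ρ * D.a ^ (n - m))) (fun _ _ => 0)
    (fun i _ => ?_) (fun i _ => contDiffOn_const) (fun i _ u hu => ?_) (fun i hi u hu => ?_)
    (fun i _ j _ u _ => ?_) (fun j hj u hu => ?_) j hj u hu).trans (le_abs_self C)
  · exact ((D.f_smooth i k).sub contDiffOn_const).div_const _
  · simp only [ContinuousLinearMap.coe_id', id_eq, add_zero]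
    rw [D.f_comp i u hu]
  · rw [Real.norm_eq_abs]
    refine (hA.mono hm i hi u hu).trans ?_
    gcongr
    have := le_abs_self K
    have := abs_nonneg Cf
    linarith
  · have h0 : iteratedFDeriv ℝ j (fun _ : E => (0 : ℝ)) u = 0 := by
      rw [iteratedFDeriv_fun_zero]
      rfl
    rw [h0, norm_zero]
    positivity
  · -- the initial function
    have hρ : (ρ * D.a ^ (n - m))⁻¹ ≤ D.a ^ m := by
      rw [inv_le_iff_one_le_mul₀ hc]
      have : D.a ^ m * (ρ * D.a ^ (n - m)) = D.a ^ n * ρ := by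
        have : n = m + (n - m) := by omega
        conv_rhs => rw [this, pow_add]
        ring
      rw [this]
      exact hA.ge
    have hsm : ContDiffAt ℝ j (D.f 0) u := (D.f_smooth 0 j).contDiffAt (D.openS.mem_nhds hu)
    have e1 : (fun u => (D.f 0 u - D.s₀) / (ρ * D.a ^ (n - m))) =
        (ρ * D.a ^ (n - m))⁻¹ • (fun u => D.f 0 u - D.s₀) := by
      funext u
      simp only [Pi.smul_apply, smul_eq_mul]
      rw [div_eq_inv_mul]
    rw [e1]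
    have h1 : ‖iteratedFDeriv ℝ j (fun u => D.f 0 u - D.s₀) u‖ ≤ |Cf| + D.C₀ := by
      rcases Nat.eq_zero_or_pos j with rfl | hj0
      · rw [norm_iteratedFDeriv_zero, Real.norm_eq_abs]
        have := D.f_bd u hu
        have := abs_nonneg Cf
        linarith
      · have h2 : iteratedFDeriv ℝ j (fun u => D.f 0 u - D.s₀) u = iteratedFDeriv ℝ j (D.f 0) u := by
          have h3 := iteratedFDeriv_sub_apply (𝕜 := ℝ) (i := j) hsm
            (contDiffAt_const (c := D.s₀))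
          have h4 : (D.f 0 - fun _ => D.s₀) = fun u => D.f 0 u - D.s₀ := rfl
          rw [h4] at h3
          rw [h3, iteratedFDeriv_const_of_ne hj0.ne']
          simp
        rw [h2]
        refine (hCf j hj u hu).trans ?_
        have := le_abs_self Cf
        linarith
    refine (iter_smul_le (hsm.sub contDiffAt_const) _ h1).trans ?_
    rw [abs_of_pos (inv_pos.2 hc)]
    have h5 : 0 ≤ |Cf| + D.C₀ := by positivity
    calc (ρ * D.a ^ (n - m))⁻¹ * (|Cf| + D.C₀) ≤ D.a ^ m * (|Cf| + D.C₀) := by gcongr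
      _ ≤ (|K| + |Cf| + D.C₀) * D.a ^ m := by
          rw [mul_comm]
          gcongr
          linarith [abs_nonneg K]

theorem fderiv_div (m : ℕ) (c : ℝ) {u : E} (hu : u ∈ D.S) :
    fderiv ℝ (fun u => (D.f m u - D.s₀) / c) u = c⁻¹ • fderiv ℝ (D.f m) u := by
  have h1 : DifferentiableAt ℝ (D.f m) u :=
    ((D.f_smooth m 1).contDiffAt (D.openS.mem_nhds hu)).differentiableAt (by simp)
  have e1 : (fun u => (D.f m u - D.s₀) / c) = fun u => c⁻¹ • (D.f m u - D.s₀) := by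
    funext u
    rw [smul_eq_mul, div_eq_inv_mul]
  rw [e1, fderiv_fun_const_smul (h1.sub_const _), fderiv_sub_const]

/-- the first derivative on the large discs -/
theorem df_est {k : ℕ} (hF : D.FHyp k) {K : ℝ} :
    ∃ C, 0 ≤ C ∧ ∀ n ρ, D.Adm K n ρ → ∀ m ≤ n, ∀ u ∈ D.S,
      ‖fderiv ℝ (D.f m) u‖ ≤ C * ρ * D.a ^ (n - m) := by
  obtain ⟨C, hC0, hC⟩ := F_est hF (K := K)
  obtain ⟨Kt, hKt⟩ := hF.τ_bd
  obtain ⟨Cf, hCf⟩ := hF.f0_bd
  have ha := D.a_pos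
  refine ⟨C * |Kt| * D.a + |Cf|, by positivity, fun n ρ hA m hm u hu => ?_⟩
  have hρ := hA.pos
  rcases Nat.eq_zero_or_pos m with rfl | hm0
  · have h1 := hCf 1 hF.one_le u hu
    rw [norm_iteratedFDeriv_one] at h1
    have h2 := hA.ge
    calc ‖fderiv ℝ (D.f 0) u‖ ≤ |Cf| := h1.trans (le_abs_self _)
      _ ≤ |Cf| * (D.a ^ n * ρ) := le_mul_of_one_le_right (abs_nonneg _) h2
      _ ≤ (C * |Kt| * D.a + |Cf|) * (D.a ^ n * ρ) := by
          gcongr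
          have : 0 ≤ C * |Kt| * D.a := by positivity
          linarith
      _ = _ := by rw [Nat.sub_zero]; ring
  · obtain ⟨i, rfl⟩ : ∃ i, m = i + 1 := ⟨m - 1, by omega⟩
    obtain ⟨hd, hk⟩ := hKt i u hu
    have hτu := D.maps i u hu
    have h1 : DifferentiableAt ℝ (D.f i) (D.τ i u) :=
      ((D.f_smooth i 1).contDiffAt (D.openS.mem_nhds (D.sub hτu))).differentiableAt (by simp)
    have e1 : fderiv ℝ (D.f (i + 1)) u = (fderiv ℝ (D.f i) (D.τ i u)).comp (fderiv ℝ (D.τ i) u) := by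
      have h2 : D.f (i + 1) =ᶠ[𝓝 u] (D.f i) ∘ (D.τ i) := by
        filter_upwards [D.openS.mem_nhds hu] with v hv
        exact D.f_comp i v hv
      rw [h2.fderiv_eq, fderiv_comp u h1 hd]
    have h3 := hC n ρ hA i (by omega) 1 hF.one_le _ hτu
    rw [norm_iteratedFDeriv_one, fderiv_div i _ (D.sub hτu), norm_smul, norm_inv,
      Real.norm_eq_abs, abs_of_pos (mul_pos hρ (pow_pos ha _)),
      inv_mul_le_iff₀ (mul_pos hρ (pow_pos ha _))] at h3
    rw [e1]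
    refine (ContinuousLinearMap.opNorm_comp_le _ _).trans ?_
    have h4 : n - i = (n - (i + 1)) + 1 := by omega
    rw [h4, pow_succ] at h3
    calc ‖fderiv ℝ (D.f i) (D.τ i u)‖ * ‖fderiv ℝ (D.τ i) u‖
        ≤ (ρ * (D.a ^ (n - (i + 1)) * D.a) * C) * |Kt| := by
          gcongr
          exact hk.trans (le_abs_self _)
      _ = (C * |Kt| * D.a) * ρ * D.a ^ (n - (i + 1)) := by ring
      _ ≤ _ := by
          gcongr
          linarith [abs_nonneg Cf]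

/-- the oscillation on the small discs -/
def osc (D : Core ι E T) (n : ℕ) : ℝ := sSup ((fun u => |D.f n u - D.s₀|) '' D.S')

theorem osc_bddAbove (n : ℕ) : BddAbove ((fun u => |D.f n u - D.s₀|) '' D.S') :=
  ⟨D.C₀, by
    rintro _ ⟨u, hu, rfl⟩
    exact D.f_bd' n u (D.sub hu)⟩

theorem le_osc (n : ℕ) {u : E} (hu : u ∈ D.S') : |D.f n u - D.s₀| ≤ D.osc n :=
  le_csSup (osc_bddAbove n) ⟨u, hu, rfl⟩

theorem osc_le (n : ℕ) (hne : D.S'.Nonempty) {c : ℝ} (h : ∀ u ∈ D.S', |D.f n u - D.s₀| ≤ c) :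
    D.osc n ≤ c := by
  refine csSup_le (hne.image _) ?_
  rintro _ ⟨u, hu, rfl⟩
  exact h u hu

theorem le_osc_succ (n : ℕ) {u : E} (hu : u ∈ D.S) : |D.f (n + 1) u - D.s₀| ≤ D.osc n := by
  rw [D.f_comp n u hu]
  exact le_osc n (D.maps n u hu)

theorem osc_nonneg (n : ℕ) (hne : D.S'.Nonempty) : 0 ≤ D.osc n := by
  obtain ⟨u, hu⟩ := hne
  exact (abs_nonneg _).trans (le_osc n hu)

theorem osc_anti (hne : D.S'.Nonempty) : Antitone D.osc :=
  antitone_nat_of_succ_le fun n => osc_le _ hne fun _ hu => le_osc_succ n (D.sub hu)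

end Core

/-- The data of the level lemma: `i₀` is the index of the main term. -/
structure Lvl (D : Core ι E T) (i₀ : ι) (k₀ k N L₁ L : ℕ) (P : ι → ℝ → Fin N → ℝ) where
  w : ℕ → E → ℝ
  B : (E →L[ℝ] ℝ) →L[ℝ] (E →L[ℝ] ℝ) →L[ℝ] T
  hB : ∀ l, l ≠ 0 → B l l ≠ 0
  G_eq : ∀ m, ∀ u ∈ D.S, D.G i₀ m u = w m u • B (fderiv ℝ (D.f m) u) (fderiv ℝ (D.f m) u)
  Mw : ℕ → ℝ
  w_bd : ∀ m, CkB (k + 1) Mw D.S (w m)
  cw : ℝ
  cw_pos : 0 < cw
  w_ge : ∀ m, ∀ u ∈ D.S, cw ≤ w m u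
  pq : D.p - D.q i₀ = 2
  fhyp : D.FHyp (k + 2)
  k_le : k₀ ≤ k
  L₁_ge : 2 ≤ L₁
  hL : ∀ i, D.p + D.q i + N + L₁ + 1 ≤ L
  lemT : LemR D.S D.S' (k + 1) D.τ D.A (D.a ^ L)
  bddP : ∀ i, BddP (D.b i) D.s₀ (D.q i) N (P i)
  good : GoodP (D.b i₀) D.s₀ (D.q i₀) N k₀ (P i₀)
  b_cont : Continuous (D.b i₀)
  /-- the other terms -/
  G_other : ∀ i, i ≠ i₀ → ∀ K, ∃ C, 0 ≤ C ∧ ∀ n ρ, D.Adm K n ρ → ∀ m ≤ n, ∀ u ∈ D.S,
    ‖D.G i m u‖ ≤ C * ρ ^ (D.p - D.q i) * (D.a ^ L₁) ^ (n - m)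
  small : ∀ i, i ≠ i₀ → ∀ (K : ℝ) (n : ℕ → ℕ) (ρ : ℕ → ℝ), (∀ j, D.Adm K (n j) (ρ j)) →
    Tendsto ρ atTop (𝓝 0) → (∀ j, ∀ u ∈ D.S', |(D.f (n j) u - D.s₀) / ρ j| ≤ 1) →
    ∀ u ∈ D.S', Tendsto (fun j => ρ j ^ (-(D.p - D.q i)) • D.G i (n j) u) atTop (𝓝 0)
  open' : IsOpen D.S'
  conv' : Convex ℝ D.S'
  bdd' : Bornology.IsBounded D.S'
  zero_mem : (0 : E) ∈ D.S'
  f_zero : ∀ m, D.f m 0 = D.s₀
  dec : ∀ ε > 0, ∃ n₀, ∀ n ≥ n₀, ∀ u ∈ D.S', |D.f n u - D.s₀| ≤ ε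
  rough : ∀ φ : ℕ → ℕ, Tendsto φ atTop atTop → ∀ Nh : E → T,
    (∀ u ∈ D.S', Tendsto (fun n => D.N (φ n) u) atTop (𝓝 (Nh u))) → ¬ ContDiffOn ℝ k₀ Nh D.S'

namespace Lvl

variable [FiniteDimensional ℝ E] [FiniteDimensional ℝ T]
  {D : Core ι E T} {i₀ : ι} {k₀ k N L₁ L : ℕ} {P : ι → ℝ → Fin N → ℝ}
  (Y : Lvl D i₀ k₀ k N L₁ L P)

include Y

theorem ne' : D.S'.Nonempty := ⟨0, Y.zero_mem⟩

theorem G_est {K : ℝ} : ∃ C, ∀ n ρ, D.Adm K n ρ → ∀ m ≤ n, ∀ u ∈ D.S,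
    ‖D.G i₀ m u‖ ≤ C * ρ ^ (D.p - D.q i₀) * (D.a ^ L₁) ^ (n - m) := by
  obtain ⟨C, hC0, hC⟩ := Core.df_est Y.fhyp (K := K)
  refine ⟨|Y.Mw 0| * ‖Y.B‖ * C ^ 2, fun n ρ hA m hm u hu => ?_⟩
  have h1 := hC n ρ hA m hm u hu
  have h2 : |Y.w m u| ≤ |Y.Mw 0| := by
    have := (Y.w_bd m).2 0 (by omega) u hu
    rw [norm_iteratedFDeriv_zero, Real.norm_eq_abs] at this
    exact this.trans (le_abs_self _)
  have h3 : ‖Y.B (fderiv ℝ (D.f m) u) (fderiv ℝ (D.f m) u)‖ ≤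
      ‖Y.B‖ * ‖fderiv ℝ (D.f m) u‖ * ‖fderiv ℝ (D.f m) u‖ := Y.B.le_opNorm₂ _ _
  rw [Y.G_eq m u hu, norm_smul, Real.norm_eq_abs, Y.pq, Real.rpow_two]
  have hρ := hA.pos
  have ha := D.a_pos
  have ha1 := D.a_lt.le
  calc |Y.w m u| * ‖Y.B (fderiv ℝ (D.f m) u) (fderiv ℝ (D.f m) u)‖
      ≤ |Y.Mw 0| * (‖Y.B‖ * (C * ρ * D.a ^ (n - m)) * (C * ρ * D.a ^ (n - m))) := by
        refine mul_le_mul h2 (h3.trans ?_) (norm_nonneg _) (abs_nonneg _)
        gcongr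
    _ = |Y.Mw 0| * ‖Y.B‖ * C ^ 2 * ρ ^ 2 * (D.a ^ 2) ^ (n - m) := by
        rw [← pow_mul, mul_comm 2, pow_mul]; ring
    _ ≤ _ := by
        gcongr
        exact Y.L₁_ge

/-- the `C^(k+1)` bound of the smooth part -/
theorem Z_est {K : ℝ} (hK : 1 ≤ K) : ∃ C, ∀ n ρ, D.Adm K n ρ → ∀ j ≤ k + 1, ∀ u ∈ D.S',
    ‖iteratedFDeriv ℝ j (D.Z P n ρ n) u‖ ≤ C := by
  refine Core.main_est hK Y.bddP L₁ (fun i => ?_) Y.hL (k + 1) Y.lemT
  by_cases hi : i = i₀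
  · rw [hi]; exact Y.G_est
  · obtain ⟨C, -, hC⟩ := Y.G_other i hi K
    exact ⟨C, hC⟩

/-- the other singular terms -/
def rest (_ : Lvl D i₀ k₀ k N L₁ L P) (n : ℕ) (ρ : ℝ) (u : E) : T := by
  classical
  exact ∑ i ∈ univ.erase i₀, (ρ ^ (-(D.p - D.q i)) *
    cor (D.b i) D.s₀ (D.q i) (P i) ρ ((D.f n u - D.s₀) / ρ)) • D.G i n u

/-- the singular part in terms of the rescaled function -/
theorem Z_form {n : ℕ} {ρ : ℝ} (hρ : 0 < ρ) {u : E} (hu : u ∈ D.S') :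
    ((D.a ^ n * ρ) ^ D.p)⁻¹ • D.N n u = D.Z P n ρ n u + Y.rest n ρ u +
      cor (D.b i₀) D.s₀ (D.q i₀) (P i₀) ρ ((D.f n u - D.s₀) / ρ) •
        Y.w n u • Y.B (fderiv ℝ (fun u => (D.f n u - D.s₀) / ρ) u)
          (fderiv ℝ (fun u => (D.f n u - D.s₀) / ρ) u) := by
  classical
  unfold Core.Z rest
  have h1 : (D.a ^ D.p) ^ n ≠ 0 := by have := D.a_pos; positivity
  rw [div_self h1, one_smul, ← Finset.add_sum_erase univ _ (Finset.mem_univ i₀),
    Core.fderiv_div n ρ (D.sub hu)]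
  rw [Y.G_eq n u (D.sub hu), Y.pq]
  have e4 : ρ ^ (-(2 : ℝ)) = ρ⁻¹ * ρ⁻¹ := by
    rw [Real.rpow_neg hρ.le, Real.rpow_two, sq, mul_inv]
  rw [e4]
  simp only [map_smul, smul_apply, smul_smul]
  have e5 : ρ⁻¹ * ρ⁻¹ * cor (D.b i₀) D.s₀ (D.q i₀) (P i₀) ρ ((D.f n u - D.s₀) / ρ) * Y.w n u =
      cor (D.b i₀) D.s₀ (D.q i₀) (P i₀) ρ ((D.f n u - D.s₀) / ρ) *
        (Y.w n u * (ρ⁻¹ * ρ⁻¹)) := by ring
  rw [e5]
  abel

theorem rest_tendsto {K : ℝ} {n : ℕ → ℕ} {ρ : ℕ → ℝ} (hA : ∀ j, D.Adm K (n j) (ρ j))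
    (h1 : ∀ j, ∀ u ∈ D.S', |(D.f (n j) u - D.s₀) / ρ j| ≤ 1) (hρ : Tendsto ρ atTop (𝓝 0))
    {u : E} (hu : u ∈ D.S') : Tendsto (fun j => Y.rest (n j) (ρ j) u) atTop (𝓝 0) := by
  classical
  unfold rest
  have h0 : (0 : T) = ∑ i ∈ univ.erase i₀, (0 : T) := by simp
  rw [h0]
  refine tendsto_finsetSum _ fun i hi => ?_
  have hi' : i ≠ i₀ := (Finset.mem_erase.1 hi).1
  obtain ⟨B, hB⟩ := Y.bddP i
  have h2 := Y.small i hi' K n ρ hA hρ h1 u hu
  have h3 := h2.norm.const_mul B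
  rw [norm_zero, mul_zero] at h3
  refine squeeze_zero_norm (fun j => ?_) h3
  have h4 := hB (ρ j) ⟨(hA j).pos, (hA j).le_one⟩ _ (abs_le.1 (h1 j u hu))
  rw [mul_comm (ρ j ^ _), mul_smul, norm_smul, Real.norm_eq_abs]
  exact mul_le_mul_of_nonneg_right h4 (norm_nonneg _)

theorem cor_cont (ρ : ℝ) : Continuous (cor (D.b i₀) D.s₀ (D.q i₀) (P i₀) ρ) := by
  unfold cor raw
  have := Y.b_cont
  have h2 := continuous_ev (P i₀ ρ)
  fun_prop

/-- **Limits**: along admissible scales the limits satisfy the limit equation. -/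
theorem limit {K : ℝ} (hK : 1 ≤ K) {n : ℕ → ℕ} {ρ : ℕ → ℝ} (hA : ∀ j, D.Adm K (n j) (ρ j))
    (h1 : ∀ j, ∀ u ∈ D.S', |(D.f (n j) u - D.s₀) / ρ j| ≤ 1) (hρ : Tendsto ρ atTop (𝓝 0)) :
    ∃ φ : ℕ → ℕ, StrictMono φ ∧ ∃ (V : E → T) (F w : E → ℝ) (b' : ℝ → ℝ),
      ContDiffOn ℝ k V D.S' ∧ ContDiffOn ℝ (k + 1 : ℕ) F D.S' ∧ ContDiffOn ℝ k w D.S' ∧
      (∀ u ∈ D.S', Y.cw ≤ w u) ∧ (∀ s ∈ Ioo (-1 : ℝ) 1, ¬ ContDiffAt ℝ k₀ b' s) ∧
      (TendstoUniformlyOn (fun i u => (D.f (n (φ i)) u - D.s₀) / ρ (φ i)) F atTop D.S') ∧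
      (∀ u ∈ D.S', |F u| ≤ 1) ∧
      ∀ u ∈ D.S', Tendsto (fun i => ((D.a ^ n (φ i) * ρ (φ i)) ^ D.p)⁻¹ • D.N (n (φ i)) u) atTop
        (𝓝 (V u + b' (F u) • w u • Y.B (fderiv ℝ F u) (fderiv ℝ F u))) := by
  -- the smooth parts
  obtain ⟨CZ, hCZ⟩ := Y.Z_est hK
  obtain ⟨CF, hCF0, hCF⟩ := Core.F_est Y.fhyp (K := K)
  have z1 : ∀ j, CkB (k + 1) (fun _ => CZ) D.S' (D.Z P (n j) (ρ j) (n j)) := fun j =>
    ⟨(Core.Z_smooth _ (hA j).pos (n j) (k + 1)).mono D.sub, fun i hi u hu =>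
      hCZ (n j) (ρ j) (hA j) i hi u hu⟩
  have f1 : ∀ j, CkB (k + 2) (fun _ => CF) D.S' (fun u => (D.f (n j) u - D.s₀) / ρ j) := by
    intro j
    refine ⟨(((D.f_smooth (n j) (k + 2)).sub contDiffOn_const).div_const _).mono D.sub,
      fun i hi u hu => ?_⟩
    have := hCF (n j) (ρ j) (hA j) (n j) le_rfl i hi u hu
    simpa using this
  obtain ⟨φ₁, hφ₁, V, hV, hVt, -⟩ := ck_subseq Y.open' Y.conv' Y.bdd' z1
  obtain ⟨φ₂, hφ₂, F, hF, hFt, -⟩ := ck_subseq Y.open' Y.conv' Y.bdd' fun j => f1 (φ₁ j)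
  obtain ⟨φ₃, hφ₃, w, hw, hwt, -⟩ := ck_subseq (k := k) Y.open' Y.conv' Y.bdd'
    fun j => (Y.w_bd (n (φ₁ (φ₂ j)))).mono le_rfl D.sub
  obtain ⟨φ₄, hφ₄, b', hb't, hb'⟩ := Y.good.lim (fun j => ρ (φ₁ (φ₂ (φ₃ j))))
    (fun j => ⟨(hA _).pos, (hA _).le_one⟩)
    (hρ.comp (hφ₁.comp (hφ₂.comp hφ₃)).tendsto_atTop)
  have q4 := hφ₄.tendsto_atTop
  have q3 := hφ₃.tendsto_atTop.comp q4
  have q2 := hφ₂.tendsto_atTop.comp q3
  refine ⟨φ₁ ∘ φ₂ ∘ φ₃ ∘ φ₄, hφ₁.comp (hφ₂.comp (hφ₃.comp hφ₄)), V, F, w, b', hV.1, hF.1, hw.1,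
    ?_, hb', ?_, ?_, ?_⟩
  · intro u hu
    have h2 := (hwt 0 (Nat.zero_le _)).tendsto_at hu
    have h3 : Tendsto (fun j => Y.w (n (φ₁ (φ₂ (φ₃ j)))) u) atTop (𝓝 (w u)) := by
      have h4 := ((ContinuousMultilinearMap.apply ℝ (fun _ : Fin 0 => E) ℝ
        (fun i => i.elim0)).continuous.tendsto _).comp h2
      simpa [Function.comp_def, iteratedFDeriv_zero_apply] using h4
    exact ge_of_tendsto h3 (Eventually.of_forall fun j => Y.w_ge _ u (D.sub hu))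
  all_goals
    have e0 : ∀ {W : Type} [NormedAddCommGroup W] [NormedSpace ℝ W] {g : ℕ → E → W} {h : E → W},
      TendstoUniformlyOn (fun n => iteratedFDeriv ℝ 0 (g n)) (iteratedFDeriv ℝ 0 h) atTop D.S' →
      TendstoUniformlyOn g h atTop D.S' := by
      intro W _ _ g h hh
      rw [Metric.tendstoUniformlyOn_iff] at hh ⊢
      intro ε hε
      filter_upwards [hh ε hε] with i hi u hu
      have := hi u hu
      rw [dist_eq_norm] at this ⊢
      have e1 : ‖h u - g i u‖ = ‖iteratedFDeriv ℝ 0 h u - iteratedFDeriv ℝ 0 (g i) u‖ := by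
        have e2 : iteratedFDeriv ℝ 0 h u - iteratedFDeriv ℝ 0 (g i) u =
            (continuousMultilinearCurryFin0 ℝ E W).symm (h u - g i u) := by
          ext
          simp [iteratedFDeriv_zero_apply]
        rw [e2, LinearIsometryEquiv.norm_map]
      rwa [e1]
    have hFu := e0 (hFt 0 (Nat.zero_le _))
    have hFu' : TendstoUniformlyOn (fun i u => (D.f (n ((φ₁ ∘ φ₂ ∘ φ₃ ∘ φ₄) i)) u - D.s₀) /
        ρ ((φ₁ ∘ φ₂ ∘ φ₃ ∘ φ₄) i)) F atTop D.S' := by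
      intro s hs
      exact q3.eventually (hFu s hs)
  · exact hFu'
  · intro u hu
    have h2 := hFu'.tendsto_at hu
    exact le_of_tendsto h2.abs (Eventually.of_forall fun j => h1 _ u hu)
  · intro u hu
    have hVu := ((e0 (hVt 0 (Nat.zero_le _))).tendsto_at hu).comp q2
    have hwu := ((e0 (hwt 0 (Nat.zero_le _))).tendsto_at hu).comp q4
    -- the derivative
    have hdF : Tendsto (fun i => fderiv ℝ (fun u => (D.f (n (φ₁ (φ₂ (φ₃ (φ₄ i))))) u - D.s₀) /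
        ρ (φ₁ (φ₂ (φ₃ (φ₄ i))))) u) atTop (𝓝 (fderiv ℝ F u)) := by
      have h2 := ((hFt 1 (by omega)).tendsto_at hu).comp q3
      rw [tendsto_iff_norm_sub_tendsto_zero] at h2 ⊢
      refine h2.congr fun i => ?_
      have e2 : ∀ g h : E → ℝ, ‖iteratedFDeriv ℝ 1 g u - iteratedFDeriv ℝ 1 h u‖ =
          ‖fderiv ℝ g u - fderiv ℝ h u‖ := by
        intro g h
        have e3 : iteratedFDeriv ℝ 1 g u - iteratedFDeriv ℝ 1 h u =
            (continuousMultilinearCurryFin1 ℝ E ℝ).symm (fderiv ℝ g u - fderiv ℝ h u) := by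
          ext v
          simp [iteratedFDeriv_one_apply]
        rw [e3, LinearIsometryEquiv.norm_map]
      exact e2 _ _
    have hF1 : Tendsto (fun i => (D.f (n (φ₁ (φ₂ (φ₃ (φ₄ i))))) u - D.s₀) /
        ρ (φ₁ (φ₂ (φ₃ (φ₄ i))))) atTop (𝓝 (F u)) := hFu'.tendsto_at hu
    have hFm : F u ∈ Icc (-1 : ℝ) 1 :=
      abs_le.1 (le_of_tendsto hF1.abs (Eventually.of_forall fun j => h1 _ u hu))
    have hbc : ContinuousOn b' (Icc (-1) 1) :=
      hb't.continuousOn (Eventually.of_forall fun i => (Y.cor_cont _).continuousOn).frequently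
    have hb1 : Tendsto (fun i => cor (D.b i₀) D.s₀ (D.q i₀) (P i₀) (ρ (φ₁ (φ₂ (φ₃ (φ₄ i)))))
        ((D.f (n (φ₁ (φ₂ (φ₃ (φ₄ i))))) u - D.s₀) / ρ (φ₁ (φ₂ (φ₃ (φ₄ i)))))) atTop
        (𝓝 (b' (F u))) := by
      refine TendstoUniformlyOn.tendsto_comp (s := Icc (-1) 1) hb't (hbc _ hFm) ?_
      exact tendsto_nhdsWithin_iff.2 ⟨hF1, Eventually.of_forall fun j => abs_le.1 (h1 _ u hu)⟩
    have hBc : Continuous fun l : E →L[ℝ] ℝ => Y.B l l := Y.B.continuous.clm_apply continuous_id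
    have hB2 := (hBc.tendsto (fderiv ℝ F u)).comp hdF
    have hrest : Tendsto (fun i => Y.rest (n (φ₁ (φ₂ (φ₃ (φ₄ i))))) (ρ (φ₁ (φ₂ (φ₃ (φ₄ i))))) u)
        atTop (𝓝 0) :=
      (Y.rest_tendsto hA h1 hρ hu).comp (hφ₁.comp (hφ₂.comp (hφ₃.comp hφ₄))).tendsto_atTop
    have hlim := (hVu.add hrest).add (hb1.smul (hwu.smul hB2))
    rw [add_zero] at hlim
    refine hlim.congr fun i => ?_
    exact (Y.Z_form (hA _).pos hu).symm

theorem adm_of {K : ℝ} (hKa : D.a ≤ K) {C₁ : ℝ} {n : ℕ} {ρ : ℝ} (hρ : 0 < ρ) (hρ1 : ρ ≤ 1)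
    (hge : 1 ≤ D.a ^ n * ρ) (hK1 : D.C₀ ≤ K)
    (h : ∀ m < n, D.osc m ≤ C₁ * ρ * D.a ^ (n - m)) (hC₁ : C₁ ≤ 1) : D.Adm K n ρ where
  pos := hρ
  le_one := hρ1
  ge := hge
  bd := by
    intro m hm u hu
    have ha := D.a_pos
    have hK0 : 0 < K := ha.trans_le hKa
    rcases Nat.eq_zero_or_pos m with rfl | hm0
    · calc |D.f 0 u - D.s₀| ≤ D.C₀ := D.f_bd u hu
        _ ≤ K := hK1
        _ ≤ K * (D.a ^ n * ρ) := le_mul_of_one_le_right hK0.le hge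
        _ = _ := by rw [Nat.sub_zero]; ring
    · obtain ⟨i, rfl⟩ : ∃ i, m = i + 1 := ⟨m - 1, by omega⟩
      have h2 := h i (by omega)
      have h3 : n - i = (n - (i + 1)) + 1 := by omega
      rw [h3, pow_succ] at h2
      calc |D.f (i + 1) u - D.s₀| ≤ D.osc i := Core.le_osc_succ i hu
        _ ≤ C₁ * ρ * (D.a ^ (n - (i + 1)) * D.a) := h2
        _ ≤ 1 * ρ * (D.a ^ (n - (i + 1)) * K) := by gcongr
        _ = _ := by ring

/-- **the upper bound** -/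
theorem upper : ∃ C, ∀ n, D.a ^ n * D.osc n ≤ C := by
  by_contra hcon
  push Not at hcon
  have ha := D.a_pos
  have ha1 := D.a_lt
  have hne := Y.ne'
  have hC0 := D.C₀_ge
  classical
  have hex : ∀ j : ℕ, ∃ n, (j : ℝ) + 1 < D.a ^ n * D.osc n := fun j => hcon _
  set n : ℕ → ℕ := fun j => Nat.find (hex j) with hn
  have hn1 : ∀ j : ℕ, (j : ℝ) + 1 < D.a ^ n j * D.osc (n j) := fun j => Nat.find_spec (hex j)
  have hn2 : ∀ j, ∀ m < n j, D.a ^ m * D.osc m ≤ D.a ^ n j * D.osc (n j) := by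
    intro j m hm
    have := Nat.find_min (hex j) hm
    push Not at this
    exact this.trans (hn1 j).le
  have hosc0 : ∀ j, 0 < D.osc (n j) := by
    intro j
    have h1 := hn1 j
    have h2 : (0 : ℝ) ≤ j := Nat.cast_nonneg _
    by_contra hle
    push Not at hle
    have : D.a ^ n j * D.osc (n j) ≤ 0 := mul_nonpos_of_nonneg_of_nonpos (by positivity) hle
    linarith
  have hoscC : ∀ m, D.osc m ≤ D.C₀ := fun m =>
    Core.osc_le m hne fun u hu => D.f_bd' m u (D.sub hu)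
  have hnt : Tendsto n atTop atTop := by
    refine tendsto_atTop.2 fun N₁ => ?_
    obtain ⟨j₀, hj₀⟩ := exists_nat_gt (D.a ^ N₁ * D.C₀)
    filter_upwards [eventually_ge_atTop j₀] with j hj
    by_contra hlt
    push Not at hlt
    have h1 := hn1 j
    have h2 : D.a ^ n j * D.osc (n j) ≤ D.a ^ N₁ * D.C₀ :=
      mul_le_mul (pow_le_pow_right₀ ha1.le hlt.le) (hoscC _) (hosc0 j).le (by positivity)
    have h3 : (j₀ : ℝ) ≤ j := by exact_mod_cast hj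
    linarith
  have hosct : Tendsto (fun j => D.osc (n j)) atTop (𝓝 0) := by
    refine (tendsto_order.2 ⟨fun c hc => Eventually.of_forall fun j => hc.trans (hosc0 j),
      fun c hc => ?_⟩)
    obtain ⟨n₀, hn₀⟩ := Y.dec (c / 2) (by linarith)
    filter_upwards [hnt.eventually_ge_atTop n₀] with j hj
    exact (Core.osc_le _ hne (hn₀ _ hj)).trans_lt (by linarith)
  -- from some index on the scale is at most one
  obtain ⟨j₀, hj₀⟩ := eventually_atTop.1 (hosct.eventually (ge_mem_nhds one_pos))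
  set K : ℝ := max D.a D.C₀ with hK
  have hK1 : 1 ≤ K := ha1.le.trans (le_max_left _ _)
  have hA : ∀ j, D.Adm K (n (j + j₀)) (D.osc (n (j + j₀))) := by
    intro j
    refine Y.adm_of (le_max_left _ _) (C₁ := 1) (hosc0 _) (hj₀ _ (by omega)) ?_ (le_max_right _ _)
      (fun m hm => ?_) le_rfl
    · have := hn1 (j + j₀)
      have h2 : (0 : ℝ) ≤ ((j + j₀ : ℕ) : ℝ) := Nat.cast_nonneg _
      linarith
    · have h2 := hn2 (j + j₀) m hm
      have h3 : D.a ^ n (j + j₀) = D.a ^ m * D.a ^ (n (j + j₀) - m) := by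
        rw [← pow_add]; congr 1; omega
      rw [h3] at h2
      have h4 : 0 < D.a ^ m := pow_pos ha m
      have h5 : D.a ^ m * D.osc m ≤ D.a ^ m * (D.a ^ (n (j + j₀) - m) * D.osc (n (j + j₀))) := by
        rw [← mul_assoc]; exact h2
      have h6 := le_of_mul_le_mul_left h5 h4
      rw [one_mul, mul_comm]
      exact h6
  have hb1 : ∀ j, ∀ u ∈ D.S', |(D.f (n (j + j₀)) u - D.s₀) / D.osc (n (j + j₀))| ≤ 1 := by
    intro j u hu
    rw [abs_div, abs_of_pos (hosc0 _), div_le_one (hosc0 _)]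
    exact Core.le_osc _ hu
  obtain ⟨φ, hφ, V, F, w, b', hV, hF, hw, hwc, hb', hFt, hF1, hlim⟩ := Y.limit hK1 hA hb1
    (hosct.comp (tendsto_add_atTop_nat j₀))
  -- the limit of the left side is zero
  have hleft : ∀ u ∈ D.S', Tendsto (fun i => ((D.a ^ n (φ i + j₀) *
      D.osc (n (φ i + j₀))) ^ D.p)⁻¹ • D.N (n (φ i + j₀)) u) atTop (𝓝 0) := by
    intro u hu
    obtain ⟨CN, hCN⟩ := D.N_bd
    have h1 : Tendsto (fun j : ℕ => ((D.a ^ n (j + j₀) * D.osc (n (j + j₀))) ^ D.p)⁻¹) atTop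
        (𝓝 0) := by
      refine Tendsto.inv_tendsto_atTop ((tendsto_rpow_atTop D.p_pos).comp ?_)
      refine tendsto_atTop_mono (fun j => ?_) (tendsto_natCast_atTop_atTop (R := ℝ))
      have := hn1 (j + j₀)
      push_cast at this
      have h2 : (0 : ℝ) ≤ (j₀ : ℝ) := Nat.cast_nonneg _
      linarith
    have h2 := (h1.comp hφ.tendsto_atTop).zero_smul_isBoundedUnder_le
      (g := fun i => D.N (n (φ i + j₀)) u) (isBoundedUnder_of ⟨CN, fun i => hCN _ u (D.sub hu)⟩)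
    exact h2
  obtain ⟨s, hs, hcs⟩ := contra Y.open' Y.hB hV hF hw
    (fun u hu => (Y.cw_pos.trans_le (hwc u hu)).ne')
    (fun u hu => tendsto_nhds_unique (hlim u hu) (hleft u hu)) hF1 (by
      by_contra hcon2
      push Not at hcon2
      have hFd : DifferentiableOn ℝ F D.S' := hF.differentiableOn (by
        exact_mod_cast Nat.succ_ne_zero k)
      have hconst : ∀ u ∈ D.S', F u = F 0 := fun u hu =>
        Y.open'.is_const_of_fderiv_eq_zero Y.conv'.isPreconnected hFd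
          (fun v hv => hcon2 v hv) hu Y.zero_mem
      have hF0 : F 0 = 0 := by
        have h1 := hFt.tendsto_at Y.zero_mem
        refine tendsto_nhds_unique h1 ?_
        have : (fun i => (D.f (n (φ i + j₀)) 0 - D.s₀) / D.osc (n (φ i + j₀))) = fun _ => 0 := by
          funext i
          rw [Y.f_zero, sub_self, zero_div]
        rw [this]
        exact tendsto_const_nhds
      rw [Metric.tendstoUniformlyOn_iff] at hFt
      obtain ⟨i, hi⟩ := (hFt (1 / 2) (by norm_num)).exists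
      have h2 : D.osc (n (φ i + j₀)) ≤ 1 / 2 * D.osc (n (φ i + j₀)) := by
        refine Core.osc_le _ hne fun u hu => ?_
        have h3 := hi u hu
        rw [hconst u hu, hF0, dist_zero_left, Real.norm_eq_abs, abs_div, abs_of_pos (hosc0 _),
          div_lt_iff₀ (hosc0 _)] at h3
        exact h3.le
      have := hosc0 (φ i + j₀)
      linarith)
  exact hb' s hs (hcs.of_le (by exact_mod_cast Y.k_le))

/-- **the lower bound** -/
theorem lower : ∃ c > 0, ∀ n, c ≤ D.a ^ n * D.osc n := by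
  by_contra hcon
  push Not at hcon
  have ha := D.a_pos
  have ha1 := D.a_lt
  have hne := Y.ne'
  have hC0 := D.C₀_ge
  obtain ⟨C, hC⟩ := Y.upper
  set C₁ : ℝ := |C| + 1 with hC₁
  have hC₁1 : 1 ≤ C₁ := by rw [hC₁]; linarith [abs_nonneg C]
  have hCle : ∀ n, D.a ^ n * D.osc n ≤ C₁ := fun n =>
    (hC n).trans ((le_abs_self C).trans (by rw [hC₁]; linarith))
  -- times going to infinity
  have hex : ∀ j : ℕ, ∃ n ≥ j, D.a ^ n * D.osc n < 1 / ((j : ℝ) + 1) := by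
    intro j
    by_contra hj
    push Not at hj
    have h1 : (0 : ℝ) < 1 / ((j : ℝ) + 1) := by positivity
    have h2 : 0 < D.osc j := by
      have := hj j le_rfl
      by_contra hle
      push Not at hle
      have h3 : D.a ^ j * D.osc j ≤ 0 := mul_nonpos_of_nonneg_of_nonpos (by positivity) hle
      linarith
    obtain ⟨m, hm⟩ := hcon (min (1 / ((j : ℝ) + 1)) (D.osc j)) (lt_min h1 h2)
    rcases le_or_gt j m with h | h
    · exact absurd (hm.trans_le (min_le_left _ _)) (not_lt.2 (hj m h))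
    · have h3 : D.osc j ≤ D.osc m := Core.osc_anti hne h.le
      have h4 : D.osc m ≤ D.a ^ m * D.osc m :=
        le_mul_of_one_le_left (Core.osc_nonneg m hne) (one_le_pow₀ ha1.le)
      have h5 := hm.trans_le (min_le_right _ _)
      linarith
  choose n hn1 hn2 using hex
  have hnt : Tendsto n atTop atTop := tendsto_atTop_mono hn1 tendsto_id
  set ρ : ℕ → ℝ := fun j => C₁ * (D.a ^ n j)⁻¹ with hρdef
  have hρ0 : ∀ j, 0 < ρ j := fun j => by rw [hρdef]; positivity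
  have hpow : Tendsto (fun j => D.a ^ n j) atTop atTop :=
    (tendsto_pow_atTop_atTop_of_one_lt ha1).comp hnt
  have hρt : Tendsto ρ atTop (𝓝 0) := by
    have := (tendsto_inv_atTop_zero.comp hpow).const_mul C₁
    simpa using this
  obtain ⟨j₀, hj₀⟩ := eventually_atTop.1 (hρt.eventually (ge_mem_nhds one_pos))
  set K : ℝ := max D.a D.C₀ with hK
  have hK1 : 1 ≤ K := ha1.le.trans (le_max_left _ _)
  have hκ : ∀ j, D.a ^ n j * ρ j = C₁ := by
    intro j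
    have : D.a ^ n j ≠ 0 := by positivity
    simp only [hρdef]
    field_simp
  have hA : ∀ j, D.Adm K (n (j + j₀)) (ρ (j + j₀)) := by
    intro j
    refine Y.adm_of (le_max_left _ _) (C₁ := 1) (hρ0 _) (hj₀ _ (by omega)) ?_ (le_max_right _ _)
      (fun m hm => ?_) le_rfl
    · rw [hκ]; exact hC₁1
    · have h3 : D.a ^ n (j + j₀) = D.a ^ m * D.a ^ (n (j + j₀) - m) := by
        rw [← pow_add]; congr 1; omega
      have h4 : 0 < D.a ^ m := pow_pos ha m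
      have h5 : 1 * ρ (j + j₀) * D.a ^ (n (j + j₀) - m) = C₁ / D.a ^ m := by
        rw [eq_div_iff h4.ne', one_mul, ← hκ (j + j₀), h3]
        ring
      rw [h5, le_div_iff₀ h4, mul_comm]
      exact hCle m
  have hb1 : ∀ j, ∀ u ∈ D.S', |(D.f (n (j + j₀)) u - D.s₀) / ρ (j + j₀)| ≤
      (D.a ^ n (j + j₀) * D.osc (n (j + j₀))) / C₁ := by
    intro j u hu
    rw [abs_div, abs_of_pos (hρ0 _), div_le_div_iff₀ (hρ0 _) (by linarith), ← hκ (j + j₀)]
    have h1 := Core.le_osc (n (j + j₀)) hu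
    have h2 : 0 < D.a ^ n (j + j₀) := by positivity
    have h3 := (hρ0 (j + j₀)).le
    calc |D.f (n (j + j₀)) u - D.s₀| * (D.a ^ n (j + j₀) * ρ (j + j₀))
        ≤ D.osc (n (j + j₀)) * (D.a ^ n (j + j₀) * ρ (j + j₀)) := by gcongr
      _ = _ := by ring
  have hb1' : ∀ j, ∀ u ∈ D.S', |(D.f (n (j + j₀)) u - D.s₀) / ρ (j + j₀)| ≤ 1 := fun j u hu =>
    (hb1 j u hu).trans (by rw [div_le_one (by linarith)]; exact hCle _)
  obtain ⟨φ, hφ, V, F, w, b', hV, hF, hw, hwc, hb', hFt, hF1, hlim⟩ := Y.limit hK1 hA hb1'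
    (hρt.comp (tendsto_add_atTop_nat j₀))
  -- the limit function vanishes
  have hF0 : ∀ u ∈ D.S', F u = 0 := by
    intro u hu
    refine tendsto_nhds_unique (hFt.tendsto_at hu) ?_
    refine squeeze_zero_norm (a := fun i => 1 / (((φ i + j₀ : ℕ) : ℝ) + 1) / C₁) (fun i => ?_) ?_
    · rw [Real.norm_eq_abs]
      refine (hb1 (φ i) u hu).trans ?_
      have h2 := (hn2 (φ i + j₀)).le
      have : 0 < C₁ := by linarith
      gcongr
    · have h1 : Tendsto (fun i => φ i + j₀) atTop atTop :=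
        (tendsto_add_atTop_nat j₀).comp hφ.tendsto_atTop
      have h2 := (tendsto_one_div_add_atTop_nhds_zero_nat (𝕜 := ℝ)).comp h1
      have h3 := h2.div_const C₁
      simpa [Function.comp_def] using h3
  have hdF0 : ∀ u ∈ D.S', fderiv ℝ F u = 0 := by
    intro u hu
    have h1 : F =ᶠ[𝓝 u] fun _ => 0 := by
      filter_upwards [Y.open'.mem_nhds hu] with v hv
      exact hF0 v hv
    rw [h1.fderiv_eq]
    simp
  -- the limit of the tensor
  refine Y.rough (fun i => n (φ i + j₀)) (hnt.comp ((tendsto_add_atTop_nat j₀).comp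
    hφ.tendsto_atTop)) (fun u => C₁ ^ D.p • V u) (fun u hu => ?_) ?_
  · have h1 := (hlim u hu).const_smul (C₁ ^ D.p)
    rw [hdF0 u hu] at h1
    simp only [map_zero, smul_zero, add_zero] at h1
    refine h1.congr fun i => ?_
    rw [hκ, smul_smul, mul_inv_cancel₀ (Real.rpow_pos_of_pos (by linarith) _).ne', one_smul]
  · exact contDiffOn_const.smul (hV.of_le (by exact_mod_cast Y.k_le))

/-- **limit objects** along any sequence of times: `N` converges to a tensor of the same form with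
a submersion at some point -/
theorem exists_lim {n : ℕ → ℕ} (hnt : Tendsto n atTop atTop) :
    ∃ c > (0 : ℝ), ∃ κ > (0 : ℝ), ∃ φ : ℕ → ℕ, StrictMono φ ∧
    ∃ (V : E → T) (F w : E → ℝ) (b' : ℝ → ℝ),
      ContDiffOn ℝ k V D.S' ∧ ContDiffOn ℝ (k + 1 : ℕ) F D.S' ∧ ContDiffOn ℝ k w D.S' ∧
      (∀ u ∈ D.S', Y.cw ≤ w u) ∧ (∀ s ∈ Ioo (-1 : ℝ) 1, ¬ ContDiffAt ℝ k₀ b' s) ∧
      (TendstoUniformlyOn (fun i u => c * (D.a ^ n (φ i) * (D.f (n (φ i)) u - D.s₀))) F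
        atTop D.S') ∧
      (∀ u ∈ D.S', |F u| ≤ 1) ∧ (∃ u ∈ D.S', fderiv ℝ F u ≠ 0) ∧
      ∀ u ∈ D.S', Tendsto (fun i => D.N (n (φ i)) u) atTop
        (𝓝 (κ • (V u + b' (F u) • w u • Y.B (fderiv ℝ F u) (fderiv ℝ F u)))) := by
  have ha := D.a_pos
  have ha1 := D.a_lt
  have hne := Y.ne'
  have hC0 := D.C₀_ge
  obtain ⟨C, hC⟩ := Y.upper
  obtain ⟨cl, hcl0, hcl⟩ := Y.lower
  set C₁ : ℝ := |C| + 1 with hC₁
  have hC₁1 : 1 ≤ C₁ := by rw [hC₁]; linarith [abs_nonneg C]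
  have hC₁0 : 0 < C₁ := by linarith
  have hCle : ∀ n, D.a ^ n * D.osc n ≤ C₁ := fun n =>
    (hC n).trans ((le_abs_self C).trans (by rw [hC₁]; linarith))
  set ρ : ℕ → ℝ := fun j => C₁ * (D.a ^ n j)⁻¹ with hρdef
  have hρ0 : ∀ j, 0 < ρ j := fun j => by rw [hρdef]; positivity
  have hpow : Tendsto (fun j => D.a ^ n j) atTop atTop :=
    (tendsto_pow_atTop_atTop_of_one_lt ha1).comp hnt
  have hρt : Tendsto ρ atTop (𝓝 0) := by
    have := (tendsto_inv_atTop_zero.comp hpow).const_mul C₁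
    simpa using this
  obtain ⟨j₀, hj₀⟩ := eventually_atTop.1 (hρt.eventually (ge_mem_nhds one_pos))
  set K : ℝ := max D.a D.C₀ with hK
  have hK1 : 1 ≤ K := ha1.le.trans (le_max_left _ _)
  have hκ : ∀ j, D.a ^ n j * ρ j = C₁ := by
    intro j
    have : D.a ^ n j ≠ 0 := by positivity
    simp only [hρdef]
    field_simp
  have hA : ∀ j, D.Adm K (n (j + j₀)) (ρ (j + j₀)) := by
    intro j
    refine Y.adm_of (le_max_left _ _) (C₁ := 1) (hρ0 _) (hj₀ _ (by omega)) ?_ (le_max_right _ _)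
      (fun m hm => ?_) le_rfl
    · rw [hκ]; exact hC₁1
    · have h3 : D.a ^ n (j + j₀) = D.a ^ m * D.a ^ (n (j + j₀) - m) := by
        rw [← pow_add]; congr 1; omega
      have h4 : 0 < D.a ^ m := pow_pos ha m
      have h5 : 1 * ρ (j + j₀) * D.a ^ (n (j + j₀) - m) = C₁ / D.a ^ m := by
        rw [eq_div_iff h4.ne', one_mul, ← hκ (j + j₀), h3]
        ring
      rw [h5, le_div_iff₀ h4, mul_comm]
      exact hCle m
  have hFeq : ∀ j u, (D.f (n (j + j₀)) u - D.s₀) / ρ (j + j₀) =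
      C₁⁻¹ * (D.a ^ n (j + j₀) * (D.f (n (j + j₀)) u - D.s₀)) := by
    intro j u
    simp only [hρdef]
    have : D.a ^ n (j + j₀) ≠ 0 := by positivity
    field_simp
  have hb1' : ∀ j, ∀ u ∈ D.S', |(D.f (n (j + j₀)) u - D.s₀) / ρ (j + j₀)| ≤ 1 := by
    intro j u hu
    rw [abs_div, abs_of_pos (hρ0 _), div_le_one (hρ0 _)]
    refine (Core.le_osc _ hu).trans ?_
    have h1 := hCle (n (j + j₀))
    rw [← hκ (j + j₀)] at h1
    exact le_of_mul_le_mul_left h1 (by positivity)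
  obtain ⟨φ, hφ, V, F, w, b', hV, hF, hw, hwc, hb', hFt, hF1, hlim⟩ := Y.limit hK1 hA hb1'
    (hρt.comp (tendsto_add_atTop_nat j₀))
  have hmono : StrictMono fun i => φ i + j₀ := fun i j hij => Nat.add_lt_add_right (hφ hij) j₀
  refine ⟨C₁⁻¹, inv_pos.2 hC₁0, C₁ ^ D.p, Real.rpow_pos_of_pos hC₁0 _, fun i => φ i + j₀, hmono,
    V, F, w, b', hV, hF, hw, hwc, hb', ?_, hF1, ?_, fun u hu => ?_⟩
  · refine hFt.congr (Eventually.of_forall fun i u _ => ?_)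
    exact hFeq _ u
  · by_contra hcon2
    push Not at hcon2
    have hFd : DifferentiableOn ℝ F D.S' := hF.differentiableOn (by
      exact_mod_cast Nat.succ_ne_zero k)
    have hconst : ∀ u ∈ D.S', F u = F 0 := fun u hu =>
      Y.open'.is_const_of_fderiv_eq_zero Y.conv'.isPreconnected hFd
        (fun v hv => hcon2 v hv) hu Y.zero_mem
    have hF0 : F 0 = 0 := by
      have h1 := hFt.tendsto_at Y.zero_mem
      refine tendsto_nhds_unique h1 ?_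
      have : (fun i => (D.f (n (φ i + j₀)) 0 - D.s₀) / ρ (φ i + j₀)) = fun _ => 0 := by
        funext i
        rw [Y.f_zero, sub_self, zero_div]
      rw [this]
      exact tendsto_const_nhds
    rw [Metric.tendstoUniformlyOn_iff] at hFt
    obtain ⟨i, hi⟩ := (hFt (cl / (2 * C₁)) (by positivity)).exists
    have h2 : D.osc (n (φ i + j₀)) ≤ cl / (2 * C₁) * ρ (φ i + j₀) := by
      refine Core.osc_le _ hne fun u hu => ?_
      have h3 := hi u hu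
      rw [hconst u hu, hF0, dist_zero_left, Real.norm_eq_abs, abs_div, abs_of_pos (hρ0 _),
        div_lt_iff₀ (hρ0 _)] at h3
      exact h3.le
    have h4 := hcl (n (φ i + j₀))
    have h5 : 0 < D.a ^ n (φ i + j₀) := by positivity
    have h6 : D.a ^ n (φ i + j₀) * D.osc (n (φ i + j₀)) ≤ cl / 2 := by
      calc D.a ^ n (φ i + j₀) * D.osc (n (φ i + j₀))
          ≤ D.a ^ n (φ i + j₀) * (cl / (2 * C₁) * ρ (φ i + j₀)) := by gcongr
        _ = cl / (2 * C₁) * (D.a ^ n (φ i + j₀) * ρ (φ i + j₀)) := by ring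
        _ = cl / 2 := by rw [hκ]; field_simp
    linarith
  · have h1 := (hlim u hu).const_smul (C₁ ^ D.p)
    refine h1.congr fun i => ?_
    rw [hκ, smul_smul, mul_inv_cancel₀ (Real.rpow_pos_of_pos hC₁0 _).ne', one_smul]

end Lvl


end Vale.Agent.P207.N3.H476
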