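import Vale.Agent.P207.N3.H476.LeafC

/-!
# P207, line N3, package P14 (4.3): the level lemma over `Leaf`
-/

open Set Filter Topology Metric
open scoped ContDiff

set_option maxSynthPendingDepth 3
set_option linter.unusedSectionVars false

noncomputable section

namespace Vale.Agent.P207.N3.H476

open Vale.Agent.P207.N3
open Vale.Agent.P207.N3.H545 (ts t1_le_ts ts_pos riesz conjT conjT_apply Sx Sx_CkB conjT_CkB R_CkB
  N_bound N_step Sx_mul tau_step_mem e_tau_step dm_step tau_step_smooth gradient_eq_riesz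
  norm_fderiv_tau_step_le tau_eq_of contract_cc cc one_le_cc)

variable {Γ X B : Type} [Group Γ] [MetricSpace X] [ProperSpace X] [MulAction Γ X]
  [IsIsometricSMul Γ X] [TopologicalSpace B] [CompactSpace B] [T2Space B] [MulAction Γ B]
  [ContinuousConstSMul Γ B] [MeasurableSpace B] [BorelSpace B]

namespace Hyp

variable {L : Leaf Γ X B} {A : Area L} {T : Tens L} {ξ : B} {f : B → ℝ} {χ : ℝ} {b : ℝ → ℝ}
  {V : X → E2 → E2 →L[ℝ] E2} (H : Hyp A T ξ f χ b V)

include H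

theorem wt_CkB (x₀ : X) (k : ℕ) : ∃ C, ∀ m, H828.CkB k (fun _ => C) (ball (0 : E2) 2)
    (wt A x₀ m) := by
  obtain ⟨C, hC0, hC⟩ := s_inv_CkB A k
  refine ⟨|Real.exp (2 * A.h * L.lv x₀)| * C, fun m => ⟨?_, fun j hj u hu => ?_⟩⟩
  · exact ((H.wt_smooth x₀ m).mono (ball_subset_ball (by norm_num))).of_le
      (by exact_mod_cast le_top)
  · have h1 := (hC (fr L x₀ m)).2 j hj u hu
    have h2 : ContDiffAt ℝ j (fun u => (A.s (fr L x₀ m) u)⁻¹ * (A.s (fr L x₀ m) u)⁻¹) u :=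
      ((hC (fr L x₀ m)).contDiffAt hu).of_le (by exact_mod_cast hj)
    exact iter_smul_le h2 (Real.exp (2 * A.h * L.lv x₀)) h1

theorem wt_low (x₀ : X) : ∃ c > 0, ∀ m, ∀ u ∈ ball (0 : E2) 2, c ≤ wt A x₀ m u := by
  obtain ⟨C, hC0, hC⟩ := s_up A
  refine ⟨Real.exp (2 * A.h * L.lv x₀) * (C⁻¹ * C⁻¹), by positivity, fun m u hu => ?_⟩
  have h1 := hC (fr L x₀ m) u (ball_subset_closedBall hu)
  have h2 := A.s_pos (fr L x₀ m) u (ball_subset_ball (by norm_num) hu)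
  unfold wt
  have h3 : C⁻¹ ≤ (A.s (fr L x₀ m) u)⁻¹ := inv_anti₀ h2 h1
  gcongr

/-- the functions tend to the value at the end point -/
theorem dec_leaf {x₀ : X} (h₀ : L.em x₀ = ξ) : ∀ ε > 0, ∃ n₀ : ℕ, ∀ n ≥ n₀,
    ∀ u ∈ ball (0 : E2) 1, |f (L.e (fr L x₀ n) u) - f (L.ep x₀)| ≤ ε := by
  intro ε hε
  have hcont : ContinuousAt (fun u => f (L.e x₀ u)) 0 :=
    ((H.f_smooth x₀ h₀).contDiffAt (isOpen_ball.mem_nhds (by simp))).continuousAt
  rw [Metric.continuousAt_iff] at hcont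
  obtain ⟨δ, hδ, hδ'⟩ := hcont ε hε
  have hχ := L.χ_pos
  have hlim : Tendsto (fun n : ℕ => cc L 1 * Real.exp (-L.χ * (n * ts L))) atTop (𝓝 0) := by
    have h1 : Tendsto (fun n : ℕ => L.χ * ((n : ℝ) * ts L)) atTop atTop :=
      (tendsto_natCast_atTop_atTop.atTop_mul_const (ts_pos L)).const_mul_atTop hχ
    have h2 := (Real.tendsto_exp_neg_atTop_nhds_zero.comp h1).const_mul (cc L 1)
    rw [mul_zero] at h2
    refine h2.congr fun n => ?_
    simp only [Function.comp]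
    congr 2
    ring
  obtain ⟨n₀, hn₀⟩ := eventually_atTop.mp (hlim.eventually (gt_mem_nhds hδ))
  refine ⟨max n₀ 1, fun n hn u hu => ?_⟩
  have hn1 : 1 ≤ n := (le_max_right _ _).trans hn
  have ht : L.t1 ≤ n * ts L := by
    have h1 : (1 : ℝ) ≤ n := by exact_mod_cast hn1
    have := ts_pos L
    nlinarith [t1_le_ts L]
  have hu3 : u ∈ closedBall (0 : E2) 3 :=
    ball_subset_closedBall (ball_subset_ball (by norm_num) hu)
  have h1 := e_tau_step L ht x₀ hu3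
  have h2 : L.τ (L.φ (n * ts L) x₀) x₀ 0 = 0 := by
    refine tau_eq_of L (by simp) ?_
    rw [L.e_zero, L.e_zero, ep_φ]
  have h3 : ‖L.τ (L.φ (n * ts L) x₀) x₀ u - L.τ (L.φ (n * ts L) x₀) x₀ 0‖ ≤
      (cc L 1 * Real.exp (-L.χ * (n * ts L))) * ‖u - 0‖ := by
    refine (convex_ball (0 : E2) 3).norm_image_sub_le_of_norm_fderiv_le (𝕜 := ℝ) (fun v hv => ?_)
      (fun v hv => ?_) (by simp) (ball_subset_ball (by norm_num) hu)
    · exact ((tau_step_smooth L ht x₀).contDiffAt (isOpen_ball.mem_nhds hv)).differentiableAt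
        (by simp)
    · have := contract_cc L le_rfl ht x₀ hv
      rwa [norm_iteratedFDeriv_one] at this
  rw [h2, sub_zero, sub_zero] at h3
  have hu1 : ‖u‖ < 1 := by simpa using hu
  have h4 : ‖L.τ (L.φ (n * ts L) x₀) x₀ u‖ < δ := by
    have h5 := hn₀ n ((le_max_left _ _).trans hn)
    have h6 : 0 ≤ cc L 1 * Real.exp (-L.χ * (n * ts L)) := by
      have := one_le_cc L 1
      positivity
    calc _ ≤ _ := h3
      _ ≤ cc L 1 * Real.exp (-L.χ * (n * ts L)) * 1 := by gcongr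
      _ < δ := by rw [mul_one]; exact h5
  have h5 := hδ' (x := L.τ (L.φ (n * ts L) x₀) x₀ u) (by rwa [dist_zero_right])
  rw [h1, L.e_zero, Real.dist_eq] at h5
  exact h5.le

/-- the limits of `E^s` are rough -/
theorem rough_leaf {k₀ : ℕ} (hr : Rough T k₀) (x₀ : X) (φ : ℕ → ℕ)
    (Nh : E2 → (E2 →L[ℝ] E2))
    (hN : ∀ u ∈ ball (0 : E2) 1, Tendsto (fun n => T.N (fr L x₀ (φ n)) u) atTop (𝓝 (Nh u))) :
    ¬ ContDiffOn ℝ k₀ Nh (ball 0 1) := by
  intro hc
  obtain ⟨K, hK, hKΓ⟩ := L.cocompact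
  choose g hg using fun n => hKΓ (fr L x₀ (φ n))
  obtain ⟨w, hw, ψ, hψ, hlim⟩ := hK.tendsto_subseq hg
  refine hr w (ball 0 1) isOpen_ball (ball_subset_ball (by norm_num)) ⟨0, by simp⟩ ?_
  refine hc.congr fun u hu => ?_
  have hu3 : u ∈ ball (0 : E2) 3 := ball_subset_ball (by norm_num) hu
  have h1 : Tendsto (fun n => T.N (g (ψ n) • fr L x₀ (φ (ψ n))) u) atTop (𝓝 (T.N w u)) := by
    have h2 : ContinuousWithinAt (fun p : X × E2 => T.N p.1 p.2) (univ ×ˢ ball 0 3) (w, u) :=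
      T.N_cont (w, u) ⟨mem_univ _, hu3⟩
    have h3 : Tendsto (fun n => ((g (ψ n) • fr L x₀ (φ (ψ n)), u) : X × E2)) atTop
        (𝓝[univ ×ˢ ball 0 3] (w, u)) := by
      refine tendsto_nhdsWithin_iff.mpr ⟨?_, Eventually.of_forall fun n => ⟨mem_univ _, hu3⟩⟩
      exact hlim.prodMk_nhds tendsto_const_nhds
    exact h2.tendsto.comp h3
  have h4 : Tendsto (fun n => T.N (fr L x₀ (φ (ψ n))) u) atTop (𝓝 (T.N w u)) := by
    refine h1.congr fun n => ?_
    exact T.N_smul _ _ _ hu3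
  exact tendsto_nhds_unique h4 ((hN u hu).comp hψ.tendsto_atTop)

theorem tauS_bd (x₀ : X) : ∃ K, ∀ m, ∀ u ∈ ball (0 : E2) 2,
    DifferentiableAt ℝ (tauS L x₀ m) u ∧ ‖fderiv ℝ (tauS L x₀ m) u‖ ≤ K := by
  refine ⟨1 / 2, fun m u hu => ?_⟩
  have hu3 : u ∈ ball (0 : E2) 3 := ball_subset_ball (by norm_num) hu
  refine ⟨((H.tauS_smooth x₀ m).contDiffAt (isOpen_ball.mem_nhds hu3)).differentiableAt
    (by simp), ?_⟩
  rw [tauS_eq]
  exact norm_fderiv_tau_step_le L le_rfl _ hu3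

/-- existence of the data of the level lemma -/
theorem exists_lvl {x₀ : X} (h₀ : L.em x₀ = ξ) {k₀ N : ℕ} (hr : Rough T k₀)
    {P : ℝ → Fin N → ℝ} (hg : GoodP b (f (L.ep x₀)) ((2 * A.h - 2 * χ) / χ) N k₀ P) :
    ∃ k L' : ℕ, Nonempty (Lvl (H.core h₀) () k₀ k N 2 L' (fun _ => P)) := by
  have hχ := H.χ_pos
  obtain ⟨L', hL'⟩ := exists_nat_ge
    (2 * A.h / χ + (2 * A.h - 2 * χ) / χ + N + (2 : ℕ) + 1)
  obtain ⟨c1, hc1, hS⟩ := conjT_CkB L 0 (ts L)
  have hts : ts L ∈ Icc L.t1 (ts L) := ⟨t1_le_ts L, le_rfl⟩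
  obtain ⟨k1, hk1⟩ := lemR_leaf L c1 (χ * ts L * L')
  obtain ⟨k2, hk2⟩ := lemR_leaf L 1 (χ * ts L)
  set k : ℕ := max k₀ (max k1 k2) with hk
  have hk0 : k₀ ≤ k := le_max_left _ _
  have hkk1 : k1 ≤ k := (le_max_left _ _).trans (le_max_right _ _)
  have hkk2 : k2 ≤ k := (le_max_right _ _).trans (le_max_right _ _)
  obtain ⟨cT, hcT, hT⟩ := conjT_CkB L (k + 1) (ts L)
  obtain ⟨Cw, hCw⟩ := H.wt_CkB x₀ (k + 1)
  obtain ⟨cw, hcw, hcw'⟩ := H.wt_low x₀
  refine ⟨k, L', ⟨{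
    w := wt A x₀
    B := Bop
    hB := fun l hl => Bop_ne hl
    G_eq := fun _ _ _ => rfl
    Mw := fun _ => Cw
    w_bd := hCw
    cw := cw
    cw_pos := hcw
    w_ge := hcw'
    pq := ?_
    fhyp := ⟨H.tauS_bd x₀, ?_, ?_, by omega⟩
    k_le := hk0
    L₁_ge := le_rfl
    hL := fun _ => ?_
    lemT := ?_
    bddP := fun _ => hg.bdd
    good := hg
    b_cont := H.b_cont
    G_other := fun i hi => absurd rfl hi
    small := fun i hi => absurd rfl hi
    open' := isOpen_ball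
    conv' := convex_ball _ _
    bdd' := isBounded_ball
    zero_mem := mem_ball_self one_pos
    f_zero := fun m => ?_
    dec := H.dec_leaf h₀
    rough := fun φ _ Nh hN => H.rough_leaf hr x₀ φ Nh hN }⟩⟩
  · show 2 * A.h / χ - (2 * A.h - 2 * χ) / χ = 2
    field_simp
    ring
  · obtain ⟨C, -, hC⟩ := smooth_bd (H.fsm h₀ 0) (k + 2)
    exact ⟨C, fun j hj u hu => hC j hj u (ball_subset_closedBall hu)⟩
  · have h1 := hk2 (k + 2) (by omega) ‖ContinuousLinearMap.id ℝ ℝ‖ ℝ x₀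
      (fun _ _ => ContinuousLinearMap.id ℝ ℝ) (fun _ _ _ => ContinuousLinearMap.norm_id_le)
      (fun m => ⟨contDiffOn_const, fun i _ u _ => ?_⟩)
    · exact h1
    · rcases Nat.eq_zero_or_pos i with h | h
      · subst h
        rw [norm_iteratedFDeriv_zero]
      · rw [iteratedFDeriv_const_of_ne (by omega)]
        simp
  · exact hL'
  · have h1 := hk1 (k + 1) (by omega) cT (E2 →L[ℝ] E2) x₀
      (fun m u => conjT (Sx L (fr L x₀ m) (ts L) u))
      (fun m u hu => (hS (fr L x₀ m) (ts L) hts).norm_le hu) (fun m => hT _ _ hts)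
    have h2 : Real.exp (χ * ts L * L') = Real.exp (χ * ts L) ^ L' := by
      rw [← Real.exp_nat_mul]; congr 1; ring
    rw [h2] at h1
    exact h1
  · show f (L.e (fr L x₀ m) 0) = f (L.ep x₀)
    rw [L.e_zero, ep_fr]

end Hyp

/-- THE LEVEL LEMMA (4.3) over `Leaf`: at a good level of `b` the function `f` decreases with the
exact rate `χ`. -/
theorem level {L : Leaf Γ X B} {A : Area L} {T : Tens L} {ξ : B} {f : B → ℝ} {χ : ℝ} {b : ℝ → ℝ}
    {V : X → E2 → E2 →L[ℝ] E2} (H : Hyp A T ξ f χ b V) {k₀ N : ℕ} (hr : Rough T k₀) {s₀ : ℝ}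
    (hg : Good b s₀ ((2 * A.h - 2 * χ) / χ) N k₀) : GoodLev L ξ f χ s₀ := by
  intro y hy hs
  obtain ⟨P, hP⟩ := hg
  set x₀ : X := L.φ (-L.t1) y with hx₀
  have h₀ : L.em x₀ = ξ := by rw [hx₀, L.em_φ, hy]
  have hep : L.ep x₀ = L.ep y := ep_φ L _ _
  rw [← hs, ← hep] at hP
  obtain ⟨k, L', ⟨Y⟩⟩ := H.exists_lvl h₀ hr hP
  obtain ⟨C, hC⟩ := Y.upper
  obtain ⟨c, hc, hc'⟩ := Y.lower
  set D := H.core h₀ with hD
  have hts := ts_pos L
  have hχ := H.χ_pos
  have ha : D.a = Real.exp (χ * ts L) := rfl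
  have hne : D.S'.Nonempty := ⟨0, Y.zero_mem⟩
  have hpow : ∀ n : ℕ, D.a ^ n = Real.exp (χ * (n * ts L)) := by
    intro n; rw [ha, ← Real.exp_nat_mul]; congr 1; ring
  -- frames
  have hfr : ∀ n : ℕ, fr L x₀ n = L.φ (n * ts L - L.t1) y := by
    intro n
    unfold fr
    rw [hx₀, ← L.φ_add]
    congr 1
  refine ⟨c / 2 * Real.exp (-χ * (2 * L.t1 + ts L)), by positivity,
    C * Real.exp (χ * ts L), fun t ht => ⟨fun u hu => ?_, ?_⟩⟩
  · -- upper bound
    set n : ℕ := ⌊t / ts L⌋₊ with hn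
    have hn1 : (n : ℝ) * ts L ≤ t := by
      have := Nat.floor_le (div_nonneg ht hts.le)
      rw [← hn] at this
      rwa [le_div_iff₀ hts] at this
    have hn2 : t < ((n : ℝ) + 1) * ts L := by
      have := Nat.lt_floor_add_one (t / ts L)
      rw [← hn] at this
      rwa [div_lt_iff₀ hts] at this
    have hφ : L.φ t y = L.φ (t + L.t1 - n * ts L) (fr L x₀ n) := by
      rw [hfr, ← L.φ_add]; congr 1; ring
    have hu3 : u ∈ closedBall (0 : E2) 3 := closedBall_subset_closedBall (by norm_num) hu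
    obtain ⟨v, hv, hve⟩ := L.engulf (fr L x₀ n) (t + L.t1 - n * ts L) (by linarith) ⟨u, hu3, rfl⟩
    rw [hφ, ← hve, ← hep]
    have h1 : |f (L.e (fr L x₀ n) v) - f (L.ep x₀)| ≤ D.osc n := D.le_osc n hv
    refine h1.trans ?_
    have h2 := hC n
    rw [hpow] at h2
    have h3 := Real.exp_pos (χ * (n * ts L))
    have h4 : D.osc n ≤ C * Real.exp (-(χ * (n * ts L))) := by
      rw [Real.exp_neg, ← div_eq_mul_inv, le_div_iff₀ h3, mul_comm]; exact h2
    have hC0 : 0 ≤ C := by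
      have := mul_nonneg h3.le (D.osc_nonneg n hne)
      linarith
    refine h4.trans ?_
    rw [mul_assoc, ← Real.exp_add]
    refine mul_le_mul_of_nonneg_left ?_ hC0
    apply Real.exp_le_exp.mpr
    nlinarith
  · -- lower bound
    set n : ℕ := ⌈(t + 2 * L.t1) / ts L⌉₊ with hn
    have ht1 := L.t1_pos
    have hn1 : t + 2 * L.t1 ≤ n * ts L := by
      have := Nat.le_ceil ((t + 2 * L.t1) / ts L)
      rw [← hn] at this
      rwa [div_le_iff₀ hts] at this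
    have hn2 : n * ts L < t + 2 * L.t1 + ts L := by
      have := Nat.ceil_lt_add_one (div_nonneg (by linarith : 0 ≤ t + 2 * L.t1) hts.le)
      rw [← hn] at this
      have h2 : (n : ℝ) * ts L < ((t + 2 * L.t1) / ts L + 1) * ts L := by gcongr
      have h3 : ((t + 2 * L.t1) / ts L + 1) * ts L = t + 2 * L.t1 + ts L := by
        field_simp
      linarith
    have h1 := hc' n
    rw [hpow] at h1
    have h3 := Real.exp_pos (χ * (n * ts L))
    have h4 : c * Real.exp (-(χ * (n * ts L))) ≤ D.osc n := by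
      rw [Real.exp_neg, ← div_eq_mul_inv, div_le_iff₀ h3, mul_comm]; linarith
    -- a point of the disc `n`
    obtain ⟨v, hv, hvl⟩ : ∃ v ∈ ball (0 : E2) 1, c / 2 * Real.exp (-(χ * (n * ts L))) ≤
        |f (L.e (fr L x₀ n) v) - f (L.ep x₀)| := by
      by_contra hcon
      push Not at hcon
      have h5 : D.osc n ≤ c / 2 * Real.exp (-(χ * (n * ts L))) :=
        D.osc_le n hne (fun v hv => (hcon v hv).le)
      have h6 := Real.exp_pos (-(χ * (n * ts L)))
      nlinarith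
    have hφ : fr L x₀ n = L.φ (n * ts L - L.t1 - t) (L.φ t y) := by
      rw [hfr, ← L.φ_add]; congr 1; ring
    have hv3 : v ∈ closedBall (0 : E2) 3 :=
      ball_subset_closedBall (ball_subset_ball (by norm_num) hv)
    obtain ⟨u, hu, hue⟩ := L.engulf (L.φ t y) (n * ts L - L.t1 - t) (by linarith) ⟨v, hv3, rfl⟩
    refine ⟨u, ball_subset_closedBall hu, ?_⟩
    rw [hue, ← hφ, ← hep]
    refine le_trans ?_ hvl
    rw [mul_assoc, ← Real.exp_add]
    refine mul_le_mul_of_nonneg_left ?_ (by positivity)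
    apply Real.exp_le_exp.mpr
    nlinarith

end Vale.Agent.P207.N3.H476
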