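import Vale.Agent.P207.N3.H476.LeafB

/-!
# P207, line N3, package P13 (4.1): START over `Leaf`, the last step

Input: `E^s = V + e^{2h lv} s⁻² ((b₀(f) x₁ + b₂(f)) (J∇f)² + b₁(f) (J∇x₁ ⊗ J∇f + J∇f ⊗ J∇x₁))` on the
discs `fr m` below which `x₁ ≥ c > 0`, `f = 0` at the end point.
-/

open Set Filter Topology Metric
open scoped ContDiff

set_option maxSynthPendingDepth 3
set_option linter.unusedSectionVars false

noncomputable section

namespace Vale.Agent.P207.N3.H476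

open Vale.Agent.P207.N3
open Vale.Agent.P207.N3.H545 (ts t1_le_ts ts_pos riesz gradient_eq_riesz)

variable {Γ X B : Type} [Group Γ] [MetricSpace X] [ProperSpace X] [MulAction Γ X]
  [IsIsometricSMul Γ X] [TopologicalSpace B] [CompactSpace B] [T2Space B] [MulAction Γ B]
  [ContinuousConstSMul Γ B] [MeasurableSpace B] [BorelSpace B]

/-- the form of `E^s` used in 4.1 -/
structure SHyp {L : Leaf Γ X B} (A : Area L) (T : Tens L) (x₀ : X) (X1 f : B → ℝ)
    (b : Fin 3 → ℝ → ℝ) (V : ℕ → E2 → E2 →L[ℝ] E2) : Prop where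
  X_smooth : L.SmoothOn (L.em x₀) X1
  f_smooth : L.SmoothOn (L.em x₀) f
  f_zero : f (L.ep x₀) = 0
  X_low : ∃ c > 0, ∀ u ∈ ball (0 : E2) 2, c ≤ X1 (L.e x₀ u)
  b_cont : ∀ i, Continuous (b i)
  V_smooth : ∀ m, ContDiffOn ℝ ∞ (V m) (ball 0 3)
  form : ∀ m, ∀ u ∈ ball (0 : E2) 3, T.N (fr L x₀ m) u = V m u +
    Real.exp (2 * A.h * L.lv (fr L x₀ m)) •
      ((b 0 (f (L.e (fr L x₀ m) u)) * X1 (L.e (fr L x₀ m) u)) • BB A f f x₀ m u +
        b 1 (f (L.e (fr L x₀ m) u)) • (BB A X1 f x₀ m u + BB A f X1 x₀ m u) +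
        b 2 (f (L.e (fr L x₀ m) u)) • BB A f f x₀ m u)

namespace SHyp

variable {L : Leaf Γ X B} {A : Area L} {T : Tens L} {x₀ : X} {X1 f : B → ℝ}
  {b : Fin 3 → ℝ → ℝ} {V : ℕ → E2 → E2 →L[ℝ] E2} (H : SHyp A T x₀ X1 f b V)

/-- the three tensors -/
def GS (A : Area L) (x₀ : X) (X1 f : B → ℝ) (i : Fin 3) (m : ℕ) (u : E2) : E2 →L[ℝ] E2 :=
  Real.exp (2 * A.h * L.lv x₀) • (if i = 0 then X1 (L.e (fr L x₀ m) u) • BB A f f x₀ m u
    else if i = 1 then BB A X1 f x₀ m u + BB A f X1 x₀ m u else BB A f f x₀ m u)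

include H

theorem GS_smooth (i : Fin 3) (m : ℕ) : ContDiffOn ℝ ∞ (GS A x₀ X1 f i m) (ball 0 3) := by
  have hf := H.f_smooth
  have hX := H.X_smooth
  have h1 := BB_smooth A hf hf rfl m
  have h2 := BB_smooth A hX hf rfl m
  have h3 := BB_smooth A hf hX rfl m
  have h4 := base_f_smooth hX (x₀ := x₀) rfl m
  suffices key : ContDiffOn ℝ ∞ (fun u => if i = 0 then X1 (L.e (fr L x₀ m) u) • BB A f f x₀ m u
    else if i = 1 then BB A X1 f x₀ m u + BB A f X1 x₀ m u else BB A f f x₀ m u) (ball 0 3) from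
    key.const_smul (Real.exp (2 * A.h * L.lv x₀))
  by_cases hi : i = 0
  · simp only [hi, if_true]
    exact h4.smul h1
  · by_cases hi1 : i = 1
    · simp only [hi1, if_true, one_ne_zero, if_false]
      exact h2.add h3
    · simp only [hi, hi1, if_false]
      exact h1

theorem GS_step (i : Fin 3) (m : ℕ) {u : E2} (hu : u ∈ ball (0 : E2) 3) :
    AA L x₀ m u (GS A x₀ X1 f i m (tauS L x₀ m u)) =
      Real.exp (2 * A.h * ts L) • GS A x₀ X1 f i (m + 1) u := by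
  have hf := H.f_smooth
  have hX := H.X_smooth
  have h1 := BB_step A hf hf rfl m hu
  have h2 := BB_step A hX hf rfl m hu
  have h3 := BB_step A hf hX rfl m hu
  have h4 := base_f_step (L := L) X1 x₀ m (ball_subset_closedBall hu)
  unfold GS
  rw [map_smul]
  by_cases hi : i = 0
  · simp only [hi, if_true]
    rw [map_smul, h1, ← h4, smul_comm (X1 _), smul_comm]
  · by_cases hi1 : i = 1
    · simp only [hi1, if_true, one_ne_zero, if_false]
      rw [map_add, h2, h3, ← smul_add, smul_comm]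
    · simp only [hi, hi1, if_false]
      rw [h1, smul_comm]

theorem form' {r : ℝ} (hr : 0 < r) (m : ℕ) {u : E2} (hu : u ∈ ball (0 : E2) 3) :
    T.N (fr L x₀ m) u = V m u + (Real.exp (2 * A.h / (r + 2) * ts L) ^ (r + 2)) ^ m •
      ∑ i, b i (f (L.e (fr L x₀ m) u)) • GS A x₀ X1 f i m u := by
  rw [H.form m u hu, Fin.sum_univ_three]
  congr 1
  have e1 : (Real.exp (2 * A.h / (r + 2) * ts L) ^ (r + 2)) ^ m =
      Real.exp (2 * A.h * (m * ts L)) := by
    rw [← Real.exp_mul, ← Real.exp_nat_mul]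
    congr 1
    have : r + 2 ≠ 0 := by linarith
    field_simp
  have e2 : Real.exp (2 * A.h * L.lv (fr L x₀ m)) =
      Real.exp (2 * A.h * (m * ts L)) * Real.exp (2 * A.h * L.lv x₀) := by
    rw [← Real.exp_add, lv_fr]; congr 1; ring
  rw [e1, e2, mul_smul]
  congr 1
  simp only [GS, if_true, one_ne_zero, if_false]
  have h20 : (2 : Fin 3) ≠ 0 := by decide
  have h21 : (2 : Fin 3) ≠ 1 := by decide
  simp only [h20, h21, if_false]
  module

/-- a bound for the values on the first disc -/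
theorem exists_C₀ : ∃ C, 1 ≤ C ∧ ∀ u ∈ ball (0 : E2) 2, |f (L.e (fr L x₀ 0) u) - 0| ≤ C := by
  obtain ⟨C, hC0, hC⟩ := smooth_bd (base_f_smooth H.f_smooth (x₀ := x₀) rfl 0) 0
  refine ⟨1 + C, by linarith, fun u hu => ?_⟩
  have h1 := hC 0 le_rfl u (ball_subset_closedBall hu)
  rw [norm_iteratedFDeriv_zero, Real.norm_eq_abs] at h1
  rw [sub_zero]
  linarith

/-- the exponents -/
def qq (r q₂ : ℝ) (i : Fin 3) : ℝ := if i = 0 then r else if i = 1 then r + 1 else q₂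

/-- the sequence of discs -/
def core {r q₂ : ℝ} (hr : 0 < r) (hq₂ : 0 ≤ q₂) : Core (Fin 3) E2 (E2 →L[ℝ] E2) where
  S := ball 0 2
  S' := ball 0 1
  openS := isOpen_ball
  sub := ball_subset_ball (by norm_num)
  τ := tauS L x₀
  maps := fun m u hu => base_maps L x₀ m (ball_subset_closedBall (ball_subset_ball (by norm_num) hu))
  A := AA L x₀
  N := fun m => T.N (fr L x₀ m)
  R := RR T x₀
  rel := fun m u hu => base_rel T x₀ m (ball_subset_ball (by norm_num) hu)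
  R_smooth := fun m k => by
    obtain ⟨c, hc⟩ := RR_CkB T k
    exact (hc x₀ m).1
  R_bd := fun k => by
    obtain ⟨c, hc⟩ := RR_CkB T k
    exact ⟨c, fun m => (hc x₀ m).2⟩
  N_bd := by
    obtain ⟨c, hc⟩ := base_N_bd T
    exact ⟨c, fun m => hc x₀ m⟩
  p := r + 2
  p_pos := by linarith
  a := Real.exp (2 * A.h / (r + 2) * ts L)
  a_lt := by
    rw [Real.one_lt_exp_iff]
    have := A.h_pos
    have := ts_pos L
    positivity
  f := fun m u => f (L.e (fr L x₀ m) u)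
  s₀ := 0
  f_comp := fun m u hu => base_f_step f x₀ m
    (ball_subset_closedBall (ball_subset_ball (by norm_num) hu))
  f_smooth := fun m k => ((base_f_smooth H.f_smooth (x₀ := x₀) rfl m).mono
    (ball_subset_ball (by norm_num))).of_le (by exact_mod_cast le_top)
  C₀ := Classical.choose H.exists_C₀
  C₀_ge := (Classical.choose_spec H.exists_C₀).1
  f_bd := (Classical.choose_spec H.exists_C₀).2
  b := b
  b_bd := fun i => by
    obtain ⟨C, hC⟩ := (isCompact_closedBall (0 : ℝ)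
      (Classical.choose H.exists_C₀)).exists_bound_of_continuousOn (H.b_cont i).continuousOn
    exact ⟨C, fun s hs => hC s (by rw [mem_closedBall, Real.dist_eq]; exact hs)⟩
  q := qq r q₂
  q_nonneg := fun i => by
    unfold qq; split_ifs <;> linarith
  G := GS A x₀ X1 f
  G_smooth := fun i m k => ((H.GS_smooth i m).mono (ball_subset_ball (by norm_num))).of_le
    (by exact_mod_cast le_top)
  G_rel := fun i m u hu => by
    rw [H.GS_step i m (ball_subset_ball (by norm_num) hu), ← Real.exp_mul]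
    congr 2
    have : r + 2 ≠ 0 := by linarith
    field_simp
  V_smooth := fun m k => by
    have h1 : ContDiffOn ℝ k (V m) (ball 0 2) :=
      ((H.V_smooth m).mono (ball_subset_ball (by norm_num))).of_le (by exact_mod_cast le_top)
    refine h1.congr fun u hu => ?_
    rw [H.form' hr m (ball_subset_ball (by norm_num) hu), add_sub_cancel_right]
  V_bd := fun k => by
    obtain ⟨C, -, hC⟩ := smooth_bd (H.V_smooth 0) k
    refine ⟨C, fun j hj u hu => ?_⟩
    have h1 : (fun u => T.N (fr L x₀ 0) u - ∑ i, b i (f (L.e (fr L x₀ 0) u)) •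
        GS A x₀ X1 f i 0 u) =ᶠ[𝓝 u] V 0 := by
      filter_upwards [isOpen_ball.mem_nhds hu] with v hv
      rw [H.form' hr 0 (ball_subset_ball (by norm_num) hv), pow_zero, one_smul,
        add_sub_cancel_right]
    rw [(h1.iteratedFDeriv ℝ j).self_of_nhds]
    exact hC j hj u (ball_subset_closedBall hu)
  G_bd := fun i l k => by
    have h1 : ContDiffOn ℝ ∞ (fun u => (f (L.e (fr L x₀ 0) u) - 0) ^ l •
        GS A x₀ X1 f i 0 u) (ball 0 3) :=
      (((base_f_smooth H.f_smooth (x₀ := x₀) rfl 0).sub contDiffOn_const).pow l).smul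
        (H.GS_smooth i 0)
    obtain ⟨C, -, hC⟩ := smooth_bd h1 k
    exact ⟨C, fun j hj u hu => hC j hj u (ball_subset_closedBall hu)⟩

/-- bounds of the functions on the discs, uniform in the disc -/
theorem fun_CkB {g : B → ℝ} (hg : L.SmoothOn (L.em x₀) g) (k : ℕ) :
    ∃ C, ∀ m, H545.CkB k 2 C (fun u => g (L.e (fr L x₀ m) u)) := by
  obtain ⟨C, hC0, hC⟩ := smooth_bd (base_f_smooth hg (x₀ := x₀) rfl 0) k
  have h0 : H545.CkB k 2 C (fun u => g (L.e (fr L x₀ 0) u)) :=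
    ⟨((base_f_smooth hg (x₀ := x₀) rfl 0).mono (ball_subset_ball (by norm_num))).of_le
      (by exact_mod_cast le_top), fun j hj u hu => hC j hj u (ball_subset_closedBall hu)⟩
  obtain ⟨K, hK0, hK⟩ := H545.exists_CkB_comp k (H545.cs L k)
  refine ⟨max C (K * C), fun m => ?_⟩
  rcases Nat.eq_zero_or_pos m with hm | hm
  · rw [hm]
    exact h0.mono le_rfl le_rfl (le_max_left _ _)
  have ht : L.t1 ≤ m * ts L := by
    have h1 : (1 : ℝ) ≤ m := by exact_mod_cast hm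
    have := ts_pos L
    nlinarith [t1_le_ts L]
  have h1 : ∀ u ∈ ball (0 : E2) 2, L.τ (L.φ (m * ts L) x₀) x₀ u ∈ ball (0 : E2) 2 := by
    intro u hu
    exact ball_subset_ball (by norm_num) (H545.tau_step_mem L ht x₀
      (ball_subset_closedBall (ball_subset_ball (by norm_num) hu)))
  have h2 := hK E2 E2 ℝ (fun u => g (L.e (fr L x₀ 0) u)) (L.τ (L.φ (m * ts L) x₀) x₀) 2 2 C h0 h1
    (((H545.tau_step_smooth L ht x₀).mono (ball_subset_ball (by norm_num))).of_le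
      (by exact_mod_cast le_top))
    (fun i hi hik u hu => (H545.norm_iteratedFDeriv_tau_step_le L hi ht x₀
      (ball_subset_ball (by norm_num) hu)).trans (H545.cc_le_cs L hik))
  refine (H545.CkB_congr h2 fun u hu => ?_).mono le_rfl le_rfl (le_max_right _ _)
  have h3 := H545.e_tau_step L ht x₀ (ball_subset_closedBall (ball_subset_ball
    (by norm_num) hu) : u ∈ closedBall (0 : E2) 3)
  rw [fr_zero, h3]
  rfl

/-- the differentials of the functions tend to `0` -/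
theorem fun_df {g : B → ℝ} (hg : L.SmoothOn (L.em x₀) g) : ∀ ε > 0, ∃ n₀ : ℕ, ∀ n ≥ n₀,
    ∀ u ∈ ball (0 : E2) 2, ‖fderiv ℝ (fun u => g (L.e (fr L x₀ n) u)) u‖ ≤ ε := by
  intro ε hε
  obtain ⟨C, hC0, hC⟩ := smooth_bd (base_f_smooth hg (x₀ := x₀) rfl 0) 1
  have hχ := L.χ_pos
  have hlim : Tendsto (fun n : ℕ => C * (H545.cc L 1 * Real.exp (-L.χ * (n * ts L)))) atTop
      (𝓝 0) := by
    have h1 : Tendsto (fun n : ℕ => L.χ * ((n : ℝ) * ts L)) atTop atTop :=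
      (tendsto_natCast_atTop_atTop.atTop_mul_const (ts_pos L)).const_mul_atTop hχ
    have h2 := ((Real.tendsto_exp_neg_atTop_nhds_zero.comp h1).const_mul
      (H545.cc L 1)).const_mul C
    rw [mul_zero, mul_zero] at h2
    refine h2.congr fun n => ?_
    simp only [Function.comp]
    congr 3
    ring
  obtain ⟨n₀, hn₀⟩ := eventually_atTop.mp (hlim.eventually (gt_mem_nhds hε))
  refine ⟨max n₀ 1, fun n hn u hu => ?_⟩
  have hn1 : 1 ≤ n := (le_max_right _ _).trans hn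
  have ht : L.t1 ≤ n * ts L := by
    have h1 : (1 : ℝ) ≤ n := by exact_mod_cast hn1
    have := ts_pos L
    nlinarith [t1_le_ts L]
  have hu3 : u ∈ ball (0 : E2) 3 := ball_subset_ball (by norm_num) hu
  have h13 : ball (0 : E2) 1 ⊆ ball 0 3 := ball_subset_ball (by norm_num)
  have hτ1 := H545.tau_step_mem L ht x₀ (ball_subset_closedBall hu3)
  have h1 : (fun u => g (L.e (fr L x₀ n) u)) =ᶠ[𝓝 u]
      (fun u => g (L.e (fr L x₀ 0) u)) ∘ (L.τ (L.φ (n * ts L) x₀) x₀) := by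
    filter_upwards [isOpen_ball.mem_nhds hu3] with v hv
    have h3 := H545.e_tau_step L ht x₀ (ball_subset_closedBall hv)
    simp only [Function.comp]
    rw [fr_zero, h3]
    rfl
  rw [h1.fderiv_eq]
  have hd1 : DifferentiableAt ℝ (fun u => g (L.e (fr L x₀ 0) u))
      (L.τ (L.φ (n * ts L) x₀) x₀ u) :=
    ((base_f_smooth hg (x₀ := x₀) rfl 0).contDiffAt
      (isOpen_ball.mem_nhds (h13 hτ1))).differentiableAt (by simp)
  have hd2 : DifferentiableAt ℝ (L.τ (L.φ (n * ts L) x₀) x₀) u :=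
    ((H545.tau_step_smooth L ht x₀).contDiffAt (isOpen_ball.mem_nhds hu3)).differentiableAt
      (by simp)
  rw [fderiv_comp u hd1 hd2]
  have h4 : ‖fderiv ℝ (fun u => g (L.e (fr L x₀ 0) u)) (L.τ (L.φ (n * ts L) x₀) x₀ u)‖ ≤ C := by
    have := hC 1 le_rfl _ (ball_subset_closedBall (ball_subset_ball (by norm_num) hτ1))
    rwa [norm_iteratedFDeriv_one] at this
  have h5 : ‖fderiv ℝ (L.τ (L.φ (n * ts L) x₀) x₀) u‖ ≤
      H545.cc L 1 * Real.exp (-L.χ * (n * ts L)) := by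
    have := H545.contract_cc L le_rfl ht x₀ hu3
    rwa [norm_iteratedFDeriv_one] at this
  refine (ContinuousLinearMap.opNorm_comp_le _ _).trans ((mul_le_mul h4 h5 (norm_nonneg _)
    hC0).trans (hn₀ n ((le_max_left _ _).trans hn)).le)

theorem fhyp {r q₂ : ℝ} (hr : 0 < r) (hq₂ : 0 ≤ q₂) :
    ∃ k₁ : ℕ, ∀ k ≥ k₁, 1 ≤ k → (H.core hr hq₂).FHyp k := by
  obtain ⟨k₁, hk₁⟩ := lemR_id L (2 * A.h / (r + 2) * ts L)
  refine ⟨k₁, fun k hk h1 => ⟨base_bd L x₀, ?_, hk₁ k hk ℝ x₀, h1⟩⟩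
  obtain ⟨C, -, hC⟩ := smooth_bd (base_f_smooth H.f_smooth (x₀ := x₀) rfl 0) k
  exact ⟨C, fun j hj u hu => hC j hj u (ball_subset_closedBall hu)⟩

/-- the main weight -/
def wS (A : Area L) (x₀ : X) (X1 : B → ℝ) (m : ℕ) (u : E2) : ℝ :=
  Real.exp (2 * A.h * L.lv x₀) * (X1 (L.e (fr L x₀ m) u) * ww A x₀ m u)

theorem wS_CkB (k : ℕ) : ∃ C, ∀ m, H828.CkB k (fun _ => C) (ball (0 : E2) 2) (wS A x₀ X1 m) := by
  obtain ⟨C1, hC1⟩ := H.fun_CkB H.X_smooth k
  obtain ⟨C2, hC20, hC2⟩ := ww_CkB A k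
  have hC10 : 0 ≤ C1 := (norm_nonneg _).trans ((hC1 0).norm_le (mem_ball_self two_pos))
  refine ⟨|Real.exp (2 * A.h * L.lv x₀)| *
    (‖ContinuousLinearMap.mul ℝ ℝ‖ * (2 ^ k * (C1 * C2))), fun m => ?_⟩
  have h1 := H545.CkB_bilin (ContinuousLinearMap.mul ℝ ℝ) (hC1 m) (hC2 x₀ m) hC10 hC20
  refine ⟨?_, fun j hj u hu => ?_⟩
  · exact contDiffOn_const.mul h1.1
  · exact iter_smul_le ((h1.contDiffAt hu).of_le (by exact_mod_cast hj))
      (Real.exp (2 * A.h * L.lv x₀)) (h1.2 j hj u hu)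

theorem X_low' : ∃ c > 0, ∀ m, ∀ u ∈ ball (0 : E2) 2, c ≤ X1 (L.e (fr L x₀ m) u) := by
  obtain ⟨c, hc, h⟩ := H.X_low
  refine ⟨c, hc, fun m => ?_⟩
  induction m with
  | zero => rw [fr_zero]; exact h
  | succ m ih =>
    intro u hu
    rw [base_f_step X1 x₀ m (ball_subset_closedBall (ball_subset_ball (by norm_num) hu))]
    exact ih _ (ball_subset_ball (by norm_num) (base_maps L x₀ m
      (ball_subset_closedBall (ball_subset_ball (by norm_num) hu))))

theorem wS_low : ∃ c > 0, ∀ m, ∀ u ∈ ball (0 : E2) 2, c ≤ wS A x₀ X1 m u := by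
  obtain ⟨c1, hc1, h1⟩ := H.X_low'
  obtain ⟨c2, hc2, h2⟩ := ww_low A
  refine ⟨Real.exp (2 * A.h * L.lv x₀) * (c1 * c2), by positivity, fun m u hu => ?_⟩
  unfold wS
  have h3 := h1 m u hu
  have h4 := h2 x₀ m u hu
  have h5 : 0 ≤ X1 (L.e (fr L x₀ m) u) := hc1.le.trans h3
  gcongr

theorem GS_zero (m : ℕ) (u : E2) : GS A x₀ X1 f 0 m u = wS A x₀ X1 m u •
    Bop (fderiv ℝ (fun u => f (L.e (fr L x₀ m) u)) u)
      (fderiv ℝ (fun u => f (L.e (fr L x₀ m) u)) u) := by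
  unfold GS wS BB
  simp only [if_true]
  rw [smul_smul, smul_smul, mul_assoc]

/-- bounds of the other tensors -/
theorem GS_le : ∃ C, 0 ≤ C ∧ ∀ m, ∀ u ∈ ball (0 : E2) 2,
    ‖GS A x₀ X1 f 1 m u‖ ≤ C * ‖fderiv ℝ (fun u => X1 (L.e (fr L x₀ m) u)) u‖ *
      ‖fderiv ℝ (fun u => f (L.e (fr L x₀ m) u)) u‖ ∧
    ‖GS A x₀ X1 f 2 m u‖ ≤ C * ‖fderiv ℝ (fun u => f (L.e (fr L x₀ m) u)) u‖ *
      ‖fderiv ℝ (fun u => f (L.e (fr L x₀ m) u)) u‖ := by
  obtain ⟨C2, hC20, hC2⟩ := ww_CkB A 0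
  have h20 : (2 : Fin 3) ≠ 0 := by decide
  have h21 : (2 : Fin 3) ≠ 1 := by decide
  refine ⟨Real.exp (2 * A.h * L.lv x₀) * (2 * (C2 * ‖Bop‖)), by positivity, fun m u hu => ?_⟩
  have hw : |ww A x₀ m u| ≤ C2 := (hC2 x₀ m).norm_le hu
  have hBB : ∀ g g' : B → ℝ, ‖BB A g g' x₀ m u‖ ≤ C2 * ‖Bop‖ *
      ‖fderiv ℝ (fun u => g (L.e (fr L x₀ m) u)) u‖ *
      ‖fderiv ℝ (fun u => g' (L.e (fr L x₀ m) u)) u‖ := by
    intro g g'
    unfold BB
    rw [norm_smul, Real.norm_eq_abs]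
    calc _ ≤ C2 * (‖Bop‖ * ‖fderiv ℝ (fun u => g (L.e (fr L x₀ m) u)) u‖ *
          ‖fderiv ℝ (fun u => g' (L.e (fr L x₀ m) u)) u‖) :=
          mul_le_mul hw (Bop.le_opNorm₂ _ _) (norm_nonneg _) hC20
      _ = _ := by ring
  have hexp := Real.exp_pos (2 * A.h * L.lv x₀)
  constructor
  · unfold GS
    simp only [if_true, one_ne_zero, if_false]
    rw [norm_smul, Real.norm_eq_abs, abs_of_pos hexp]
    have h1 := hBB X1 f
    have h2 := hBB f X1
    calc _ ≤ Real.exp (2 * A.h * L.lv x₀) * (C2 * ‖Bop‖ *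
          ‖fderiv ℝ (fun u => X1 (L.e (fr L x₀ m) u)) u‖ *
          ‖fderiv ℝ (fun u => f (L.e (fr L x₀ m) u)) u‖ + C2 * ‖Bop‖ *
          ‖fderiv ℝ (fun u => f (L.e (fr L x₀ m) u)) u‖ *
          ‖fderiv ℝ (fun u => X1 (L.e (fr L x₀ m) u)) u‖) :=
          mul_le_mul_of_nonneg_left ((norm_add_le _ _).trans (add_le_add h1 h2)) hexp.le
      _ = _ := by ring
  · unfold GS
    simp only [h20, h21, if_false]
    rw [norm_smul, Real.norm_eq_abs, abs_of_pos hexp]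
    have h1 := hBB f f
    have h2 : 0 ≤ C2 * ‖Bop‖ * ‖fderiv ℝ (fun u => f (L.e (fr L x₀ m) u)) u‖ *
      ‖fderiv ℝ (fun u => f (L.e (fr L x₀ m) u)) u‖ := by positivity
    calc _ ≤ Real.exp (2 * A.h * L.lv x₀) * (C2 * ‖Bop‖ *
          ‖fderiv ℝ (fun u => f (L.e (fr L x₀ m) u)) u‖ *
          ‖fderiv ℝ (fun u => f (L.e (fr L x₀ m) u)) u‖) :=
          mul_le_mul_of_nonneg_left h1 hexp.le
      _ ≤ _ := by nlinarith

/-- existence of the data of the level lemma -/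
theorem exists_lvl {r q₂ : ℝ} (hr : 0 < r) (hq₂ : r < q₂) {k₀ N : ℕ} (hR : Rough T k₀)
    {P : Fin 3 → ℝ → Fin N → ℝ} (hg : GoodP (b 0) 0 r N k₀ (P 0))
    (hb1 : BddP (b 1) 0 (r + 1) N (P 1)) (hb2 : BddP (b 2) 0 q₂ N (P 2)) (k' : ℕ)
    (hq₂' : 0 ≤ q₂) :
    ∃ k L' : ℕ, k' ≤ k ∧ ∃ Y : Lvl (H.core hr hq₂') 0 k₀ k N 2 L' P, Y.B = Bop := by
  have h20 : (2 : Fin 3) ≠ 0 := by decide
  have h21 : (2 : Fin 3) ≠ 1 := by decide
  obtain ⟨L', hL'⟩ := exists_nat_ge (r + 2 + (r + 1 + q₂) + N + (2 : ℕ) + 1)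
  obtain ⟨k1, hk1⟩ := lemR_AA L (2 * A.h / (r + 2) * ts L * L')
  obtain ⟨k2, hk2⟩ := H.fhyp hr hq₂'
  set k : ℕ := max (max k₀ k') (max k1 k2) with hk
  have hk0 : k₀ ≤ k := (le_max_left _ _).trans (le_max_left _ _)
  have hkk' : k' ≤ k := (le_max_right _ _).trans (le_max_left _ _)
  have hkk1 : k1 ≤ k := (le_max_left _ _).trans (le_max_right _ _)
  have hkk2 : k2 ≤ k := (le_max_right _ _).trans (le_max_right _ _)
  obtain ⟨Cw, hCw⟩ := H.wS_CkB (k + 1)
  obtain ⟨cw, hcw, hcw'⟩ := H.wS_low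
  obtain ⟨CG, hCG0, hCG⟩ := H.GS_le
  have hfh := hk2 (k + 2) (by omega) (by omega)
  refine ⟨k, L', hkk', {
    w := wS A x₀ X1
    B := Bop
    hB := fun l hl => Bop_ne hl
    G_eq := fun m u _ => H.GS_zero m u
    Mw := fun _ => Cw
    w_bd := hCw
    cw := cw
    cw_pos := hcw
    w_ge := hcw'
    pq := ?_
    fhyp := hfh
    k_le := hk0
    L₁_ge := le_rfl
    hL := fun i => ?_
    lemT := ?_
    bddP := fun i => ?_
    good := hg
    b_cont := H.b_cont 0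
    G_other := fun i hi K => ?_
    small := fun i hi K n ρ hA hρ hF u hu => ?_
    open' := isOpen_ball
    conv' := convex_ball _ _
    bdd' := isBounded_ball
    zero_mem := mem_ball_self one_pos
    f_zero := fun m => ?_
    dec := fun ε hε => ?_
    rough := fun φ _ Nh hN => base_rough hR x₀ φ Nh hN }, rfl⟩
  · show r + 2 - qq r q₂ 0 = 2
    simp [qq]
  · show r + 2 + qq r q₂ i + N + (2 : ℕ) + 1 ≤ L'
    have : qq r q₂ i ≤ r + 1 + q₂ := by
      unfold qq; split_ifs <;> linarith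
    linarith
  · have h1 := hk1 (k + 1) (by omega) x₀
    have h2 : Real.exp (2 * A.h / (r + 2) * ts L * L') =
        Real.exp (2 * A.h / (r + 2) * ts L) ^ L' := by
      rw [← Real.exp_nat_mul]; congr 1; ring
    rw [h2] at h1
    exact h1
  · show BddP (b i) 0 (qq r q₂ i) N (P i)
    fin_cases i
    · simpa [qq] using hg.bdd
    · simpa [qq] using hb1
    · simpa [qq, h20, h21] using hb2
  · -- `G_other`
    obtain ⟨C, hC0, hC⟩ := Core.df_est hfh (K := K)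
    obtain ⟨CX, hCX⟩ := H.fun_CkB H.X_smooth 1
    have hCX' : ∀ m, ∀ u ∈ ball (0 : E2) 2,
        ‖fderiv ℝ (fun u => X1 (L.e (fr L x₀ m) u)) u‖ ≤ |CX| := by
      intro m u hu
      have := (hCX m).2 1 le_rfl u hu
      rw [norm_iteratedFDeriv_one] at this
      exact this.trans (le_abs_self _)
    have ha1 : 1 ≤ (H.core hr hq₂').a := (H.core hr hq₂').a_lt.le
    have ha0 : 0 < (H.core hr hq₂').a := one_pos.trans_le ha1
    refine ⟨CG * |CX| * C + CG * C * C, by positivity, fun n ρ hA m hm u hu => ?_⟩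
    obtain ⟨h1, h2⟩ := hCG m u hu
    have h3 : ‖fderiv ℝ (fun u => f (L.e (fr L x₀ m) u)) u‖ ≤
      C * ρ * (H.core hr hq₂').a ^ (n - m) := hC n ρ hA m hm u hu
    have hρ := hA.pos
    have hρ1 := hA.le_one
    have h4 := hCX' m u hu
    have h5 : (H.core hr hq₂').a ^ (n - m) ≤ ((H.core hr hq₂').a ^ 2) ^ (n - m) := by
      rw [← pow_mul]
      exact pow_le_pow_right₀ ha1 (by omega)
    have hp0 : 0 < (H.core hr hq₂').a ^ (n - m) := pow_pos ha0 _
    have h7 : C * ρ * (H.core hr hq₂').a ^ (n - m) * (C * ρ * (H.core hr hq₂').a ^ (n - m)) =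
        C * C * ρ ^ (2 : ℝ) * ((H.core hr hq₂').a ^ 2) ^ (n - m) := by
      rw [Real.rpow_two, ← pow_mul, mul_comm 2, pow_mul]; ring
    fin_cases i
    · exact absurd rfl hi
    · show ‖GS A x₀ X1 f 1 m u‖ ≤ _ * ρ ^ (r + 2 - qq r q₂ 1) * _
      have e1 : r + 2 - qq r q₂ 1 = 1 := by simp [qq]; ring
      rw [e1, Real.rpow_one]
      calc ‖GS A x₀ X1 f 1 m u‖ ≤ CG * |CX| * (C * ρ * (H.core hr hq₂').a ^ (n - m)) := by
            refine h1.trans ?_
            gcongr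
        _ ≤ CG * |CX| * (C * ρ * ((H.core hr hq₂').a ^ 2) ^ (n - m)) := by gcongr
        _ ≤ _ := by
            have : 0 ≤ CG * C * C * ρ * ((H.core hr hq₂').a ^ 2) ^ (n - m) := by positivity
            nlinarith
    · show ‖GS A x₀ X1 f 2 m u‖ ≤ _ * ρ ^ (r + 2 - qq r q₂ 2) * _
      have e1 : r + 2 - qq r q₂ 2 = r + 2 - q₂ := by simp [qq, h20, h21]
      rw [e1]
      have h8 : ρ ^ (2 : ℝ) ≤ ρ ^ (r + 2 - q₂) :=
        Real.rpow_le_rpow_of_exponent_ge hρ hρ1 (by linarith)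
      have h9 : 0 < ρ ^ (r + 2 - q₂) := Real.rpow_pos_of_pos hρ _
      calc ‖GS A x₀ X1 f 2 m u‖ ≤ CG * (C * ρ * (H.core hr hq₂').a ^ (n - m)) *
            (C * ρ * (H.core hr hq₂').a ^ (n - m)) := by
            refine h2.trans ?_
            gcongr
        _ = CG * (C * C * ρ ^ (2 : ℝ) * ((H.core hr hq₂').a ^ 2) ^ (n - m)) := by
            rw [mul_assoc, h7]
        _ ≤ CG * (C * C * ρ ^ (r + 2 - q₂) * ((H.core hr hq₂').a ^ 2) ^ (n - m)) := by gcongr
        _ ≤ _ := by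
            have : 0 ≤ CG * |CX| * C * ρ ^ (r + 2 - q₂) * ((H.core hr hq₂').a ^ 2) ^ (n - m) := by
              positivity
            nlinarith
  · -- `small`
    obtain ⟨C, hC0, hC⟩ := Core.df_est hfh (K := K)
    have hu2 : u ∈ ball (0 : E2) 2 := ball_subset_ball (by norm_num) hu
    have hdf : ∀ j, ‖fderiv ℝ (fun u => f (L.e (fr L x₀ (n j)) u)) u‖ ≤ C * ρ j := by
      intro j
      have := hC (n j) (ρ j) (hA j) (n j) le_rfl u hu2
      rw [Nat.sub_self, pow_zero, mul_one] at this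
      exact this
    have hn : Tendsto n atTop atTop := by
      have ha := (H.core hr hq₂').a_lt
      have h1 : Tendsto (fun j => (H.core hr hq₂').a ^ n j) atTop atTop := by
        have h2 : Tendsto (fun j => (ρ j)⁻¹) atTop atTop :=
          tendsto_inv_nhdsGT_zero.comp (tendsto_nhdsWithin_iff.mpr
            ⟨hρ, Eventually.of_forall fun j => (hA j).pos⟩)
        exact tendsto_atTop_mono (fun j => (hA j).inv_le) h2
      rw [tendsto_atTop_atTop]
      intro M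
      obtain ⟨j₀, hj₀⟩ := (tendsto_atTop_atTop.mp h1) ((H.core hr hq₂').a ^ M)
      exact ⟨j₀, fun j hj => (pow_le_pow_iff_right₀ ha).mp (hj₀ j hj)⟩
    rw [tendsto_zero_iff_norm_tendsto_zero]
    fin_cases i
    · exact absurd rfl hi
    · -- the mixed term
      have hX0 : Tendsto (fun j => ‖fderiv ℝ (fun u => X1 (L.e (fr L x₀ (n j)) u)) u‖) atTop
          (𝓝 0) := by
        rw [Metric.tendsto_atTop]
        intro ε hε
        obtain ⟨n₀, hn₀⟩ := H.fun_df H.X_smooth (ε / 2) (by linarith)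
        obtain ⟨j₀, hj₀⟩ := (tendsto_atTop_atTop.mp hn) n₀
        refine ⟨j₀, fun j hj => ?_⟩
        rw [Real.dist_eq, sub_zero, abs_of_nonneg (norm_nonneg _)]
        linarith [hn₀ (n j) (hj₀ j hj) u hu2]
      have hX1 := (hX0.const_mul (CG * C))
      rw [mul_zero] at hX1
      refine squeeze_zero (fun j => norm_nonneg _) (fun j => ?_) hX1
      show ‖ρ j ^ (-(r + 2 - qq r q₂ 1)) • GS A x₀ X1 f 1 (n j) u‖ ≤ _
      have e1 : -(r + 2 - qq r q₂ 1) = -1 := by simp [qq]; ring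
      have hρj := (hA j).pos
      rw [e1, Real.rpow_neg_one, norm_smul, norm_inv, Real.norm_eq_abs, abs_of_pos hρj]
      rw [inv_mul_le_iff₀ hρj]
      calc ‖GS A x₀ X1 f 1 (n j) u‖ ≤ CG * ‖fderiv ℝ (fun u => X1 (L.e (fr L x₀ (n j)) u)) u‖ *
            (C * ρ j) := (hCG (n j) u hu2).1.trans (by gcongr; exact hdf j)
        _ = _ := by ring
    · -- the small term
      have hρ2 : Tendsto (fun j => ρ j ^ (q₂ - r)) atTop (𝓝 0) := by
        have h1 := hρ.rpow_const (p := q₂ - r) (Or.inr (by linarith))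
        rwa [Real.zero_rpow (by linarith)] at h1
      have hX1 := (hρ2.const_mul (CG * C * C))
      rw [mul_zero] at hX1
      refine squeeze_zero (fun j => norm_nonneg _) (fun j => ?_) hX1
      show ‖ρ j ^ (-(r + 2 - qq r q₂ 2)) • GS A x₀ X1 f 2 (n j) u‖ ≤ _
      have e1 : -(r + 2 - qq r q₂ 2) = (q₂ - r) - 2 := by simp [qq, h20, h21]; ring
      have hρj := (hA j).pos
      rw [e1, norm_smul, Real.norm_eq_abs, abs_of_pos (Real.rpow_pos_of_pos hρj _),
        Real.rpow_sub hρj, Real.rpow_two]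
      have h1 : ‖GS A x₀ X1 f 2 (n j) u‖ ≤ CG * (C * ρ j) * (C * ρ j) :=
        (hCG (n j) u hu2).2.trans (by gcongr <;> exact hdf j)
      calc ρ j ^ (q₂ - r) / ρ j ^ 2 * ‖GS A x₀ X1 f 2 (n j) u‖
          ≤ ρ j ^ (q₂ - r) / ρ j ^ 2 * (CG * (C * ρ j) * (C * ρ j)) := by gcongr
        _ = _ := by field_simp
  · show f (L.e (fr L x₀ m) 0) = 0
    rw [L.e_zero, ep_fr, H.f_zero]
  · obtain ⟨n₀, hn₀⟩ := base_dec H.f_smooth (x₀ := x₀) rfl ε hε
    refine ⟨n₀, fun n hn u hu => ?_⟩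
    have := hn₀ n hn u hu
    rw [H.f_zero] at this
    exact this

/-- **4.1 (b)**: if `b 0` is rough, the limits of `e^{χT} f` give the start -/
theorem start_b {r q₂ : ℝ} (hr : 0 < r) (hq₂ : r < q₂) {k₀ N : ℕ} (hR : Rough T k₀)
    {P : Fin 3 → ℝ → Fin N → ℝ} (hg : GoodP (b 0) 0 r N k₀ (P 0))
    (hb1 : BddP (b 1) 0 (r + 1) N (P 1)) (hb2 : BddP (b 2) 0 q₂ N (P 2)) (k' : ℕ) :
    Start T k' := by
  obtain ⟨k, L', hk, Y, hYB⟩ := H.exists_lvl hr hq₂ hR hg hb1 hb2 k' (by linarith)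
  obtain ⟨c, hc, κ, hκ, φ, hφ, V', F, w, b', hV, hF, hw, -, -, -, -, ⟨u₀, hu₀, hd⟩, hlim⟩ :=
    Y.exists_lim (n := id) tendsto_id
  change ContDiffOn ℝ k V' (ball 0 1) at hV
  change ContDiffOn ℝ (k + 1 : ℕ) F (ball 0 1) at hF
  change u₀ ∈ ball (0 : E2) 1 at hu₀
  -- the limit frame
  obtain ⟨K, hK, hKΓ⟩ := L.cocompact
  choose g hgK using fun n => hKΓ (fr L x₀ (φ n))
  obtain ⟨w₀, hw₀, ψ, hψ, hlimw⟩ := hK.tendsto_subseq hgK
  have hN : ∀ u ∈ ball (0 : E2) 1, T.N w₀ u =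
      κ • (V' u + b' (F u) • w u • Y.B (fderiv ℝ F u) (fderiv ℝ F u)) := by
    intro u hu
    have hu3 : u ∈ ball (0 : E2) 3 := ball_subset_ball (by norm_num) hu
    have h1 : Tendsto (fun n => T.N (g (ψ n) • fr L x₀ (φ (ψ n))) u) atTop (𝓝 (T.N w₀ u)) := by
      have h2 : ContinuousWithinAt (fun p : X × E2 => T.N p.1 p.2) (univ ×ˢ ball 0 3) (w₀, u) :=
        T.N_cont (w₀, u) ⟨mem_univ _, hu3⟩
      have h3 : Tendsto (fun n => ((g (ψ n) • fr L x₀ (φ (ψ n)), u) : X × E2)) atTop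
          (𝓝[univ ×ˢ ball 0 3] (w₀, u)) := by
        refine tendsto_nhdsWithin_iff.mpr ⟨?_, Eventually.of_forall fun n => ⟨mem_univ _, hu3⟩⟩
        exact hlimw.prodMk_nhds tendsto_const_nhds
      exact h2.tendsto.comp h3
    have h4 : Tendsto (fun n => T.N (fr L x₀ (φ (ψ n))) u) atTop (𝓝 (T.N w₀ u)) := by
      refine h1.congr fun n => ?_
      exact T.N_smul _ _ _ hu3
    have h5 := (hlim u hu).comp hψ.tendsto_atTop
    exact tendsto_nhds_unique h4 h5
  -- the open set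
  have hdF : ContDiffOn ℝ k (fderiv ℝ F) (ball 0 1) :=
    hF.fderiv_of_isOpen isOpen_ball (by exact_mod_cast le_rfl)
  set O : Set E2 := ball 0 1 ∩ (fderiv ℝ F) ⁻¹' {0}ᶜ with hO
  have hOo : IsOpen O := hdF.continuousOn.isOpen_inter_preimage isOpen_ball
    isOpen_compl_singleton
  have hO1 : O ⊆ ball 0 1 := inter_subset_left
  refine ⟨w₀, O, F, hOo, hO1.trans (ball_subset_ball (by norm_num)), ⟨u₀, hu₀, hd⟩, ?_, ?_, ?_⟩
  · intro u hu h
    exact hu.2 (by simpa [gradient_eq_riesz] using h)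
  · exact (hF.mono hO1).of_le (by exact_mod_cast (by omega : k' ≤ k + 1))
  · have h1 : ContDiffOn ℝ k (fun u => κ • V' u (riesz (fderiv ℝ F u))) (ball 0 1) := by
      have h2 : ContDiffOn ℝ k (fun u => riesz (fderiv ℝ F u)) (ball 0 1) :=
        riesz.toContinuousLinearEquiv.contDiff.comp_contDiffOn hdF
      exact (hV.clm_apply h2).const_smul κ
    refine ((h1.mono hO1).of_le (by exact_mod_cast hk)).congr fun u hu => ?_
    rw [hN u (hO1 hu), gradient_eq_riesz, Function.comp, smul_apply, add_apply, smul_apply,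
      smul_apply, hYB, Bop_apply]
    have h3 : inner ℝ (J (riesz (fderiv ℝ F u))) (riesz (fderiv ℝ F u)) = (0 : ℝ) := by
      rw [PiLp.inner_apply, Fin.sum_univ_two]
      simp [J]
      ring
    rw [h3, zero_smul, smul_zero, smul_zero, add_zero]

end SHyp

theorem inner_J_self (v : E2) : inner ℝ (J v) v = (0 : ℝ) := by
  rw [PiLp.inner_apply, Fin.sum_univ_two]
  simp [J]
  ring

/-- `E^s(dF, ·)` is `C^k` if `F, X` are smooth and the coefficient of the mixed term is `C^k`. -/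
theorem dir_of_form {k : ℕ} {O : Set E2} (hO : IsOpen O) {F X1 : E2 → ℝ}
    (hF : ContDiffOn ℝ (k + 1 : ℕ) F O) (hX : ContDiffOn ℝ (k + 1 : ℕ) X1 O)
    {N V : E2 → E2 →L[ℝ] E2} (hV : ContDiffOn ℝ k V O) {α β : E2 → ℝ}
    (hβ : ContDiffOn ℝ k β O)
    (form : ∀ u ∈ O, N u = V u + α u • Bop (fderiv ℝ F u) (fderiv ℝ F u) +
      β u • (Bop (fderiv ℝ X1 u) (fderiv ℝ F u) + Bop (fderiv ℝ F u) (fderiv ℝ X1 u))) :
    ContDiffOn ℝ k (fun u => N u (gradient F u)) O := by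
  have hdF : ContDiffOn ℝ k (fun u => riesz (fderiv ℝ F u)) O :=
    riesz.toContinuousLinearEquiv.contDiff.comp_contDiffOn
      (hF.fderiv_of_isOpen hO (by exact_mod_cast le_rfl))
  have hdX : ContDiffOn ℝ k (fun u => riesz (fderiv ℝ X1 u)) O :=
    riesz.toContinuousLinearEquiv.contDiff.comp_contDiffOn
      (hX.fderiv_of_isOpen hO (by exact_mod_cast le_rfl))
  have hJF : ContDiffOn ℝ k (fun u => Jl (riesz (fderiv ℝ F u))) O :=
    Jl.contDiff.comp_contDiffOn hdF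
  have hJX : ContDiffOn ℝ k (fun u => Jl (riesz (fderiv ℝ X1 u))) O :=
    Jl.contDiff.comp_contDiffOn hdX
  have h1 : ContDiffOn ℝ k (fun u => V u (riesz (fderiv ℝ F u)) +
      (β u * inner ℝ (Jl (riesz (fderiv ℝ X1 u))) (riesz (fderiv ℝ F u))) •
        Jl (riesz (fderiv ℝ F u))) O :=
    (hV.clm_apply hdF).add ((hβ.mul (hJX.inner ℝ hdF)).smul hJF)
  refine h1.congr fun u hu => ?_
  rw [form u hu, gradient_eq_riesz]
  simp only [Function.comp, add_apply, smul_apply, Bop_apply, inner_J_self, zero_smul, smul_zero,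
    add_zero, Jl_apply, smul_smul]

/-- **4.1 (a)** -/
theorem start_a {L : Leaf Γ X B} {T : Tens L} {k : ℕ} {y : X} {O : Set E2} (hO : IsOpen O)
    (hO3 : O ⊆ ball 0 3) (hne : O.Nonempty) {F X1 : E2 → ℝ}
    (hF : ContDiffOn ℝ (k + 1 : ℕ) F O) (hX : ContDiffOn ℝ (k + 1 : ℕ) X1 O)
    (hdF : ∀ u ∈ O, fderiv ℝ F u ≠ 0) {V : E2 → E2 →L[ℝ] E2} (hV : ContDiffOn ℝ k V O)
    {α β : E2 → ℝ} (hβ : ContDiffOn ℝ k β O)
    (form : ∀ u ∈ O, T.N y u = V u + α u • Bop (fderiv ℝ F u) (fderiv ℝ F u) +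
      β u • (Bop (fderiv ℝ X1 u) (fderiv ℝ F u) + Bop (fderiv ℝ F u) (fderiv ℝ X1 u))) :
    Start T k := by
  refine ⟨y, O, F, hO, hO3, hne, fun u hu h => hdF u hu (by simpa [gradient_eq_riesz] using h),
    hF.of_le (by exact_mod_cast Nat.le_succ k), dir_of_form hO hF hX hV hβ form⟩

end Vale.Agent.P207.N3.H476
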