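import Vale.Agent.P207.N3.H476.StartLeaf
import Vale.Agent.P207.N3.H80.Form
import Vale.Agent.P207.N3.H80.BddRec

/-!
# P207, line N3, package P13 (4.1): from the local form of `E^s` at a closed orbit to the start
-/

open Set Filter Topology Metric
open scoped ContDiff

set_option maxSynthPendingDepth 3
set_option linter.unusedSectionVars false

noncomputable section

namespace Vale.Agent.P207.N3.H476

open Vale.Agent.P207.N3
open Vale.Agent.P207.N3.H545 (ts t1_le_ts ts_pos riesz)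
open Vale.Agent.P207.N3.H503 (SN Mz EE)
open Vale.Agent.P207.N3.H80 (XX cf cf_smooth Sg PQ Bq)
open Vale.Agent.P207.N3.H854 (dc)

variable {Γ X B : Type} [Group Γ] [MetricSpace X] [ProperSpace X] [MulAction Γ X]
  [IsIsometricSMul Γ X] [TopologicalSpace B] [CompactSpace B] [T2Space B] [MulAction Γ B]
  [ContinuousConstSMul Γ B]

theorem Bq_eq (l l' : E2 →L[ℝ] ℝ) : Bq l l' = Bop l' l := rfl

variable {L : Leaf Γ X B} {o : Orb L}

theorem fr_fr (y : X) (m n : ℕ) : fr L (fr L y m) n = fr L y (m + n) := by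
  unfold fr; rw [← L.φ_add]; congr 1; push_cast; ring

/-- a frame over a point of the leaf whose discs above are small -/
theorem exists_small [MeasurableSpace B] [BorelSpace B] (n : Nor L o) (v : E2) {ε : ℝ} (hε : 0 < ε) : ∃ x₀ : X, L.em x₀ = o.neg ∧
    n.x (L.ep x₀) = v ∧ ∀ m, ∀ u ∈ ball (0 : E2) 3, ∀ i,
      |n.x (L.e (fr L x₀ m) u) i - v i| ≤ ε := by
  obtain ⟨y, hy1, hy2, -⟩ := L.exists_frame o.neg (n.inv v) (n.inv_ne v).symm 0
  have hv : n.x (L.ep y) = v := by rw [hy2, n.inv_right]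
  have hdec : ∀ i, ∃ n₀ : ℕ, ∀ m ≥ n₀, ∀ u ∈ ball (0 : E2) 1,
      |n.x (L.e (fr L y m) u) i - v i| ≤ ε := by
    intro i
    obtain ⟨n₀, h⟩ := base_dec (cf_smooth n i) hy1 ε hε
    refine ⟨n₀, fun m hm u hu => ?_⟩
    have := h m hm u hu
    unfold cf at this
    rwa [hv] at this
  choose N₀ hN₀ using hdec
  refine ⟨fr L y (max (N₀ 0) (N₀ 1) + 1), by rw [em_fr, hy1], by rw [ep_fr, hv],
    fun m u hu i => ?_⟩
  rw [fr_fr]
  have e1 : max (N₀ 0) (N₀ 1) + 1 + m = (max (N₀ 0) (N₀ 1) + m) + 1 := by ring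
  rw [e1]
  have h1 := base_f_step (L := L) (fun η => n.x η) y (max (N₀ 0) (N₀ 1) + m)
    (ball_subset_closedBall hu)
  rw [h1]
  refine hN₀ i _ ?_ _ (base_maps L y _ (ball_subset_closedBall hu))
  fin_cases i
  · exact (le_max_left _ _).trans (Nat.le_add_right _ _)
  · exact (le_max_right _ _).trans (Nat.le_add_right _ _)

variable [MeasurableSpace B] [BorelSpace B] (A : Area L)

/-- the singular part of `E^s` in the discs `fr m` -/
theorem Sg_fr (n : Nor L o) (c₁ c₂ : E2 → ℝ) (x₀ : X) (m : ℕ) (u : E2) :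
    Sg A n c₁ c₂ (fr L x₀ m) u = Real.exp (2 * A.h * L.lv (fr L x₀ m)) •
      ((c₁ (n.x (L.e (fr L x₀ m) u)) * dc n A ^ 2) • BB A (cf n 1) (cf n 1) x₀ m u +
        (c₂ (n.x (L.e (fr L x₀ m) u)) * dc n A ^ 2) •
          (BB A (cf n 0) (cf n 1) x₀ m u + BB A (cf n 1) (cf n 0) x₀ m u)) := by
  have h1 : (Real.exp (A.h * L.lv (fr L x₀ m)) / A.s (fr L x₀ m) u) ^ 2 =
      Real.exp (2 * A.h * L.lv (fr L x₀ m)) *
        ((A.s (fr L x₀ m) u)⁻¹ * (A.s (fr L x₀ m) u)⁻¹) := by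
    have h2 : Real.exp (2 * A.h * L.lv (fr L x₀ m)) =
        Real.exp (A.h * L.lv (fr L x₀ m)) * Real.exp (A.h * L.lv (fr L x₀ m)) := by
      rw [← Real.exp_add]; congr 1; ring
    rw [h2, div_pow, sq, sq, div_eq_mul_inv, mul_inv]
  unfold Sg PQ BB ww H80.dF
  rw [h1, Bq_eq, Bq_eq, Bq_eq]
  module

/-- the form of `E^s` over a point near `β^+`, on the axis `x₁ = 0` -/
theorem exists_SHyp {T : Tens L} {n : Nor L o} {b : Fin 3 → ℝ → ℝ}
    (h : SN fun z => Mz T n z - ((b 0 (z 1) * z 0 + b 2 (z 1)) • EE 0 - b 1 (z 1) • XX))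
    (hb : ∀ i, Continuous (b i)) :
    ∃ (x₀ : X) (V : ℕ → E2 → E2 →L[ℝ] E2) (X1 : B → ℝ),
      SHyp A T x₀ X1 (cf n 1) ![b 0, b 1, fun s => dc n A ^ 2 * b 2 s] V := by
  obtain ⟨ρ, hρ, hform⟩ := H80.form A (c₁ := fun z => b 0 (z 1) * z 0 + b 2 (z 1))
    (c₂ := fun z => b 1 (z 1)) h
  obtain ⟨x₀, h₀, hv, hsm⟩ := exists_small n (!₂[ρ / 4, 0]) (ε := ρ / 8) (by positivity)
  have hdc := H854.dc_pos n A
  have hsmall : ∀ m, ∀ u ∈ ball (0 : E2) 3, ‖n.x (L.e (fr L x₀ m) u)‖ < ρ := by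
    intro m u hu
    have h0 := hsm m u hu 0
    have h1 := hsm m u hu 1
    simp only [Matrix.cons_val_zero, Matrix.cons_val_one] at h0 h1
    have e0 : |n.x (L.e (fr L x₀ m) u) 0| ≤ ρ / 4 + ρ / 8 := by
      have := abs_sub_abs_le_abs_sub (n.x (L.e (fr L x₀ m) u) 0) (ρ / 4)
      rw [abs_of_pos (show (0 : ℝ) < ρ / 4 by positivity)] at this
      linarith
    have e1 : |n.x (L.e (fr L x₀ m) u) 1| ≤ ρ / 8 := by
      rw [sub_zero] at h1; exact h1
    rw [EuclideanSpace.norm_eq, Fin.sum_univ_two]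
    rw [Real.sqrt_lt' hρ]
    rw [Real.norm_eq_abs, Real.norm_eq_abs]
    nlinarith [abs_nonneg (n.x (L.e (fr L x₀ m) u) 0), abs_nonneg (n.x (L.e (fr L x₀ m) u) 1)]
  refine ⟨x₀, fun m u => T.N (fr L x₀ m) u - Sg A n (fun z => b 0 (z 1) * z 0 + b 2 (z 1))
    (fun z => b 1 (z 1)) (fr L x₀ m) u, fun η => dc n A ^ 2 * cf n 0 η, ?_⟩
  have hX0 : L.SmoothOn (L.em x₀) (fun η => dc n A ^ 2 * cf n 0 η) := fun y hy =>
    contDiffOn_const.mul (cf_smooth n 0 y (hy.trans h₀))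
  refine ⟨hX0, fun y hy => cf_smooth n 1 y (hy.trans h₀), ?_, ?_, ?_, fun m => ?_,
    fun m u hu => ?_⟩
  · show n.x (L.ep x₀) 1 = 0
    rw [hv]; simp
  · refine ⟨dc n A ^ 2 * (ρ / 8), by positivity, fun u hu => ?_⟩
    have h0 := hsm 0 u (ball_subset_ball (by norm_num) hu) 0
    rw [fr_zero] at h0
    simp only [Matrix.cons_val_zero] at h0
    have h1 : ρ / 8 ≤ cf n 0 (L.e x₀ u) := by
      have := (abs_le.mp h0).1
      show ρ / 8 ≤ n.x (L.e x₀ u) 0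
      linarith
    exact mul_le_mul_of_nonneg_left h1 (by positivity)
  · intro i
    fin_cases i
    · exact hb 0
    · exact hb 1
    · exact continuous_const.mul (hb 2)
  · exact hform _ ((em_fr L x₀ m).trans h₀) (hsmall m)
  · have hBX : ∀ g : B → ℝ, L.SmoothOn (L.em x₀) g →
        BB A (fun η => dc n A ^ 2 * cf n 0 η) g x₀ m u = dc n A ^ 2 • BB A (cf n 0) g x₀ m u ∧
        BB A g (fun η => dc n A ^ 2 * cf n 0 η) x₀ m u = dc n A ^ 2 • BB A g (cf n 0) x₀ m u := by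
      intro g _
      have hd : DifferentiableAt ℝ (fun u => cf n 0 (L.e (fr L x₀ m) u)) u :=
        (((cf_smooth n 0 _ ((em_fr L x₀ m).trans h₀)).contDiffAt
          (isOpen_ball.mem_nhds hu))).differentiableAt (by simp)
      have hfd : fderiv ℝ (fun u => dc n A ^ 2 * cf n 0 (L.e (fr L x₀ m) u)) u =
          dc n A ^ 2 • fderiv ℝ (fun u => cf n 0 (L.e (fr L x₀ m) u)) u :=
        fderiv_const_mul hd _
      unfold BB
      rw [hfd]
      simp only [map_smul, smul_apply]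
      constructor <;> module
    obtain ⟨h1, -⟩ := hBX (cf n 1) (fun y hy => cf_smooth n 1 y (hy.trans h₀))
    obtain ⟨-, h2⟩ := hBX (cf n 1) (fun y hy => cf_smooth n 1 y (hy.trans h₀))
    rw [h1, h2]
    show T.N (fr L x₀ m) u = (T.N (fr L x₀ m) u - Sg A n _ _ (fr L x₀ m) u) + _
    rw [Sg_fr]
    have e0 : (![b 0, b 1, fun s => dc n A ^ 2 * b 2 s] : Fin 3 → ℝ → ℝ) 0 = b 0 := rfl
    have e1 : (![b 0, b 1, fun s => dc n A ^ 2 * b 2 s] : Fin 3 → ℝ → ℝ) 1 = b 1 := rfl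
    have e2 : (![b 0, b 1, fun s => dc n A ^ 2 * b 2 s] : Fin 3 → ℝ → ℝ) 2 =
      fun s => dc n A ^ 2 * b 2 s := rfl
    have e3 : ∀ i, n.x (L.e (fr L x₀ m) u) i = cf n i (L.e (fr L x₀ m) u) := fun i => rfl
    rw [e0, e1, e2]
    simp only [e3]
    module

include A in
/-- **4.1 (b) from the local form at a closed orbit** -/
theorem start_b_of_loc {T : Tens L} {n : Nor L o} {b : Fin 3 → ℝ → ℝ}
    (h : SN fun z => Mz T n z - ((b 0 (z 1) * z 0 + b 2 (z 1)) • EE 0 - b 1 (z 1) • XX))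
    (hb : ∀ i, Continuous (b i)) {r q₂ : ℝ} (hr : 0 < r) (hq₂ : r < q₂) {k₀ N : ℕ}
    (hR : Rough T k₀) {P : Fin 3 → ℝ → Fin N → ℝ} (hg : GoodP (b 0) 0 r N k₀ (P 0))
    (hb1 : BddP (b 1) 0 (r + 1) N (P 1)) (hb2 : BddP (b 2) 0 q₂ N (P 2)) (k' : ℕ) :
    Start T k' := by
  obtain ⟨x₀, V, X1, H⟩ := exists_SHyp A h hb
  exact H.start_b hr hq₂ hR (P := ![P 0, P 1, fun ρ => dc n A ^ 2 • P 2 ρ]) hg hb1
    (H80.BddP.smul hb2 _) k'

omit [MeasurableSpace B] [BorelSpace B] in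
theorem fderiv_cf_ne (n : Nor L o) (i : Fin 2) {y : X} (hy : L.em y = o.neg) {u : E2}
    (hu : u ∈ ball (0 : E2) 3) : fderiv ℝ (fun u => cf n i (L.e y u)) u ≠ 0 := by
  have h1 : fderiv ℝ (fun u => cf n i (L.e y u)) u =
      (H503.pr i).comp (fderiv ℝ (H854.jj n y) u) := H80.dF_cf n i hy hu
  intro h0
  have hu' := H854.isUnit_of_det _ (H854.jj_det n hy hu)
  set D := fderiv ℝ (H854.jj n y) u with hD
  have h2 : D (Ring.inverse D (EuclideanSpace.single i 1)) = EuclideanSpace.single i 1 := by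
    have := congrArg (fun M : E2 →L[ℝ] E2 => M (EuclideanSpace.single i 1))
      (Ring.mul_inverse_cancel D hu')
    exact this
  have h3 := congrArg (fun l : E2 →L[ℝ] ℝ => l (Ring.inverse D (EuclideanSpace.single i 1))) h0
  rw [h1] at h3
  simp only [ContinuousLinearMap.comp_apply, h2, H503.pr_apply, zero_apply] at h3
  simp at h3

include A in
/-- **4.1 (a) from the local form at a closed orbit** -/
theorem start_a_of_loc {T : Tens L} {n : Nor L o} {b : Fin 3 → ℝ → ℝ}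
    (h : SN fun z => Mz T n z - ((b 0 (z 1) * z 0 + b 2 (z 1)) • EE 0 - b 1 (z 1) • XX)) :
    ∃ ρ > 0, ∀ (s₁ : ℝ) (k : ℕ), |s₁| < ρ → ContDiffAt ℝ k (b 1) s₁ → Start T k := by
  obtain ⟨ρ, hρ, hform⟩ := H80.form A (c₁ := fun z => b 0 (z 1) * z 0 + b 2 (z 1))
    (c₂ := fun z => b 1 (z 1)) h
  refine ⟨ρ / 4, by positivity, fun s₁ k hs₁ hk => ?_⟩
  obtain ⟨x₀, h₀, hv, hsm⟩ := exists_small n (!₂[0, s₁]) (ε := ρ / 8) (by positivity)
  have hsmall : ∀ u ∈ ball (0 : E2) 3, ‖n.x (L.e x₀ u)‖ < ρ := by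
    intro u hu
    have h0 := hsm 0 u hu 0
    have h1 := hsm 0 u hu 1
    rw [fr_zero] at h0 h1
    simp only [Matrix.cons_val_zero, Matrix.cons_val_one] at h0 h1
    have e0 : |n.x (L.e x₀ u) 0| ≤ ρ / 8 := by
      rw [sub_zero] at h0; exact h0
    have e1 : |n.x (L.e x₀ u) 1| ≤ ρ / 4 + ρ / 8 := by
      have := abs_sub_abs_le_abs_sub (n.x (L.e x₀ u) 1) s₁
      linarith
    rw [EuclideanSpace.norm_eq, Fin.sum_univ_two, Real.sqrt_lt' hρ, Real.norm_eq_abs,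
      Real.norm_eq_abs]
    nlinarith [abs_nonneg (n.x (L.e x₀ u) 0), abs_nonneg (n.x (L.e x₀ u) 1)]
  have hFs : ContDiffOn ℝ ∞ (fun u => cf n 1 (L.e x₀ u)) (ball (0 : E2) 3) :=
    cf_smooth n 1 x₀ h₀
  have hXs : ContDiffOn ℝ ∞ (fun u => cf n 0 (L.e x₀ u)) (ball (0 : E2) 3) :=
    cf_smooth n 0 x₀ h₀
  -- the open set
  obtain ⟨I, hI, hIo, hsI⟩ := _root_.eventually_nhds_iff.mp
    (hk.eventually (by exact_mod_cast WithTop.coe_ne_top))
  set O : Set E2 := ball 0 3 ∩ (fun u => cf n 1 (L.e x₀ u)) ⁻¹' I with hO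
  have hOo : IsOpen O := hFs.continuousOn.isOpen_inter_preimage isOpen_ball hIo
  have hO3 : O ⊆ ball 0 3 := inter_subset_left
  have h0O : (0 : E2) ∈ O := by
    refine ⟨by simp, ?_⟩
    show n.x (L.e x₀ 0) 1 ∈ I
    rw [L.e_zero, hv]
    exact hsI
  have hww : ContDiffOn ℝ ∞ (ww A x₀ 0) (ball 0 3) := ww_smooth A x₀ 0
  refine start_a (y := x₀) hOo hO3 ⟨0, h0O⟩ (F := fun u => cf n 1 (L.e x₀ u))
    (X1 := fun u => cf n 0 (L.e x₀ u))
    ((hFs.mono hO3).of_le (by exact_mod_cast le_top))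
    ((hXs.mono hO3).of_le (by exact_mod_cast le_top))
    (fun u hu => fderiv_cf_ne n 1 h₀ (hO3 hu))
    (V := fun u => T.N x₀ u - Sg A n (fun z => b 0 (z 1) * z 0 + b 2 (z 1))
      (fun z => b 1 (z 1)) x₀ u)
    (((hform x₀ h₀ hsmall).mono hO3).of_le (by exact_mod_cast le_top))
    (α := fun u => Real.exp (2 * A.h * L.lv x₀) * (((b 0 (cf n 1 (L.e x₀ u)) *
      cf n 0 (L.e x₀ u) + b 2 (cf n 1 (L.e x₀ u))) * dc n A ^ 2) * ww A x₀ 0 u))
    (β := fun u => Real.exp (2 * A.h * L.lv x₀) * ((b 1 (cf n 1 (L.e x₀ u)) * dc n A ^ 2) *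
      ww A x₀ 0 u)) ?_ (fun u hu => ?_)
  · have hb1 : ContDiffOn ℝ k (fun u => b 1 (cf n 1 (L.e x₀ u))) O := by
      intro u hu
      have h1 : ContDiffAt ℝ k (b 1) (cf n 1 (L.e x₀ u)) := hI _ hu.2
      have h2 : ContDiffAt ℝ k (fun u => cf n 1 (L.e x₀ u)) u :=
        (hFs.contDiffAt (isOpen_ball.mem_nhds hu.1)).of_le (by exact_mod_cast le_top)
      exact (ContDiffAt.comp u h1 h2).contDiffWithinAt
    have hw' : ContDiffOn ℝ k (ww A x₀ 0) O := (hww.mono hO3).of_le (by exact_mod_cast le_top)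
    exact contDiffOn_const.mul ((hb1.mul contDiffOn_const).mul hw')
  · have h1 := Sg_fr A n (fun z => b 0 (z 1) * z 0 + b 2 (z 1)) (fun z => b 1 (z 1)) x₀ 0 u
    rw [fr_zero] at h1
    have e4 : T.N x₀ u = (T.N x₀ u - Sg A n (fun z => b 0 (z 1) * z 0 + b 2 (z 1))
      (fun z => b 1 (z 1)) x₀ u) + Sg A n (fun z => b 0 (z 1) * z 0 + b 2 (z 1))
      (fun z => b 1 (z 1)) x₀ u := by abel
    rw [add_assoc]
    refine e4.trans (congrArg _ ?_)
    rw [h1]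
    unfold BB
    rw [fr_zero]
    have e3 : ∀ i, n.x (L.e x₀ u) i = cf n i (L.e x₀ u) := fun i => rfl
    simp only [e3]
    module

end Vale.Agent.P207.N3.H476
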